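import Vale.Agent.P179B.PG

/-! P179, blocks: sections and regular classes.

For regular a the map (b, v) ↦ y = b (v a) b⁻¹ from pairs with v a p-element commuting with a onto the section of a (all y whose regular component is conjugate to a)
has fibres of the size of the centralizer of a (rp_unique, rp_conj): section_sum. ts_eq: then group a by classes. TS_TL: the terms v = 1 give TL; the others give the singular
elements of the section, a conjugation invariant set: orth, sum_cent with δ a = if a regular then that sum else 0.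
-/

open Finset
open scoped Classical

noncomputable section

namespace Vale.Agent.P179

set_option linter.unusedSectionVars false

variable {p : ℕ} [Fact p.Prime] {H : Type} [Group H] [Fintype H] {k : Type} [Field k] [CharP k p]
  {M : PM k}

theorem DA_cnt (a c : H) :
    #{b : H | b * a * b⁻¹ = c * a * c⁻¹} = Nat.card (Subgroup.centralizer {a}) := by
  rw [Nat.card_eq_fintype_card, Fintype.card_subtype]
  refine Finset.card_nbij' (fun b => c⁻¹ * b) (fun b => c * b) (fun b hb => ?_) (fun b hb => ?_)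
    (fun b _ => by simp) (fun b _ => by simp)
  · simp only [coe_filter, mem_univ, true_and, Set.mem_ofPred_eq,
      Subgroup.mem_centralizer_singleton_iff] at hb ⊢
    calc c⁻¹ * b * a = c⁻¹ * (b * a * b⁻¹) * b := by group
      _ = a * (c⁻¹ * b) := by rw [hb]; group
  · simp only [coe_filter, mem_univ, true_and, Set.mem_ofPred_eq,
      Subgroup.mem_centralizer_singleton_iff] at hb ⊢
    calc c * b * a * (c * b)⁻¹ = c * (b * a) * b⁻¹ * c⁻¹ := by group
      _ = c * a * c⁻¹ := by rw [hb]; group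

theorem DA_rp {a v : H} (ha : IsReg p a) (b : H) :
    (IsP p v ∧ v * a = a * v) ↔ RP p (b * (v * a) * b⁻¹) (b * a * b⁻¹) := by
  constructor
  · rintro ⟨h1, h2⟩
    refine rp_conj ⟨ha, by rwa [mul_inv_cancel_right], ?_⟩ b
    rw [← mul_assoc, ← h2]
  · intro h
    have h' := rp_conj h b⁻¹
    rw [show b⁻¹ * (b * (v * a) * b⁻¹) * b⁻¹⁻¹ = v * a by group,
      show b⁻¹ * (b * a * b⁻¹) * b⁻¹⁻¹ = a by group] at h'
    obtain ⟨-, h1, h2⟩ := h'
    rw [mul_inv_cancel_right] at h1
    rw [← mul_assoc] at h2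
    exact ⟨h1, mul_right_cancel h2⟩

theorem DA_reg (a c : H) : IsReg p (c * a * c⁻¹) ↔ IsReg p a := by
  have : orderOf (c * a * c⁻¹) = orderOf a := (MulAut.conj c).orderOf_eq a
  unfold IsReg
  rw [this]

theorem DA_sec {y a : H} (h : ∃ a1, RP p y a1 ∧ IsConj a1 a) (c d : H) :
    ∃ a1, RP p (c * y * c⁻¹) a1 ∧ IsConj a1 (d * a * d⁻¹) := by
  obtain ⟨a1, h1, h2⟩ := h
  exact ⟨_, rp_conj h1 c, (isConj_iff.2 ⟨c, rfl⟩ : IsConj a1 _).symm.trans
    (h2.trans (isConj_iff.2 ⟨d, rfl⟩))⟩

theorem DA_cl {A : Type} [CommRing A] {η : H → A} (h : Cl η) (R : H → H → Prop)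
    [∀ a, DecidablePred (R a)] (hR : ∀ a y c, R a y → R (c * a * c⁻¹) (c * y * c⁻¹)) :
    Cl fun a => if IsReg p a then ∑ y with R a y, η (y * a⁻¹) else 0 := by
  intro a c
  simp only [DA_reg]
  congr 1
  refine (Finset.sum_equiv (MulAut.conj c).toEquiv (fun y => ?_) fun y _ => ?_).symm
  · simp only [mem_filter, mem_univ, true_and]
    refine ⟨fun h1 => hR a y c h1, fun h1 => ?_⟩
    have h2 := hR _ _ c⁻¹ h1
    change R _ (c⁻¹ * (c * y * c⁻¹) * c⁻¹⁻¹) at h2
    rwa [show c⁻¹ * (c * y * c⁻¹) * c⁻¹⁻¹ = y by group,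
      show c⁻¹ * (c * a * c⁻¹) * c⁻¹⁻¹ = a by group] at h2
  · change _ = η (c * y * c⁻¹ * (c * a * c⁻¹)⁻¹)
    rw [← h (y * a⁻¹) c]
    congr 1
    group

theorem DA_mk (c : ConjClasses H) (b : H) :
    ConjClasses.mk (b⁻¹ * (Quotient.out c : H) * b) = c := by
  refine Eq.trans ?_ (Quotient.out_eq c)
  exact ConjClasses.mk_eq_mk_iff_isConj.2 (isConj_iff.2 ⟨b, by group⟩)

theorem DA_cls {A : Type} [CommRing A] {δ : H → A} (h : Cl δ) :
    ∑ a, Nat.card (Subgroup.centralizer {a}) * δ a =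
      Nat.card H * ∑ c : ConjClasses H, δ (Quotient.out c) := by
  have h1 : ∀ a : H, (Nat.card (Subgroup.centralizer {a}) : A) * δ a =
      ∑ b : H, if b * a * b⁻¹ = (Quotient.out (ConjClasses.mk a) : H) then δ a else 0 := fun a => by
    have h2 : IsConj a (Quotient.out (ConjClasses.mk a) : H) :=
      ConjClasses.mk_eq_mk_iff_isConj.1 (Quotient.out_eq (ConjClasses.mk a)).symm
    obtain ⟨c, hc⟩ := isConj_iff.1 h2
    rw [← hc, ← sum_filter, sum_const, DA_cnt, nsmul_eq_mul]
  have h2 : ∀ b : H,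
      (∑ a : H, if b * a * b⁻¹ = (Quotient.out (ConjClasses.mk a) : H) then δ a else 0) =
        ∑ c : ConjClasses H, δ (Quotient.out c) := fun b => by
    rw [← sum_filter]
    refine Finset.sum_nbij' (fun a => ConjClasses.mk a)
      (fun c => b⁻¹ * (Quotient.out c : H) * b) (fun _ _ => mem_univ _) (fun c _ => ?_)
      (fun a ha => ?_) (fun c _ => DA_mk c b) fun a ha => ?_
    · simp only [mem_filter, mem_univ, true_and, DA_mk]
      group
    · rw [← (mem_filter.1 ha).2]
      group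
    · rw [← (mem_filter.1 ha).2, h]
  rw [sum_congr rfl fun a _ => h1 a, sum_comm, sum_congr rfl fun b _ => h2 b, sum_const,
    nsmul_eq_mul, card_univ, Nat.card_eq_fintype_card]

theorem DA_TS {A : Type} [CommRing A] (η : H → A) : TS p η = ∑ a, if IsReg p a then
    ∑ y : H × H with IsP p y.2 ∧ y.2 * a = a * y.2, η (y.1 * (y.2 * a) * y.1⁻¹ * a⁻¹) else 0 := by
  unfold TS
  rw [sum_filter, Fintype.sum_prod_type]
  refine sum_congr rfl fun a _ => ?_
  by_cases h : IsReg p a
  · simp only [h, true_and, if_true, sum_filter]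
  · simp only [h, false_and, if_false, sum_const_zero]

theorem DA_TL {A : Type} [CommRing A] (η : H → A) : TL p η = ∑ a, if IsReg p a then
    ∑ b : H, η (b * a * b⁻¹ * a⁻¹) else 0 := by
  unfold TL
  rw [sum_filter, Fintype.sum_prod_type]
  refine sum_congr rfl fun a _ => ?_
  by_cases h : IsReg p a
  · simp only [h, if_true]
  · simp only [h, if_false, sum_const_zero]

theorem DA_one {A : Type} [CommRing A] (F : H → A) {a : H} (ha : IsReg p a) :
    ∑ y : H × H with IsP p y.2 ∧ y.2 * a = a * y.2,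
      (if IsReg p (y.1 * (y.2 * a) * y.1⁻¹) then F (y.1 * (y.2 * a) * y.1⁻¹) else 0) =
      ∑ b : H, F (b * a * b⁻¹) := by
  rw [sum_filter, Fintype.sum_prod_type]
  refine sum_congr rfl fun b _ => ?_
  rw [sum_eq_single (1 : H) (fun v _ hv => ?_) fun h => absurd (mem_univ _) h]
  · have h1 : IsP p (1 : H) := ⟨0, one_pow _⟩
    simp only [h1, one_mul, mul_one, and_self, if_true, DA_reg, ha]
  · split_ifs with h1 h2
    · have h3 : RP p (b * (v * a) * b⁻¹) (b * (v * a) * b⁻¹) :=
        ⟨h2, ⟨0, by rw [mul_inv_cancel, one_pow]⟩, rfl⟩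
      have h4 := rp_unique h3 ((DA_rp ha b).1 h1)
      exact absurd (by simpa using h4) hv
    · rfl
    · rfl

theorem section_sum {A : Type} [CommRing A] (F : H → A) {a : H} (ha : IsReg p a) :
    ∑ y : H × H with IsP p y.2 ∧ y.2 * a = a * y.2, F (y.1 * (y.2 * a) * y.1⁻¹) =
      Nat.card (Subgroup.centralizer {a}) * ∑ y with ∃ a1, RP p y a1 ∧ IsConj a1 a, F y := by
  have h1 : ∀ b : H, (∑ v : H, if IsP p v ∧ v * a = a * v then F (b * (v * a) * b⁻¹) else 0) =
      ∑ y : H, if RP p y (b * a * b⁻¹) then F y else 0 := fun b => by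
    refine Fintype.sum_equiv ((Equiv.mulRight a).trans (MulAut.conj b).toEquiv) _ _ fun v => ?_
    exact if_congr (DA_rp ha b) rfl rfl
  rw [sum_filter, Fintype.sum_prod_type, sum_congr rfl fun b _ => h1 b, sum_comm, sum_filter,
    mul_sum]
  refine sum_congr rfl fun y _ => ?_
  split_ifs with h
  · obtain ⟨a1, h2, h3⟩ := h
    obtain ⟨c, rfl⟩ := isConj_iff.1 h3.symm
    rw [← sum_filter, sum_const, nsmul_eq_mul, ← DA_cnt a c]
    congr 3
    ext b
    simp only [mem_filter, mem_univ, true_and]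
    exact ⟨fun h4 => rp_unique h4 h2, fun h4 => h4 ▸ h2⟩
  · rw [mul_zero]
    exact sum_eq_zero fun b _ => if_neg fun h2 =>
      h ⟨_, h2, (isConj_iff.2 ⟨b, rfl⟩ : IsConj a _).symm⟩

theorem ts_eq {A : Type} [CommRing A] {η : H → A} (h : Cl η) : TS p η = Nat.card H * ts p η := by
  have h1 := DA_cls (DA_cl (p := p) h (fun a y => ∃ a1, RP p y a1 ∧ IsConj a1 a)
    fun a y c h2 => DA_sec h2 c c)
  have h2 : ts p η = _ := sum_filter _ _
  rw [DA_TS, h2]
  refine Eq.trans ?_ h1
  refine sum_congr rfl fun a _ => ?_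
  split_ifs with ha
  · exact section_sum (fun y => η (y * a⁻¹)) ha
  · rw [mul_zero]

theorem TS_TL {η : H → M.O} (h : Good M p η) : Sm M (Nat.card H) (TS p η - TL p η) := by
  have h1 := sum_cent (M := M) (DA_cl (p := p) h.cl
    (fun a y => (∃ a1, RP p y a1 ∧ IsConj a1 a) ∧ ¬ IsReg p y)
    fun a y c h2 => ⟨DA_sec h2.1 c c, fun h3 => h2.2 ((DA_reg y c).1 h3)⟩) fun a => by
      split_ifs with ha
      · refine orth h ha _ (fun y hy => (mem_filter.1 hy).2.2) fun y hy b => ?_
        have h2 := (mem_filter.1 hy).2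
        refine mem_filter.2 ⟨mem_univ _, ?_, fun h3 => h2.2 ((DA_reg y b).1 h3)⟩
        simpa using DA_sec h2.1 b 1
      · exact map_zero _
  refine Eq.mp (congrArg (Sm M (Nat.card H)) ?_) h1
  rw [DA_TS, DA_TL, ← sum_sub_distrib]
  refine sum_congr rfl fun a _ => ?_
  split_ifs with ha
  · have e1 := section_sum (p := p) (fun y => if IsReg p y then 0 else η (y * a⁻¹)) ha
    have e2 := DA_one (fun y => η (y * a⁻¹)) ha
    have e3 : ∑ y with (∃ a1, RP p y a1 ∧ IsConj a1 a) ∧ ¬ IsReg p y, η (y * a⁻¹) =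
        ∑ y with ∃ a1, RP p y a1 ∧ IsConj a1 a, if IsReg p y then 0 else η (y * a⁻¹) := by
      rw [sum_filter, sum_filter]
      refine sum_congr rfl fun y _ => ?_
      by_cases h4 : ∃ a1, RP p y a1 ∧ IsConj a1 a <;> by_cases h5 : IsReg p y <;>
        simp only [h4, h5, not_true, not_false_iff, and_true, and_false, if_true, if_false]
    rw [← e2, ← sum_sub_distrib, e3, ← e1]
    refine sum_congr rfl fun y _ => ?_
    split_ifs <;> simp
  · simp

end Vale.Agent.P179
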