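import Vale.Agent.P179B.Defs

/-! P179, blocks: convolution, the group algebra and regular components. -/

open Finset
open scoped Classical

noncomputable section

namespace Vale.Agent.P179

set_option linter.unusedSectionVars false

variable {p : ℕ} [Fact p.Prime] {H : Type} [Group H] [Fintype H] {A : Type} [CommRing A]

theorem ma_coeff (η : H → A) (g : H) : (ma η).coeff g = η g := by
  simp [ma, Finsupp.finsetSum_apply, Finsupp.single_apply]

theorem ma_cv (η ζ : H → A) : ma (cv η ζ) = ma η * ma ζ := by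
  ext g
  rw [ma_coeff, show ma ζ = ∑ g, MonoidAlgebra.single g (ζ g) from rfl, mul_sum,
    MonoidAlgebra.coeff_sum, Finsupp.finsetSum_apply]
  simp only [MonoidAlgebra.coeff_mul_single_apply, ma_coeff, cv]

theorem ma_self (z : MonoidAlgebra A H) : ma (fun g => z.coeff g) = z := by
  ext g
  rw [ma_coeff]

theorem ma_center {η : H → A} : ma η ∈ Subalgebra.center A (MonoidAlgebra A H) ↔ Cl η := by
  rw [Subalgebra.mem_center_iff]
  constructor
  · intro h g y
    have h1 := congrArg (fun z : MonoidAlgebra A H => z.coeff (y * g))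
      (h (MonoidAlgebra.single y 1))
    simp only [MonoidAlgebra.coeff_mul_single_apply, MonoidAlgebra.coeff_single_mul_apply,
      ma_coeff, one_mul, mul_one, inv_mul_cancel_left] at h1
    exact h1.symm
  · intro h b
    rw [← ma_self b, show ma (fun g => b.coeff g) = ∑ g, MonoidAlgebra.single g (b.coeff g) from rfl,
      mul_sum, sum_mul]
    refine sum_congr rfl fun y _ => ?_
    ext g
    rw [MonoidAlgebra.coeff_mul_single_apply, MonoidAlgebra.coeff_single_mul_apply, ma_coeff,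
      ma_coeff, mul_comm, ← h (y⁻¹ * g) y, mul_inv_cancel_left]

theorem Cl.cv {η ζ : H → A} (h : Cl η) (h1 : Cl ζ) : Cl (cv η ζ) := by
  rw [← ma_center, ma_cv]
  exact mul_mem (ma_center.2 h) (ma_center.2 h1)

theorem push_cv {K : Type} [Group K] [Fintype K] (f : H →* K) (η ζ : H → A) :
    push f (cv η ζ) = cv (push f η) (push f ζ) := by
  funext c
  have e : ∀ g : H, ∑ x with f x = c, η (x * g⁻¹) = push f η (c * (f g)⁻¹) := fun g =>
    sum_equiv (Equiv.mulRight g⁻¹) (fun x => by simp) fun x _ => rfl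
  calc push f (cv η ζ) c = ∑ g, push f η (c * (f g)⁻¹) * ζ g := by
        simp only [← e, sum_mul]
        exact sum_comm
    _ = ∑ d, ∑ g with f g = d, push f η (c * (f g)⁻¹) * ζ g := (sum_fiberwise _ _ _).symm
    _ = _ := by
        refine sum_congr rfl fun d _ => ?_
        rw [show push f ζ d = ∑ g with f g = d, ζ g from rfl, mul_sum]
        exact sum_congr rfl fun g hg => by rw [(mem_filter.1 hg).2]

theorem Cl.push {K : Type} [Group K] [Fintype K] {f : H →* K} (hf : Function.Surjective f)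
    {η : H → A} (h : Cl η) : Cl (push f η) := by
  intro c d
  obtain ⟨y, rfl⟩ := hf d
  refine (sum_equiv (MulAut.conj y).toEquiv (fun x => ?_) fun x _ => (h x y).symm).symm
  simp

theorem PB_cz {Q : Subgroup H} {g y : H} (hy : y ∈ Subgroup.normalizer (Q : Set H)) (h : Cz g Q) :
    Cz (y * g * y⁻¹) Q := by
  intro q hq
  have h1 : y⁻¹ * q * y⁻¹⁻¹ ∈ Q := (Subgroup.mem_normalizer_iff.1 (inv_mem hy) q).1 hq
  have h2 := h _ h1
  calc y * g * y⁻¹ * q = y * (g * (y⁻¹ * q * y⁻¹⁻¹)) * y⁻¹ := by group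
    _ = q * (y * g * y⁻¹) := by rw [h2]; group

theorem PB_cz_iff {Q : Subgroup H} {g y : H} (hy : y ∈ Subgroup.normalizer (Q : Set H)) :
    Cz (y * g * y⁻¹) Q ↔ Cz g Q := by
  refine ⟨fun h => ?_, PB_cz hy⟩
  have h1 := PB_cz (inv_mem hy) h
  rwa [show y⁻¹ * (y * g * y⁻¹) * y⁻¹⁻¹ = g by group] at h1

theorem Cl.resQ {η : H → A} (h : Cl η) (Q : Subgroup H) : Cl (resQ Q η) := by
  intro g y
  change (if Cz ((y : H) * g * (y : H)⁻¹) Q then η ((y : H) * g * (y : H)⁻¹) else 0) =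
    if Cz (g : H) Q then η g else 0
  rw [h g y]
  exact if_congr (PB_cz_iff y.2) rfl rfl

theorem Cl.res {η : H → A} (h : Cl η) (σ : Finset (Subgroup H)) : Cl (res σ η) := by
  intro g y
  change (if CzC ((y : H) * g * (y : H)⁻¹) σ then η ((y : H) * g * (y : H)⁻¹) else 0) =
    if CzC (g : H) σ then η g else 0
  rw [h g y]
  refine if_congr (forall₂_congr fun Q hQ => PB_cz_iff ?_) rfl rfl
  exact Subgroup.mem_iInf.1 (Subgroup.mem_iInf.1 y.2 Q) hQ

theorem exists_rp (y : H) : ∃ a, RP p y a := by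
  obtain ⟨a, u, h1, h2, h3, rfl⟩ := BC_dec (p := p) y
  refine ⟨a, h1, ?_, ?_⟩
  · rw [h3.eq, mul_inv_cancel_right]
    exact h2
  · rw [mul_assoc, h3.eq]

theorem PB_pow {y a : H} (h : RP p y a) :
    ∃ k : ℕ, ∀ n, p ^ k ≤ p ^ n → a ^ p ^ n = a → y ^ p ^ n = a := by
  obtain ⟨-, ⟨k, hk⟩, hc⟩ := h
  refine ⟨k, fun n hn ha => ?_⟩
  have hp : p.Prime := Fact.out
  obtain ⟨m, rfl⟩ := Nat.exists_eq_add_of_le ((Nat.pow_le_pow_iff_right hp.one_lt).1 hn)
  have h1 : Commute (y * a⁻¹) a := Commute.mul_left hc (Commute.refl a).inv_left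
  have h2 := h1.mul_pow (p ^ (k + m))
  rw [inv_mul_cancel_right, ha, pow_add, pow_mul (y * a⁻¹), hk, one_pow, one_mul] at h2
  rw [pow_add]
  exact h2

theorem rp_unique {y a a1 : H} (h : RP p y a) (h1 : RP p y a1) : a = a1 := by
  obtain ⟨k, hk⟩ := PB_pow h
  obtain ⟨k1, hk1⟩ := PB_pow h1
  obtain ⟨n, h2, h3, -⟩ := BE_pow p H (p ^ k + p ^ k1)
  rw [← hk n (le_trans (Nat.le_add_right _ _) h2) (h3 a h.1),
    hk1 n (le_trans (Nat.le_add_left _ _) h2) (h3 a1 h1.1)]

theorem rp_zpowers {y a : H} (h : RP p y a) : a ∈ Subgroup.zpowers y := by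
  obtain ⟨k, hk⟩ := PB_pow h
  obtain ⟨n, h2, h3, -⟩ := BE_pow p H (p ^ k)
  rw [← hk n h2 (h3 a h.1)]
  exact pow_mem (Subgroup.mem_zpowers y) _

theorem rp_conj {y a : H} (h : RP p y a) (b : H) : RP p (b * y * b⁻¹) (b * a * b⁻¹) := by
  obtain ⟨h1, ⟨k, hk⟩, hc⟩ := h
  refine ⟨?_, ⟨k, ?_⟩, ?_⟩
  · have e : orderOf (b * a * b⁻¹) = orderOf a := (MulAut.conj b).orderOf_eq a
    unfold IsReg
    rwa [e]
  · rw [show b * y * b⁻¹ * (b * a * b⁻¹)⁻¹ = b * (y * a⁻¹) * b⁻¹ by group, conj_pow, hk]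
    group
  · calc b * y * b⁻¹ * (b * a * b⁻¹) = b * (y * a) * b⁻¹ := by group
      _ = _ := by rw [hc]; group

theorem cz_lift {K : Type} [Group K] (f : H →* K) (hk : IsPGroup p f.ker) {g : H} (hg : IsReg p g)
    (h0 : Cz g f.ker) {R : Subgroup H} (h : Cz (f g) (R.map f)) : Cz g R := by
  intro r hr
  have h1 : g * r * g⁻¹ * r⁻¹ ∈ f.ker := by
    rw [MonoidHom.mem_ker, map_mul, map_mul, map_mul, h _ (Subgroup.mem_map_of_mem f hr)]
    simp
  generalize hδ : g * r * g⁻¹ * r⁻¹ = δ at h1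
  have h2 : g * r = δ * r * g := by rw [← hδ]; group
  have h3 : Commute g δ := h0 δ h1
  have h4 : ∀ n : ℕ, g ^ n * r = δ ^ n * r * g ^ n := fun n => by
    induction n with
    | zero => simp
    | succ n ih =>
      calc g ^ (n + 1) * r = g * δ ^ n * r * g ^ n := by
            rw [pow_succ', mul_assoc, ih]; simp only [mul_assoc]
        _ = δ ^ n * (g * r) * g ^ n := by rw [(h3.pow_right n).eq]; simp only [mul_assoc]
        _ = _ := by rw [h2, pow_succ, pow_succ']; simp only [mul_assoc]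
  have h5 := h4 (orderOf g)
  rw [pow_orderOf_eq_one, one_mul, mul_one, right_eq_mul] at h5
  obtain ⟨k, h6⟩ := hk ⟨δ, h1⟩
  have h7 : δ ^ p ^ k = 1 := congrArg Subtype.val h6
  have h8 : δ = 1 := orderOf_eq_one_iff.1 (Nat.eq_one_of_dvd_coprimes (Nat.Coprime.pow_right k hg)
    (orderOf_dvd_of_pow_eq_one h5) (orderOf_dvd_of_pow_eq_one h7))
  rw [h2, h8, one_mul]

theorem PB_le {g : H} {Q : Subgroup H} : Cz g Q ↔ Q ≤ Subgroup.centralizer {g} :=
  forall₂_congr fun q _ => by rw [Subgroup.mem_centralizer_singleton_iff, eq_comm]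

theorem czC_tg {Q₀ R : Subgroup H} {σ : Finset (Subgroup H)} {g : H} (h0 : Cz g Q₀) (h1 : Cz g R) :
    CzC g (tg Q₀ R σ) ↔ CzC g σ := by
  have hne : ∀ Q, ¬ R ≤ Q → Q ≠ tb Q₀ R σ := fun Q hQ e => hQ (e ▸ TB_le Q₀ R σ)
  have key : (∀ Q ∈ σ, ¬ R ≤ Q → Cz g Q) → Cz g (tb Q₀ R σ) := fun h =>
    PB_le.2 (sup_le (sup_le (PB_le.1 h0) (Finset.sup_le fun Q hQ =>
      PB_le.1 (h Q (mem_filter.1 hQ).1 (mem_filter.1 hQ).2))) (PB_le.1 h1))
  constructor
  · intro h Q hQ
    by_cases e : Q = tb Q₀ R σ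
    · rw [e]
      exact key fun Q' hQ' hn => h Q' ((TB_mem (hne Q' hn)).2 hQ')
    · exact h Q ((TB_mem e).2 hQ)
  · intro h Q hQ
    by_cases e : Q = tb Q₀ R σ
    · rw [e]
      exact key fun Q' hQ' _ => h Q' hQ'
    · exact h Q ((TB_mem e).1 hQ)

end Vale.Agent.P179
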