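import Vale.Agent.P179B.PA
import Vale.Agent.P179B.PB

/-! P179, blocks: the Brauer homomorphism.

brauer_cv: the p-group Q acts on H by conjugation, the summand is invariant (x centralizes Q), in characteristic p only the fixed points
count (see the helper lemmas in P179/BD.lean, or orbits of p-power size). Good.bar: resQ is idempotent by brauer_cv (for x outside the
centralizer both sides vanish), then push_cv; lifts of singular elements are singular (isReg_map). Good.res: apply brauer_cv with Q the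
largest member of the chain (or ⊥); the centralizer of Q lies in St σ.
-/

open Finset
open scoped Classical

noncomputable section

namespace Vale.Agent.P179

set_option linter.unusedSectionVars false

variable {p : ℕ} [Fact p.Prime] {H : Type} [Group H] [Fintype H] {k : Type} [Field k] [CharP k p]
  {M : PM k}

theorem PC_fix {P α : Type} [Group P] [Fintype α] [MulAction P α] (hP : IsPGroup p P) (g : α → k)
    (h : ∀ (q : P) a, g (q • a) = g a) (h0 : ∀ a, (∀ q : P, q • a = a) → g a = 0) :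
    ∑ a, g a = 0 := by
  rw [← sum_fiberwise univ (Quotient.mk (MulAction.orbitRel P α)) g]
  refine sum_eq_zero fun ω _ => ?_
  induction ω using Quotient.inductionOn with
  | h a =>
  have e : ∀ b, Quotient.mk (MulAction.orbitRel P α) b = Quotient.mk _ a ↔
      b ∈ MulAction.orbit P a := fun b => Quotient.eq.trans MulAction.orbitRel_apply
  rw [sum_congr rfl (g := fun _ => g a) fun b hb => by
    obtain ⟨q, rfl⟩ := (e b).1 (mem_filter.1 hb).2
    exact h q a, sum_const, nsmul_eq_mul]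
  obtain ⟨n, hn⟩ := hP.card_orbit a
  have e1 : #{b | Quotient.mk (MulAction.orbitRel P α) b = Quotient.mk _ a} = p ^ n := by
    rw [← hn, Nat.card_eq_fintype_card, Fintype.card_subtype]
    exact congrArg _ (filter_congr fun b _ => e b)
  rcases n with _ | n
  · rw [h0 a, mul_zero]
    intro q
    have := (Nat.card_eq_one_iff_unique.1 hn).1
    exact congrArg Subtype.val (this.elim (⟨q • a, q, rfl⟩ : MulAction.orbit P a)
      ⟨a, MulAction.mem_orbit_self a⟩)
  · rw [e1, Nat.cast_pow, CharP.cast_eq_zero k p, zero_pow n.succ_ne_zero, zero_mul]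

theorem PC_mul {Q : Subgroup H} {a b : H} (ha : Cz a Q) (hb : Cz b Q) : Cz (a * b) Q :=
  fun q hq => by rw [mul_assoc, hb q hq, ← mul_assoc, ha q hq, mul_assoc]

theorem PC_inv {Q : Subgroup H} {a : H} (ha : Cz a Q) : Cz a⁻¹ Q :=
  fun q hq => (Commute.inv_left (ha q hq)).eq

theorem PC_norm {Q : Subgroup H} {a : H} (ha : Cz a Q) : a ∈ Subgroup.normalizer (Q : Set H) := by
  refine Subgroup.mem_normalizer_iff.2 fun q => ⟨fun hq => ?_, fun hq => ?_⟩
  · rwa [ha q hq, mul_inv_cancel_right]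
  · have e := ha _ hq
    rw [mul_assoc a q, mul_assoc a, mul_left_cancel_iff, ← mul_assoc, inv_mul_cancel_right] at e
    rw [← e]
    exact hq

theorem brauer_cv {Q : Subgroup H} (hQ : IsPGroup p Q) {ζ ζ1 : H → k} (h : Cl ζ) (h1 : Cl ζ1) {x : H}
    (hx : Cz x Q) : cv ζ ζ1 x = ∑ g with Cz g Q, ζ (x * g⁻¹) * ζ1 g := by
  have key := @PC_fix p _ k _ _ Q H _ _ (MulAction.compHom H (MulAut.conj.comp Q.subtype)) hQ
    (fun g => if Cz g Q then 0 else ζ (x * g⁻¹) * ζ1 g) ?_ ?_
  · rw [cv, sum_filter, ← sub_eq_zero, ← sum_sub_distrib]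
    exact (sum_congr rfl fun g _ => by split_ifs <;> simp).trans key
  · intro q a
    show (if Cz ((q : H) * a * (q : H)⁻¹) Q then 0 else
      ζ (x * ((q : H) * a * (q : H)⁻¹)⁻¹) * ζ1 ((q : H) * a * (q : H)⁻¹)) = _
    have e : x * ((q : H) * a * (q : H)⁻¹)⁻¹ = q * (x * a⁻¹) * (q : H)⁻¹ := by
      rw [← mul_assoc (q : H), ← hx q q.2]
      group
    have e1 : Cz ((q : H) * a * (q : H)⁻¹) Q ↔ Cz a Q := by
      refine ⟨fun hc => ?_, fun hc => by rwa [← hc q q.2, mul_inv_cancel_right]⟩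
      have e2 := hc q q.2
      rw [inv_mul_cancel_right, mul_left_cancel_iff] at e2
      rwa [← e2] at hc
    rw [e, h, h1]
    exact if_congr e1 rfl rfl
  · intro a ha
    refine if_pos fun q hq => ?_
    have e : q * a * q⁻¹ = a := ha ⟨q, hq⟩
    exact (mul_inv_eq_iff_eq_mul.1 e).symm

theorem PC_cv {Q N : Subgroup H} [Fintype N] (hQ : IsPGroup p Q) (hN : ∀ g, Cz g Q → g ∈ N)
    {ζ ζ1 : H → k} (h : Cl ζ) (h1 : Cl ζ1) :
    (fun g : N => if Cz (g : H) Q then cv ζ ζ1 g else 0) =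
      cv (fun g : N => if Cz (g : H) Q then ζ g else 0)
        (fun g : N => if Cz (g : H) Q then ζ1 g else 0) := by
  funext x
  by_cases hx : Cz (x : H) Q
  · rw [if_pos hx, brauer_cv hQ h h1 hx, cv, sum_filter]
    rw [← sum_subset (subset_univ (univ.filter (· ∈ N))) fun g _ hg =>
      if_neg fun hc => hg (mem_filter.2 ⟨mem_univ _, hN g hc⟩)]
    rw [sum_subtype (p := (· ∈ N)) _ (by simp)]
    refine sum_congr rfl fun g _ => ?_
    by_cases hg : Cz (g : H) Q
    · rw [if_pos hg, if_pos hg, if_pos (show Cz ((x * g⁻¹ : N) : H) Q from PC_mul hx (PC_inv hg))]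
      rfl
    · rw [if_neg hg, if_neg hg, mul_zero]
  · rw [if_neg hx, cv]
    refine (sum_eq_zero fun g _ => ?_).symm
    by_cases hg : Cz (g : H) Q
    · rw [if_neg, zero_mul]
      intro hc
      have := PC_mul hc hg
      rw [Subgroup.coe_mul, Subgroup.coe_inv, inv_mul_cancel_right] at this
      exact hx this
    · rw [if_neg hg, mul_zero]

theorem PC_idm {Q N : Subgroup H} [Fintype N] (hQ : IsPGroup p Q) (hN : ∀ g, Cz g Q → g ∈ N)
    {η : H → M.O} (h : Good M p η) {ρ : N → M.O}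
    (e : ∀ g : N, ρ g = if Cz (g : H) Q then η g else 0) :
    cv (M.ψ ∘ ρ) (M.ψ ∘ ρ) = M.ψ ∘ ρ ∧ ∀ g, ¬ IsReg p g → ρ g = 0 := by
  have e1 : M.ψ ∘ ρ = fun g : N => if Cz (g : H) Q then (M.ψ ∘ η) g else 0 := by
    funext g
    simp only [Function.comp, e, apply_ite M.ψ, map_zero]
  have hc : Cl (M.ψ ∘ η) := fun g y => congrArg M.ψ (h.cl g y)
  refine ⟨by rw [e1, ← PC_cv hQ hN hc hc, h.idm], fun g hg => ?_⟩
  rw [e, h.reg g, ite_self]
  rwa [IsReg, Subgroup.orderOf_coe]

theorem resQ_cv {Q : Subgroup H} (hQ : IsPGroup p Q) {ζ ζ1 : H → k} (h : Cl ζ) (h1 : Cl ζ1) :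
    resQ Q (cv ζ ζ1) = cv (resQ Q ζ) (resQ Q ζ1) := by
  exact PC_cv hQ (fun _ => PC_norm) h h1

theorem Good.bar {η : H → M.O} (h : Good M p η) {Q : Subgroup H} (hQ : IsPGroup p Q) :
    Good M p (bar Q η) := by
  obtain ⟨h1, h2⟩ := PC_idm hQ (fun _ => PC_norm) h (ρ := resQ Q η) fun _ => rfl
  have e : M.ψ ∘ P179.bar Q η = push (QuotientGroup.mk' _) (M.ψ ∘ resQ Q η) := by
    funext c
    simp only [Function.comp, P179.bar, push, map_sum]
  refine ⟨(h.cl.resQ Q).push (QuotientGroup.mk'_surjective _), by rw [e, ← push_cv, h1],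
    fun c hc => sum_eq_zero fun g hg => h2 g fun hr => hc ?_⟩
  simp only [mem_filter, mem_univ, true_and] at hg
  rw [← hg]
  exact isReg_map _ hr

theorem Good.res {η : H → M.O} (h : Good M p η) {σ : Finset (Subgroup H)} (hσ : IsCh p ⊥ σ) :
    Good M p (res σ η) := by
  obtain ⟨Q, hQ, e⟩ : ∃ Q : Subgroup H, IsPGroup p Q ∧ ∀ g, CzC g σ ↔ Cz g Q := by
    rcases σ.eq_empty_or_nonempty with rfl | hne
    · refine ⟨⊥, IsPGroup.of_bot, fun g => ⟨fun _ q hq => ?_, fun _ Q hQ => by simp at hQ⟩⟩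
      rw [Subgroup.mem_bot.1 hq, mul_one, one_mul]
    · obtain ⟨Q, hQ, hmax⟩ := σ.exists_maximal hne
      refine ⟨Q, (hσ.1 Q hQ).1, fun g => ⟨fun hc => hc Q hQ, fun hc R hR q hq => hc q ?_⟩⟩
      exact ((hσ.2 R hR Q hQ).elim id (hmax hR)) hq
  have hN : ∀ g, Cz g Q → g ∈ St σ := fun g hg =>
    Subgroup.mem_iInf.2 fun R => Subgroup.mem_iInf.2 fun hR => PC_norm ((e g).2 hg R hR)
  obtain ⟨h1, h2⟩ := PC_idm hQ hN h (ρ := P179.res σ η) fun g => if_congr (e g) rfl rfl
  exact ⟨h.cl.res σ, h1, h2⟩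

theorem Good.cent {η : H → M.O} (h : Good M p η) {u : H} (hu : IsP p u) :
    Good M p (fun g : Subgroup.centralizer {u} => η g) := by
  have e : ∀ g, Cz g (Subgroup.zpowers u) ↔ g ∈ Subgroup.centralizer {u} := by
    intro g
    rw [Subgroup.mem_centralizer_singleton_iff]
    refine ⟨fun hc => hc u (Subgroup.mem_zpowers u), ?_⟩
    rintro hc _ ⟨n, rfl⟩
    exact (Commute.zpow_right hc n).eq
  obtain ⟨h1, h2⟩ := PC_idm (isP_iff.1 hu) (fun g => (e g).1) h
    (ρ := fun g : Subgroup.centralizer {u} => η g) fun g => (if_pos ((e g).2 g.2)).symm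
  exact ⟨fun g y => h.cl g y, h1, h2⟩

end Vale.Agent.P179
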