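import Vale.Agent.P179B.PG
import Vale.Agent.P179B.PC

/-! P179, blocks: the decomposition of the trace on the centre.

Write each singular a as u * s (u ≠ 1 its p-component, s regular, exists_rp, rp_unique); L = centralizer of u, centralizer of a = centralizer of s in L.
∑ b, η (b a b⁻¹ a⁻¹) = |C a| * ∑ a1 in the class of a, η (a1 a⁻¹), and ∑ b ∈ L, η (b s b⁻¹ s⁻¹) = |C a| * ∑ s1 in the L class of s, η (s1 s⁻¹). The difference δ a of the two class sums is a class function
with ψ (δ a) = 0: after ψ only the a1 in L count (zpowers u acts by conjugation, characteristic p); a1 = u1 s1 with u1 = u gives the L class of s; for u1 ≠ u the elements a1 u⁻¹ form an L invariant set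
of singular elements of L, killed by orth for Good.cent. Then sum_cent.
-/

open Finset
open scoped Classical

noncomputable section

namespace Vale.Agent.P179

set_option linter.unusedSectionVars false

variable {p : ℕ} [Fact p.Prime] {H : Type} [Group H] [Fintype H] {k : Type} [Field k] [CharP k p]
  {M : PM k}

variable (p) in
/-- The regular component. -/
def DB_s (a : H) : H := (exists_rp (p := p) a).choose

variable (p) in
/-- The `p`-component. -/
def DB_u (a : H) : H := a * (DB_s p a)⁻¹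

theorem DB_rp (a : H) : RP p a (DB_s p a) := (exists_rp (p := p) a).choose_spec

theorem DB_us (a : H) : DB_u p a * DB_s p a = a := inv_mul_cancel_right _ _

theorem DB_ua (a : H) : a * DB_u p a = DB_u p a * a := by
  have h : Commute a (DB_s p a) := (DB_rp (p := p) a).2.2
  exact ((Commute.refl a).mul_right h.inv_right).eq

theorem DB_su (a : H) : DB_u p a * DB_s p a = DB_s p a * DB_u p a := by
  have h : Commute a (DB_s p a) := (DB_rp (p := p) a).2.2
  exact (h.mul_left (Commute.refl _).inv_left).eq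

theorem DB_conj (a b : H) : DB_u p (b * a * b⁻¹) = b * DB_u p a * b⁻¹ := by
  unfold DB_u
  rw [rp_unique (DB_rp _) (rp_conj (DB_rp (p := p) a) b)]
  group

theorem DB_mul {s u : H} (hs : IsReg p s) (hu : IsP p u) (h : u * s = s * u) :
    DB_s p (u * s) = s ∧ DB_u p (u * s) = u := by
  have e : DB_s p (u * s) = s := rp_unique (DB_rp _)
    ⟨hs, by rwa [mul_inv_cancel_right], by rw [← mul_assoc, ← h]⟩
  exact ⟨e, by rw [DB_u, e, mul_inv_cancel_right]⟩

theorem DB_reg (a : H) : IsReg p a ↔ DB_u p a = 1 := by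
  refine ⟨fun h => ?_, fun h => ?_⟩
  · have e := (DB_mul h (u := 1) ⟨0, one_pow _⟩ (by simp)).2
    rwa [one_mul] at e
  · have e := DB_us (p := p) a
    rw [h, one_mul] at e
    exact e ▸ (DB_rp (p := p) a).1

theorem DB_class {A : Type} [CommRing A] (f : H → A) (a : H) : ∑ b, f (b * a * b⁻¹) =
    Nat.card (Subgroup.centralizer {a}) * ∑ c with IsConj a c, f c := by
  rw [← sum_fiberwise_of_maps_to (s := univ) (t := univ.filter fun c => IsConj a c)
    (g := fun b => b * a * b⁻¹) (fun b _ => mem_filter.2 ⟨mem_univ _, isConj_iff.2 ⟨b, rfl⟩⟩),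
    mul_sum]
  refine sum_congr rfl fun c hc => ?_
  obtain ⟨d, rfl⟩ := isConj_iff.1 (mem_filter.1 hc).2
  rw [sum_congr rfl fun b hb => congrArg f (mem_filter.1 hb).2, sum_const, nsmul_eq_mul,
    ← Fintype.card_subtype, ← Nat.card_eq_fintype_card]
  congr 2
  refine Nat.card_congr ((Equiv.mulLeft d⁻¹).subtypeEquiv fun b => ?_)
  rw [Subgroup.mem_centralizer_singleton_iff, Equiv.coe_mulLeft]
  refine ⟨fun h => ?_, fun h => ?_⟩
  · calc d⁻¹ * b * a = d⁻¹ * (b * a * b⁻¹) * b := by group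
      _ = _ := by rw [h]; group
  · calc b * a * b⁻¹ = d * (d⁻¹ * b * a) * b⁻¹ := by group
      _ = _ := by rw [h]; group

variable (p) in
/-- The difference of the two class sums. -/
def DB_d {A : Type} [CommRing A] (η : H → A) (a : H) : A :=
  ∑ c with IsConj a c, if DB_u p c = DB_u p a then 0 else η (c * a⁻¹)

theorem DB_cl {A : Type} [CommRing A] {η : H → A} (h : Cl η) : Cl (DB_d p η) := fun a y => by
  unfold DB_d
  refine (sum_equiv (MulAut.conj y).toEquiv (fun c => ?_) fun c _ => ?_).symm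
  · simp only [mem_filter, mem_univ, true_and]
    have e : ∀ x : H, IsConj x (y * x * y⁻¹) := fun x => isConj_iff.2 ⟨y, rfl⟩
    exact ⟨fun hc => ((e a).symm.trans hc).trans (e c), fun hc => ((e a).trans hc).trans (e c).symm⟩
  · change _ = if DB_u p (y * c * y⁻¹) = _ then 0 else η (y * c * y⁻¹ * _)
    rw [DB_conj, DB_conj, ← h (c * a⁻¹) y]
    refine if_congr (by simp) rfl (congrArg η (by group))

theorem DB_split {A : Type} [CommRing A] (η : H → A) : TK η - TL p η - TX p η =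
    ∑ a, Nat.card (Subgroup.centralizer {a}) * DB_d p η a := by
  have e1 : TX p η = ∑ y : H × H with DB_u p y.1 ≠ 1 ∧ DB_u p y.1 * y.2 = y.2 * DB_u p y.1,
      η (y.2 * y.1 * y.2⁻¹ * y.1⁻¹) := by
    refine sum_nbij' (fun z => (z.2.2 * z.1, z.2.1)) (fun y => (DB_s p y.1, y.2, DB_u p y.1))
      (fun z hz => ?_) (fun y hy => ?_) (fun z hz => ?_) (fun y _ => ?_) fun z hz => ?_
    · obtain ⟨h1, h2, h3, h4, h5⟩ := (mem_filter.1 hz).2
      refine mem_filter.2 ⟨mem_univ _, ?_⟩
      rw [(DB_mul h1 h2 h4).2]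
      exact ⟨h3, h5⟩
    · obtain ⟨h1, h2⟩ := (mem_filter.1 hy).2
      exact mem_filter.2 ⟨mem_univ _, (DB_rp _).1, (DB_rp _).2.1, h1, DB_su _, h2⟩
    · obtain ⟨h1, h2, h3, h4, h5⟩ := (mem_filter.1 hz).2
      exact Prod.ext (DB_mul h1 h2 h4).1 (Prod.ext rfl (DB_mul h1 h2 h4).2)
    · exact Prod.ext (DB_us _) rfl
    · obtain ⟨h1, h2, h3, h4, h5⟩ := (mem_filter.1 hz).2
      refine congrArg η ?_
      have c : Commute z.2.2 z.2.1 := h5
      calc _ = z.2.1 * z.1 * (z.2.1⁻¹ * z.2.2) * z.2.2⁻¹ * z.1⁻¹ := by group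
        _ = z.2.1 * (z.1 * z.2.2) * z.2.1⁻¹ * (z.1 * z.2.2)⁻¹ := by
          rw [← c.inv_right.eq]; group
        _ = _ := by rw [← h4]
  have e2 : ∑ a, Nat.card (Subgroup.centralizer {a}) * DB_d p η a = ∑ y : H × H,
      if DB_u p y.1 * y.2 = y.2 * DB_u p y.1 then 0 else η (y.2 * y.1 * y.2⁻¹ * y.1⁻¹) := by
    rw [Fintype.sum_prod_type]
    refine sum_congr rfl fun a _ => ?_
    rw [DB_d, ← DB_class]
    refine sum_congr rfl fun b _ => if_congr ?_ rfl rfl
    rw [DB_conj, mul_inv_eq_iff_eq_mul, eq_comm]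
  rw [e1, e2, TK, TL, sum_filter, sum_filter, ← sum_sub_distrib, ← sum_sub_distrib]
  refine sum_congr rfl fun y _ => ?_
  rw [DB_reg]
  by_cases h1 : DB_u p y.1 = 1
  · simp [h1]
  · by_cases h2 : DB_u p y.1 * y.2 = y.2 * DB_u p y.1 <;> simp [h1, h2]

theorem DB_zero {η : H → M.O} (h : Good M p η) (a : H) : M.ψ (DB_d p η a) = 0 := by
  have hu : IsP p (DB_u p a) := (DB_rp a).2.1
  have hQ : IsPGroup p (Subgroup.zpowers (DB_u p a)) := NC_isP.1 hu
  have cz : ∀ g : H, Cz g (Subgroup.zpowers (DB_u p a)) ↔ g * DB_u p a = DB_u p a * g := fun g =>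
    ⟨fun hg => hg _ (Subgroup.mem_zpowers _), fun hg q hq => by
      obtain ⟨n, rfl⟩ := hq
      exact (Commute.zpow_right hg n).eq⟩
  have ci : ∀ g : H, g⁻¹ * DB_u p a = DB_u p a * g⁻¹ ↔ g * DB_u p a = DB_u p a * g := fun g =>
    Commute.inv_left_iff
  have b := brauer_cv hQ (ζ := M.ψ ∘ η) (ζ1 := fun g => if IsConj a g⁻¹ then 1 else 0)
    (fun g y => congrArg M.ψ (h.cl g y)) (fun g y => by
      have e : IsConj g⁻¹ (y * g * y⁻¹)⁻¹ := isConj_iff.2 ⟨y, by group⟩
      exact if_congr ⟨fun hc => hc.trans e.symm, fun hc => hc.trans e⟩ rfl rfl)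
    (x := a⁻¹) ((cz _).2 ((ci _).2 (DB_ua a)))
  have e0 : ∀ c, η (a⁻¹ * c) = η (c * a⁻¹) := fun c =>
    (h.cl _ a).symm.trans (congrArg η (by group))
  rw [cv, sum_filter, ← Equiv.sum_comp (Equiv.inv H), ← Equiv.sum_comp (Equiv.inv H)
    (fun g => if Cz g _ then _ else _)] at b
  simp only [Equiv.inv_apply, inv_inv, Function.comp_apply, e0, cz, ci] at b
  have hs : DB_s p a ∈ Subgroup.centralizer {DB_u p a} :=
    Subgroup.mem_centralizer_singleton_iff.2 (DB_su a).symm
  have mc : ∀ y : Subgroup.centralizer {DB_u p a}, DB_u p a * y = y * DB_u p a := fun y =>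
    (Subgroup.mem_centralizer_singleton_iff.1 y.2).symm
  have o := orth (h.cent hu) (a := ⟨_, hs⟩)
    (by rw [IsReg, ← Subgroup.orderOf_coe]; exact (DB_rp a).1)
    (univ.filter fun y => IsConj a (DB_u p a * y) ∧ DB_u p (DB_u p a * y) ≠ DB_u p a)
    (fun y hy hr => (mem_filter.1 hy).2.2 (DB_mul (by rwa [IsReg, Subgroup.orderOf_coe]) hu
      (mc y)).2) fun y hy c => by
      have e : DB_u p a * (c * y * c⁻¹ : Subgroup.centralizer {DB_u p a}) =
          c * (DB_u p a * y) * (c : H)⁻¹ := by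
        rw [← mul_assoc, ← mc c]
        simp only [Subgroup.coe_mul, Subgroup.coe_inv, mul_assoc]
      refine mem_filter.2 ⟨mem_univ _, ?_⟩
      rw [e, DB_conj]
      refine ⟨(mem_filter.1 hy).2.1.trans (isConj_iff.2 ⟨_, rfl⟩), fun e1 => (mem_filter.1 hy).2.2 ?_⟩
      rw [mul_inv_eq_iff_eq_mul, mc c] at e1
      exact mul_left_cancel e1
  have o1 : ∑ c with (c * DB_u p a = DB_u p a * c ∧ IsConj a c ∧ DB_u p c ≠ DB_u p a),
      M.ψ (η (c * a⁻¹)) = 0 := by
    rw [map_sum] at o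
    refine Eq.trans (Eq.symm ?_) o
    refine sum_bij (fun y _ => DB_u p a * y) (fun y hy => ?_) (fun y _ z _ e => ?_)
      (fun c hc => ?_) fun y _ => ?_
    · refine mem_filter.2 ⟨mem_univ _, ?_, (mem_filter.1 hy).2⟩
      rw [mul_assoc, ← mc y]
    · exact Subtype.ext (mul_left_cancel e)
    · have hc1 : Commute c (DB_u p a) := (mem_filter.1 hc).2.1
      refine ⟨⟨(DB_u p a)⁻¹ * c, Subgroup.mem_centralizer_singleton_iff.2
        ((Commute.refl _).inv_left.mul_left hc1).eq⟩, mem_filter.2 ⟨mem_univ _, ?_⟩,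
        mul_inv_cancel_left _ _⟩
      rw [mul_inv_cancel_left]
      exact (mem_filter.1 hc).2.2
    · refine congrArg (fun x => M.ψ (η x)) ?_
      change (y : H) * (DB_s p a)⁻¹ = _
      rw [mc y, mul_assoc]
      refine congrArg _ ?_
      rw [eq_mul_inv_iff_mul_eq, inv_mul_eq_iff_eq_mul, ← DB_su, DB_us]
  rw [sum_filter] at o1
  have z := add_eq_zero_iff_eq_neg.2 (((sub_eq_zero.2 b).trans neg_zero.symm).trans
    (congrArg Neg.neg o1.symm))
  rw [← sum_sub_distrib, ← sum_add_distrib] at z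
  rw [DB_d, map_sum, sum_filter]
  refine Eq.trans (sum_congr rfl fun c _ => ?_) z
  by_cases h1 : IsConj a c
  · by_cases h2 : DB_u p c = DB_u p a
    · have h3 : c * DB_u p a = DB_u p a * c := h2 ▸ DB_ua c
      simp [-isConj_iff, h1, h2, h3]
    · by_cases h3 : c * DB_u p a = DB_u p a * c <;> simp [-isConj_iff, h1, h2, h3]
  · simp [-isConj_iff, h1]

theorem TK_TL {η : H → M.O} (h : Good M p η) (hab : Ab p H) :
    Sm M (Nat.card H) (TK η - TL p η - TX p η) := by
  rw [DB_split]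
  exact sum_cent (DB_cl h.cl) (DB_zero h)

end Vale.Agent.P179
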