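import Vale.Agent.P179B.PB

/-! P179, blocks: swapping chains and tuples.

Finset.sum_comm; tuples in St σ are the tuples of H fixing σ (fxC_iff), IsP and IsReg are the same in a subgroup (Subgroup.orderOf_coe).
TX_zero: for fixed (s, b, u) the chains fixed by s, b, u and centralized by g = b s b⁻¹ s⁻¹ cancel: sum_sg_zero with R = zpowers u, tg_isCh, fxC_tg, czC_tg.
In WK_swap g = b a b⁻¹ a⁻¹ is the solution of cm a b * g = 1.
-/

open Finset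
open scoped Classical

noncomputable section

namespace Vale.Agent.P179

set_option linter.unusedSectionVars false

variable {p : ℕ} [Fact p.Prime] {H : Type} [Group H] [Fintype H] {A : Type} [CommRing A]

/-- Truncation by a property of the members of a chain. -/
def DC_w (B : Subgroup H → Prop) (σ : Finset (Subgroup H)) (x : A) : A :=
  if ∀ Q ∈ σ, B Q then x else 0

theorem DC_ne {B : Subgroup H → Prop} {σ : Finset (Subgroup H)} {x : A} (h : DC_w B σ x ≠ 0) :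
    ∀ Q ∈ σ, B Q := (ite_ne_right_iff.1 h).1

theorem DC_eq {B : Subgroup H → Prop} {σ : Finset (Subgroup H)} (η : H → A) (g : St σ)
    (h : CzC (g : H) σ ↔ ∀ Q ∈ σ, B Q) : res σ η g = DC_w B σ (η g) := if_congr h rfl rfl

theorem DC_sg (B : Subgroup H → Prop) (R : Subgroup H) (h : ∀ σ, IsCh p ⊥ σ → (∀ Q ∈ σ, B Q) →
    IsCh p ⊥ (tg ⊥ R σ) ∧ ∀ Q ∈ tg ⊥ R σ, B Q) : muA p ⊥ B = 0 :=
  sum_sg_zero _ ⊥ (fun _ => R) fun σ hσ => ⟨mem_filter.2 ⟨mem_univ _,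
    h σ (mem_filter.1 hσ).2.1 (mem_filter.1 hσ).2.2⟩, rfl⟩

theorem DC_mu (B : Subgroup H → Prop) (x : A) : x * (muA p ⊥ B : ℤ) =
    ∑ σ : Finset (Subgroup H) with IsCh p ⊥ σ, (sg σ : A) * DC_w B σ x := by
  unfold muA DC_w
  rw [← filter_filter, sum_filter (fun σ : Finset (Subgroup H) => ∀ Q ∈ σ, B Q), Int.cast_sum,
    mul_sum]
  refine sum_congr rfl fun σ _ => ?_
  split_ifs
  · exact mul_comm _ _
  · simp

theorem DC_three (K : Subgroup H) {_ : Fintype K} (P : K × K × K → Prop) {_ : DecidablePred P}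
    (P' : H × H × H → Prop) {_ : DecidablePred P'} (F : K × K × K → A) (F' : H × H × H → A)
    (hP : ∀ y : K × K × K, P y ↔ P' (y.1, y.2.1, y.2.2))
    (hF : ∀ y : K × K × K, F y = F' (y.1, y.2.1, y.2.2))
    (h0 : ∀ y : H × H × H, F' y ≠ 0 → y.1 ∈ K ∧ y.2.1 ∈ K ∧ y.2.2 ∈ K) :
    ∑ y with P y, F y = ∑ y with P' y, F' y := by
  refine sum_of_injOn (fun y : K × K × K => ((y.1 : H), (y.2.1 : H), (y.2.2 : H)))
    (fun y _ z _ e => ?_) (fun y hy => ?_) (fun y hy hn => ?_) fun y _ => hF y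
  · obtain ⟨e1, e2⟩ := Prod.mk.inj e
    obtain ⟨e2, e3⟩ := Prod.mk.inj e2
    exact Prod.ext (Subtype.ext e1) (Prod.ext (Subtype.ext e2) (Subtype.ext e3))
  · exact mem_filter.2 ⟨mem_univ _, (hP y).1 (mem_filter.1 hy).2⟩
  · by_contra q
    obtain ⟨a, b, c⟩ := h0 y q
    exact hn ⟨(⟨_, a⟩, ⟨_, b⟩, ⟨_, c⟩),
      mem_coe.2 (mem_filter.2 ⟨mem_univ _, (hP _).2 (mem_filter.1 hy).2⟩), rfl⟩

theorem DC_reg {K : Subgroup H} (a : K) : IsReg p a ↔ IsReg p (a : H) := by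
  unfold IsReg
  rw [Subgroup.orderOf_coe]

theorem DC_isP {K : Subgroup H} (a : K) : IsP p a ↔ IsP p (a : H) :=
  exists_congr fun _ => by rw [← Subgroup.coe_pow, OneMemClass.coe_eq_one]

theorem DC_fx {σ : Finset (Subgroup H)} (a : St σ) : FxC (a : H) σ := fxC_iff.2 a.2

theorem DC_res {σ : Finset (Subgroup H)} (η : H → A) (a b c g : St σ) : res σ η g =
    DC_w (fun Q => Fx (a : H) Q ∧ Fx (b : H) Q ∧ Fx (c : H) Q ∧ Cz (g : H) Q) σ (η g) :=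
  DC_eq η g ⟨fun h Q hQ => ⟨DC_fx a Q hQ, DC_fx b Q hQ, DC_fx c Q hQ, h Q hQ⟩,
    fun h Q hQ => (h Q hQ).2.2.2⟩

theorem DC_mem {σ : Finset (Subgroup H)} {a b c g : H} {x : A}
    (h : DC_w (fun Q => Fx a Q ∧ Fx b Q ∧ Fx c Q ∧ Cz g Q) σ x ≠ 0) :
    a ∈ St σ ∧ b ∈ St σ ∧ c ∈ St σ := by
  have k := DC_ne h
  exact ⟨fxC_iff.1 fun Q hQ => (k Q hQ).1, fxC_iff.1 fun Q hQ => (k Q hQ).2.1,
    fxC_iff.1 fun Q hQ => (k Q hQ).2.2.1⟩

theorem WS_swap (η : H → A) : WS p ⊥ η =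
    ∑ σ : Finset (Subgroup H) with IsCh p ⊥ σ, (sg σ : A) * TS p (res σ η) := by
  unfold WS
  rw [sum_congr rfl fun y _ => DC_mu _ _, sum_comm]
  refine sum_congr rfl fun σ _ => ?_
  rw [← mul_sum]
  congr 1
  unfold TS
  symm
  refine DC_three (St σ) _ _ _ _ (fun y => ?_) (fun y => DC_res η y.1 y.2.1 y.2.2 _)
    fun y => DC_mem
  exact and_congr (DC_reg _) (and_congr (DC_isP _) Subtype.ext_iff)

theorem WK_swap (η : H → A) : ∑ y : H × H × H with c3 y = 1, η y.2.2 * (mu3 p y : A) =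
    ∑ σ : Finset (Subgroup H) with IsCh p ⊥ σ, (sg σ : A) * TK (res σ η) := by
  unfold mu3
  rw [sum_congr rfl fun y _ => DC_mu _ _, sum_comm]
  refine sum_congr rfl fun σ _ => ?_
  rw [← mul_sum]
  congr 1
  unfold TK
  refine (sum_of_injOn (fun y : St σ × St σ =>
    ((y.1 : H), (y.2 : H), (y.2 : H) * y.1 * (y.2 : H)⁻¹ * (y.1 : H)⁻¹))
    (fun y _ z _ e => ?_) (fun y _ => ?_) (fun y hy hn => ?_) fun y _ => ?_).symm
  · obtain ⟨e1, e2⟩ := Prod.mk.inj e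
    exact Prod.ext (Subtype.ext e1) (Subtype.ext (Prod.mk.inj e2).1)
  · refine mem_filter.2 ⟨mem_univ _, ?_⟩
    simp only [c3, cm]
    group
  · by_contra q
    have k := DC_ne q
    refine hn ⟨(⟨y.1, fxC_iff.1 fun Q hQ => (k Q hQ).1⟩,
      ⟨y.2.1, fxC_iff.1 fun Q hQ => (k Q hQ).2.1⟩), mem_coe.2 (mem_univ _), ?_⟩
    refine Prod.ext rfl (Prod.ext rfl ?_)
    have e := eq_inv_of_mul_eq_one_right (mem_filter.1 hy).2
    change y.2.1 * y.1 * y.2.1⁻¹ * y.1⁻¹ = y.2.2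
    rw [e, cm]
    group
  · exact DC_eq η _ ⟨fun h Q hQ => ⟨DC_fx _ Q hQ, DC_fx _ Q hQ, h Q hQ⟩,
      fun h Q hQ => (h Q hQ).2.2⟩

theorem DC_zero {s b u : H} (hu : IsP p u) (h1 : u ≠ 1) (hs : u * s = s * u) (hb : u * b = b * u) :
    muA p ⊥ (fun Q => Fx s Q ∧ Fx b Q ∧ Fx u Q ∧ Cz (b * s * b⁻¹ * s⁻¹) Q) = 0 := by
  have cs : Commute s u := hs.symm
  have cb : Commute b u := hb.symm
  have cg : Commute (b * s * b⁻¹ * s⁻¹) u :=
    ((cb.mul_left cs).mul_left cb.inv_left).mul_left cs.inv_left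
  have hn : ¬ Subgroup.zpowers u ≤ ⊥ := fun k => h1 (Subgroup.mem_bot.1 (k (Subgroup.mem_zpowers _)))
  refine DC_sg _ (Subgroup.zpowers u) fun σ k1 k2 => ?_
  refine ⟨tg_isCh IsPGroup.of_bot (isP_iff.1 hu) hn (fun r _ => fx_bot r) k1
    fun r hr Q hQ => Subgroup.zpowers_le.2 (k2 Q hQ).2.2.1 hr, fun Q hQ => ⟨?_, ?_, ?_, ?_⟩⟩
  · exact (fxC_tg (fx_bot s) (TC_fx cs)).2 (fun Q hQ => (k2 Q hQ).1) Q hQ
  · exact (fxC_tg (fx_bot b) (TC_fx cb)).2 (fun Q hQ => (k2 Q hQ).2.1) Q hQ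
  · exact (fxC_tg (fx_bot u) (TC_fx (Commute.refl u))).2 (fun Q hQ => (k2 Q hQ).2.2.1) Q hQ
  · refine (czC_tg (fun q hq => ?_) fun q hq => ?_).2 (fun Q hQ => (k2 Q hQ).2.2.2) Q hQ
    · rw [Subgroup.mem_bot.1 hq, mul_one, one_mul]
    · obtain ⟨k, rfl⟩ := hq
      exact (cg.zpow_right k).eq

theorem TX_zero (η : H → A) :
    ∑ σ : Finset (Subgroup H) with IsCh p ⊥ σ, (sg σ : A) * TX p (res σ η) = 0 := by
  have e : ∀ σ : Finset (Subgroup H), TX p (res σ η) =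
      ∑ y : H × H × H with IsReg p y.1 ∧ IsP p y.2.2 ∧ y.2.2 ≠ 1 ∧ y.2.2 * y.1 = y.1 * y.2.2 ∧
        y.2.2 * y.2.1 = y.2.1 * y.2.2, DC_w (fun Q => Fx y.1 Q ∧ Fx y.2.1 Q ∧ Fx y.2.2 Q ∧
          Cz (y.2.1 * y.1 * y.2.1⁻¹ * y.1⁻¹) Q) σ (η (y.2.1 * y.1 * y.2.1⁻¹ * y.1⁻¹)) := by
    intro σ
    unfold TX
    refine DC_three (St σ) _ _ _ _ (fun y => ?_) (fun y => DC_res η y.1 y.2.1 y.2.2 _)
      fun y => DC_mem
    exact and_congr (DC_reg _) (and_congr (DC_isP _) (and_congr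
      (not_congr OneMemClass.coe_eq_one.symm) (and_congr Subtype.ext_iff Subtype.ext_iff)))
  simp only [e, mul_sum]
  rw [sum_comm]
  refine sum_eq_zero fun y hy => ?_
  obtain ⟨-, -, h1, h2, h3, h4⟩ := mem_filter.1 hy
  rw [← DC_mu, DC_zero h1 h2 h3 h4, Int.cast_zero, mul_zero]

theorem pp_St (hab : Ab p H) {σ : Finset (Subgroup H)} (hσ : IsCh p ⊥ σ) : pp p (St σ) = pp p H := by
  rcases σ.eq_empty_or_nonempty with rfl | hne
  · exact pp_sub IsPGroup.of_bot fun R _ _ r _ => fxC_iff.1 fun Q hQ => absurd hQ (notMem_empty Q)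
  · obtain ⟨Q, hQ⟩ := σ.exists_maximal hne
    refine pp_sub (hσ.1 Q hQ.1).1 fun R hR h r hr => fxC_iff.1 fun Q' h' => hab.fx hR ?_ hr
    exact ((hσ.2 Q' h' Q hQ.1).elim id fun k => hQ.2 h' k).trans h

end Vale.Agent.P179
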