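import Vale.Agent.P179B.PB

/-! P179, blocks: lifting admissible triples.

Q = ker f. Count first the regular lifts a of c ([Q : C_Q a] of them, reg_lift, reg_conj in P179/KA.lean). For such a put y1 = g * a and let a1 be its regular component;
(b, v) is determined by b with b a b⁻¹ = a1 (then v a = b⁻¹ y1 b, rp_unique); a1 and b0 a b0⁻¹ are regular lifts of d c d⁻¹ (uniqueness of components in H), so there are
|C_Q a| such b above d. Compare lift_count.
-/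

open Finset
open scoped Classical

noncomputable section

namespace Vale.Agent.P179

set_option linter.unusedSectionVars false

variable {p : ℕ} [Fact p.Prime] {H : Type} [Group H] [Fintype H] {K : Type} [Group K] [Fintype K]

theorem DD_map (f : K →* H) {y a : K} (h : RP p y a) : RP p (f y) (f a) := by
  obtain ⟨h1, ⟨k, h2⟩, h3⟩ := h
  refine ⟨Nat.Coprime.coprime_dvd_left (orderOf_map_dvd f a) h1, ⟨k, ?_⟩, ?_⟩
  · rw [← map_inv, ← map_mul, ← map_pow, h2, map_one]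
  · rw [← map_mul, h3, map_mul]

theorem DD_rp {v a : K} (ha : IsReg p a) (hv : IsP p v) (h : v * a = a * v) : RP p (v * a) a := by
  refine ⟨ha, by rwa [mul_inv_cancel_right], ?_⟩
  rw [← mul_assoc, ← h]

theorem DD_cj {a : K} (ha : IsReg p a) (q : K) : IsReg p (q * a * q⁻¹) := by
  have := (MulAut.conj q).orderOf_eq a
  unfold IsReg
  rwa [← MulAut.conj_apply, this]

theorem lift_count3 (f : K →* H) (hf : Function.Surjective f) (hk : IsPGroup p f.ker)
    (hq : ∀ u ∈ f.ker, ∀ v ∈ f.ker, u * v = v * u) {c d e : H} (hc : IsReg p c) (he : IsP p e)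
    (h : e * c = c * e) {g : K} (hg : f g = d * (e * c) * d⁻¹ * c⁻¹) :
    #{y : K × K × K | (IsReg p y.1 ∧ IsP p y.2.2 ∧ y.2.2 * y.1 = y.1 * y.2.2) ∧
      (f y.1 = c ∧ f y.2.1 = d ∧ f y.2.2 = e) ∧ y.2.1 * (y.2.2 * y.1) * y.2.1⁻¹ * y.1⁻¹ = g} =
      Nat.card f.ker := by
  have ex : ∀ a : K, IsReg p a → f a = c → ∃ b, f b = d ∧ RP p (g * a) (b * a * b⁻¹) := by
    intro a ha hac
    obtain ⟨a1, h1⟩ := exists_rp (p := p) (g * a)
    have h2 := DD_map f h1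
    have h3 : f (g * a) = d * (e * c) * d⁻¹ := by
      rw [map_mul, hg, hac, inv_mul_cancel_right]
    rw [h3] at h2
    have h4 := rp_unique h2 (rp_conj (DD_rp hc he h) d)
    obtain ⟨b, hb⟩ := hf d
    obtain ⟨u, hu, h5⟩ := reg_conj f hk hq (DD_cj ha b) h1.1 (by simp [h4, hb, hac])
    refine ⟨u * b, by simp [MonoidHom.mem_ker.1 hu, hb], ?_⟩
    have h6 : u * b * a * (u * b)⁻¹ = a1 := by
      rw [h5]
      group
    rwa [h6]
  choose! β hβ hβ' using ex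
  rw [← lift_count f hf hk hq (d := 1) hc (by simp)]
  refine Finset.card_bij (fun y _ => (y.1, (β y.1)⁻¹ * y.2.1)) (fun y hy => ?_)
    (fun y hy y' hy' h => ?_) fun q hq => ?_
  · obtain ⟨⟨h1, h2, h3⟩, ⟨h4, h5, _⟩, h7⟩ := (mem_filter.1 hy).2
    have h8 := rp_conj (DD_rp h1 h2 h3) y.2.1
    rw [mul_inv_eq_iff_eq_mul.1 h7] at h8
    have h9 := rp_unique h8 (hβ' _ h1 h4)
    refine mem_filter.2 ⟨mem_univ _, ⟨?_, h1⟩, h4, by simp [hβ _ h1 h4, h5]⟩
    simp only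
    calc _ = (β y.1)⁻¹ * (β y.1 * y.1 * (β y.1)⁻¹) * y.2.1 := by group
      _ = _ := by rw [← h9]; group
  · have h1 : y.1 = y'.1 := (Prod.ext_iff.1 h).1
    have h2 : (β y.1)⁻¹ * y.2.1 = (β y'.1)⁻¹ * y'.2.1 := (Prod.ext_iff.1 h).2
    rw [h1, mul_right_inj] at h2
    have h3 := (mem_filter.1 hy).2.2.2
    rw [← (mem_filter.1 hy').2.2.2, h1, h2] at h3
    exact Prod.ext h1 (Prod.ext h2 (by simpa using h3))
  · obtain ⟨⟨h1, h2⟩, h3, h4⟩ := (mem_filter.1 hq).2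
    have h5 := rp_conj (hβ' _ h2 h3) (β q.1 * q.2)⁻¹
    have h6 : (β q.1 * q.2)⁻¹ * (β q.1 * q.1 * (β q.1)⁻¹) * (β q.1 * q.2)⁻¹⁻¹ = q.1 := by
      calc _ = q.2⁻¹ * (q.1 * q.2) := by group
        _ = _ := by rw [h1]; group
    rw [h6] at h5
    refine ⟨(q.1, β q.1 * q.2, (β q.1 * q.2)⁻¹ * (g * q.1) * (β q.1 * q.2)⁻¹⁻¹ * q.1⁻¹),
      mem_filter.2 ⟨mem_univ _, ⟨h2, h5.2.1, ?_⟩, ⟨h3, ?_, ?_⟩, ?_⟩, ?_⟩
    · simp only
      rw [inv_mul_cancel_right, ← mul_assoc q.1, ← h5.2.2, mul_inv_cancel_right]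
    · simp [hβ _ h2 h3, h4]
    · simp only [map_mul, map_inv, hβ _ h2 h3, h4, hg, h3]
      group
    · simp only
      group
    · simp

end Vale.Agent.P179
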