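import Vale.Agent.P179B.DD

/-! P179, blocks: the chain weighted section count of a quotient.

muA_quot, muA_sub: the bijections of P179/KB.lean with a general predicate. WS_quot: group the triples of K by their image and by g, lift_count3;
when η g ≠ 0, g is regular and centralizes the kernel, so Cz (f g) (R.map f) ↔ Cz g R (cz_lift), Fx (f a) (R.map f) ↔ Fx a R for R above the kernel.
-/

open Finset
open scoped Classical

noncomputable section

namespace Vale.Agent.P179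

set_option linter.unusedSectionVars false

variable {p : ℕ} [Fact p.Prime] {H : Type} [Group H] [Fintype H] {K : Type} [Group K] [Fintype K] {A : Type} [CommRing A]

theorem DE_gen (φ : Subgroup K → Subgroup H) (hle : ∀ Q R, φ Q ≤ φ R ↔ Q ≤ R)
    (hp : ∀ Q : Subgroup K, IsPGroup p (φ Q) ↔ IsPGroup p Q) (Q₀ : Subgroup K)
    (hs : ∀ R : Subgroup H, IsPGroup p R → φ Q₀ < R → ∃ Q, φ Q = R) {B : Subgroup K → Prop}
    {B' : Subgroup H → Prop} (hb : ∀ Q, B' (φ Q) ↔ B Q) : muA p Q₀ B = muA p (φ Q₀) B' := by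
  have hi : Function.Injective φ := fun Q R e =>
    le_antisymm ((hle _ _).1 e.le) ((hle _ _).1 e.ge)
  have hlt : ∀ Q R, φ Q < φ R ↔ Q < R := fun Q R => by
    rw [lt_iff_le_not_ge, lt_iff_le_not_ge, hle, hle]
  have key : ∀ σ : Finset (Subgroup K), (IsCh p (φ Q₀) (σ.image φ) ∧ ∀ Q ∈ σ.image φ, B' Q) ↔
      IsCh p Q₀ σ ∧ ∀ Q ∈ σ, B Q := fun σ => by
    simp only [IsCh, forall_mem_image, hp, hlt, hle, hb]
  refine sum_bij (fun σ _ => σ.image φ) (fun σ h => ?_) (fun σ _ τ _ e => image_injective hi e)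
    (fun τ h => ?_) fun σ _ => ?_
  · exact mem_filter.2 ⟨mem_univ _, (key σ).2 (mem_filter.1 h).2⟩
  · have h1 := (mem_filter.1 h).2
    have e : (univ.filter fun Q => φ Q ∈ τ).image φ = τ := by
      ext R
      simp only [mem_image, mem_filter, mem_univ, true_and]
      constructor
      · rintro ⟨Q, hQ, rfl⟩
        exact hQ
      · intro hR
        obtain ⟨Q, rfl⟩ := hs R (h1.1.1 R hR).1 (h1.1.1 R hR).2
        exact ⟨Q, hR, rfl⟩
    exact ⟨_, mem_filter.2 ⟨mem_univ _, (key _).1 (e.symm ▸ h1)⟩, e⟩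
  · rw [sg, sg, card_image_of_injective _ hi]

theorem DE_congr {Q₀ : Subgroup H} {B B' : Subgroup H → Prop} (h : ∀ Q, Q₀ < Q → (B Q ↔ B' Q)) :
    muA p Q₀ B = muA p Q₀ B' := by
  refine sum_congr (filter_congr fun σ _ => and_congr_right fun h1 => ?_) fun _ _ => rfl
  exact forall₂_congr fun Q hQ => h Q (h1.1 Q hQ).2

theorem muA_quot (f : K →* H) (hf : Function.Surjective f) (hk : IsPGroup p f.ker)
    (B : Subgroup H → Prop) : muA p ⊥ B = muA p f.ker fun R => B (R.map f) := by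
  refine DE_gen (Subgroup.comap f) (fun Q R => Subgroup.comap_le_comap_of_surjective hf)
    (fun Q => ⟨fun h => ?_, fun h => h.comap_of_ker_isPGroup f hk⟩) ⊥
    (fun R _ h => ⟨R.map f, Subgroup.comap_map_eq_self h.le⟩) fun Q => by
      rw [Subgroup.map_comap_eq_self_of_surjective hf]
  have := h.map f
  rwa [Subgroup.map_comap_eq_self_of_surjective hf] at this

theorem muA_sub (hab : Ab p H) (Q : Subgroup H) (B : Subgroup H → Prop) :
    muA p Q B = muA p (Q.subgroupOf (Subgroup.normalizer (Q : Set H)))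
      fun R => B (R.map (Subgroup.subtype _)) := by
  have hi := (Subgroup.normalizer (Q : Set H)).subtype_injective
  have e := Subgroup.map_subgroupOf_eq_of_le (Subgroup.le_normalizer (H := Q))
  refine ((DE_gen (Subgroup.map (Subgroup.normalizer (Q : Set H)).subtype)
    (fun _ _ => Subgroup.map_le_map_iff_of_injective hi)
    (fun R => ⟨fun h => ?_, fun h => h.map _⟩) _ (fun R hR h => ?_) (B' := B)
    fun _ => Iff.rfl).trans (by rw [e])).symm
  · have := h.comap_of_injective _ hi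
    rwa [Subgroup.comap_map_eq_self_of_injective hi] at this
  · rw [e] at h
    exact ⟨_, Subgroup.map_subgroupOf_eq_of_le fun r hr => hab.fx hR h.le hr⟩

theorem WS_quot (f : K →* H) (hf : Function.Surjective f) (hk : IsPGroup p f.ker)
    (hq : ∀ u ∈ f.ker, ∀ v ∈ f.ker, u * v = v * u) (η : K → A)
    (h : ∀ g, η g ≠ 0 → IsReg p g ∧ Cz g f.ker) : Nat.card f.ker * WS p ⊥ (push f η) = WS p f.ker η := by
  obtain ⟨F, hF⟩ : ∃ F : K × K × K → H × H × H, ∀ y, F y = (f y.1, f y.2.1, f y.2.2) :=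
    ⟨_, fun _ => rfl⟩
  obtain ⟨M, hM⟩ : ∃ M : H × H × H → ℤ, ∀ z, M z = muA p ⊥ fun Q => Fx z.1 Q ∧ Fx z.2.1 Q ∧
      Fx z.2.2 Q ∧ Cz (z.2.1 * (z.2.2 * z.1) * z.2.1⁻¹ * z.1⁻¹) Q := ⟨_, fun _ => rfl⟩
  have fx : ∀ (a : K) (R : Subgroup K), f.ker < R → (Fx (f a) (R.map f) ↔ Fx a R) :=
    fun a R hR => by
      rw [← KB_fx f (Subgroup.map_le_range f R), Subgroup.comap_map_eq_self hR.le]
  have k1 : WS p f.ker η = ∑ y : K × K × K with IsReg p y.1 ∧ IsP p y.2.2 ∧
      y.2.2 * y.1 = y.1 * y.2.2, η (y.2.1 * (y.2.2 * y.1) * y.2.1⁻¹ * y.1⁻¹) * (M (F y) : ℤ) := by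
    refine sum_congr rfl fun y _ => ?_
    by_cases h0 : η (y.2.1 * (y.2.2 * y.1) * y.2.1⁻¹ * y.1⁻¹) = 0
    · rw [h0, zero_mul, zero_mul]
    · rw [hM, muA_quot f hf hk, hF]
      congr 2
      refine DE_congr fun R hR => ?_
      rw [fx _ R hR, fx _ R hR, fx _ R hR, ← map_inv, ← map_inv, ← map_mul, ← map_mul, ← map_mul,
        ← map_mul]
      refine and_congr_right fun _ => and_congr_right fun _ => and_congr_right fun _ =>
        ⟨fun h1 => ?_, cz_lift f hk (h _ h0).1 (h _ h0).2⟩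
      rintro _ ⟨q, hq, rfl⟩
      rw [← map_mul, h1 q hq, map_mul]
  rw [k1, WS, mul_sum, ← sum_fiberwise_of_maps_to (g := F) (t := {z : H × H × H | IsReg p z.1 ∧
    IsP p z.2.2 ∧ z.2.2 * z.1 = z.1 * z.2.2})]
  · refine sum_congr rfl fun z hz => ?_
    obtain ⟨z1, z2, z3⟩ := (mem_filter.1 hz).2
    rw [← hM, ← mul_assoc, sum_congr rfl fun y hy => by rw [(mem_filter.1 hy).2], ← sum_mul]
    congr 1
    rw [push, mul_sum, ← sum_fiberwise_of_maps_to
      (g := fun y : K × K × K => y.2.1 * (y.2.2 * y.1) * y.2.1⁻¹ * y.1⁻¹)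
      (t := {g : K | f g = z.2.1 * (z.2.2 * z.1) * z.2.1⁻¹ * z.1⁻¹})]
    · refine sum_congr rfl fun g hg => ?_
      rw [sum_congr rfl fun y hy => by rw [(mem_filter.1 hy).2], sum_const, nsmul_eq_mul,
        ← lift_count3 f hf hk hq z1 z2 z3 (mem_filter.1 hg).2]
      congr 3
      ext y
      simp only [mem_filter, mem_univ, true_and, hF, Prod.ext_iff, and_assoc]
    · intro y hy
      have e := (mem_filter.1 hy).2
      rw [hF] at e
      subst e
      simp only [mem_filter, mem_univ, true_and, map_mul, map_inv]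
  · intro y hy
    obtain ⟨y1, ⟨n, y2⟩, y3⟩ := (mem_filter.1 hy).2
    rw [hF]
    refine mem_filter.2 ⟨mem_univ _, Nat.Coprime.coprime_dvd_left (orderOf_map_dvd f _) y1,
      ⟨n, ?_⟩, ?_⟩
    · rw [← map_pow, y2, map_one]
    · rw [← map_mul, y3, map_mul]

end Vale.Agent.P179
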