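import Vale.Agent.P179B.DE

/-! P179, blocks: the sum over all p-subgroups.

For each p-subgroup Q: WS_quot for QuotientGroup.mk1 on the normalizer N, then muA_sub turns WS over N into the sum over triples of H that normalize Q with g centralizing Q
(as card_aa in P179/Main.lean). Swap the sums and apply chain_sum with A Q = Fx a Q ∧ Fx b Q ∧ Fx v Q ∧ Cz g Q and m = ⊥ (as sum_aa).
-/

open Finset
open scoped Classical

noncomputable section

namespace Vale.Agent.P179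

set_option linter.unusedSectionVars false

variable {p : ℕ} [Fact p.Prime] {H : Type} [Group H] [Fintype H] {A : Type} [CommRing A]

theorem DF_fx {N : Subgroup H} (a : N) (R : Subgroup N) :
    Fx (a : H) (R.map N.subtype) ↔ Fx a R := by
  simp only [Fx, Subgroup.mem_set_normalizer_iff, SetLike.mem_coe, Subgroup.mem_map]
  constructor
  · intro h n
    have := h (n : H)
    constructor
    · intro hn
      obtain ⟨m, hm, e⟩ := this.1 ⟨n, hn, rfl⟩
      rwa [show a * n * a⁻¹ = m from Subtype.ext e.symm]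
    · intro hn
      obtain ⟨m, hm, e⟩ := this.2 ⟨_, hn, rfl⟩
      rwa [show n = m from Subtype.ext e.symm]
  · intro h n
    constructor
    · rintro ⟨m, hm, rfl⟩
      exact ⟨_, (h m).1 hm, rfl⟩
    · rintro ⟨m, hm, e⟩
      refine ⟨a⁻¹ * m * a, (h _).2 (by simpa [mul_assoc] using hm), ?_⟩
      have e' : (m : H) = a * n * (a : H)⁻¹ := e
      show ((a : H)⁻¹ * m * a : H) = n
      rw [e']
      group

theorem DF_cz {N : Subgroup H} (a : N) (R : Subgroup N) :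
    Cz (a : H) (R.map N.subtype) ↔ Cz a R := by
  constructor
  · exact fun h q hq => Subtype.ext (h q ⟨q, hq, rfl⟩)
  · rintro h _ ⟨q, hq, rfl⟩
    exact congrArg Subtype.val (h q hq)

theorem DF_card (hab : Ab p H) (η : H → A) (h : ∀ g, ¬ IsReg p g → η g = 0) {Q : Subgroup H}
    (hQ : IsPGroup p Q) : Nat.card Q * WS p ⊥ (bar Q η) =
      ∑ y : H × H × H with (IsReg p y.1 ∧ IsP p y.2.2 ∧ y.2.2 * y.1 = y.1 * y.2.2) ∧
        (Fx y.1 Q ∧ Fx y.2.1 Q ∧ Fx y.2.2 Q ∧ Cz (y.2.1 * (y.2.2 * y.1) * y.2.1⁻¹ * y.1⁻¹) Q),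
        η (y.2.1 * (y.2.2 * y.1) * y.2.1⁻¹ * y.1⁻¹) * (muA p Q fun R => Fx y.1 R ∧ Fx y.2.1 R ∧
          Fx y.2.2 R ∧ Cz (y.2.1 * (y.2.2 * y.1) * y.2.1⁻¹ * y.1⁻¹) R : ℤ) := by
  have e := WS_quot (p := p) (QuotientGroup.mk' (Q.subgroupOf (Subgroup.normalizer (Q : Set H))))
    (QuotientGroup.mk'_surjective _) (by rw [QuotientGroup.ker_mk']; exact hQ.comap_subtype)
    (by
      rw [QuotientGroup.ker_mk']
      exact fun u hu v hv => Subtype.ext (hab Q hQ _ hu _ hv)) (resQ Q η) fun g hg => by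
      rw [QuotientGroup.ker_mk']
      by_cases c : Cz (g : H) Q
      · refine ⟨?_, fun q hq => Subtype.ext (c _ hq)⟩
        by_contra k
        refine hg ((if_pos c).trans (h _ ?_))
        rwa [IsReg, Subgroup.orderOf_coe]
      · exact absurd (if_neg c) hg
  rw [QuotientGroup.ker_mk', Nat.card_congr
    (Subgroup.subgroupOfEquivOfLe Subgroup.le_normalizer).toEquiv] at e
  refine e.trans ?_
  unfold WS
  simp only [resQ, ite_mul, zero_mul]
  rw [← sum_filter, filter_filter]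
  refine sum_bij (fun y _ => ((y.1 : H), (y.2.1 : H), (y.2.2 : H))) (fun y hy => ?_)
    (fun y _ z _ h => ?_) (fun y hy => ?_) fun y _ => ?_
  · simp only [mem_filter, mem_univ, true_and] at hy
    obtain ⟨⟨a1, ⟨n, a2⟩, a3⟩, a4⟩ := hy
    exact mem_filter.2 ⟨mem_univ _, ⟨isReg_map (Subgroup.subtype _) a1,
      ⟨n, congrArg Subtype.val a2⟩, congrArg Subtype.val a3⟩, y.1.2, y.2.1.2, y.2.2.2, a4⟩
  · exact Prod.ext (Subtype.ext (congrArg Prod.fst h))
      (Prod.ext (Subtype.ext (congrArg (fun z => z.2.1) h))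
        (Subtype.ext (congrArg (fun z => z.2.2) h)))
  · obtain ⟨⟨a1, ⟨n, a2⟩, a3⟩, a4, a5, a6, a7⟩ := (mem_filter.1 hy).2
    refine ⟨(⟨y.1, a4⟩, ⟨y.2.1, a5⟩, ⟨y.2.2, a6⟩), ?_, rfl⟩
    simp only [mem_filter, mem_univ, true_and]
    refine ⟨⟨?_, ⟨n, Subtype.ext a2⟩, Subtype.ext a3⟩, a7⟩
    rwa [IsReg, ← Subgroup.orderOf_coe]
  · rw [muA_sub hab Q]
    congr 3
    funext R
    rw [← DF_fx, ← DF_fx, ← DF_fx, ← DF_cz]
    rfl

theorem sum_WS (hab : Ab p H) (η : H → A) (h : ∀ g, ¬ IsReg p g → η g = 0) :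
    ∑ Q ∈ univ.filter (fun Q : Subgroup H => IsPGroup p Q), Nat.card Q * WS p ⊥ (bar Q η) = TS p η := by
  rw [sum_congr rfl fun Q hQ => DF_card hab η h (mem_filter.1 hQ).2,
    sum_comm' (t' := univ.filter fun y : H × H × H =>
      IsReg p y.1 ∧ IsP p y.2.2 ∧ y.2.2 * y.1 = y.1 * y.2.2)
      (s' := fun y => univ.filter fun Q : Subgroup H => IsPGroup p Q ∧
        (Fx y.1 Q ∧ Fx y.2.1 Q ∧ Fx y.2.2 Q ∧ Cz (y.2.1 * (y.2.2 * y.1) * y.2.1⁻¹ * y.1⁻¹) Q))
      fun Q y => by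
        simp only [mem_filter, mem_univ, true_and]
        tauto]
  refine sum_congr rfl fun y _ => ?_
  have k := chain_sum (p := p) (fun Q => Fx y.1 Q ∧ Fx y.2.1 Q ∧ Fx y.2.2 Q ∧
    Cz (y.2.1 * (y.2.2 * y.1) * y.2.1⁻¹ * y.1⁻¹) Q) ⊥ IsPGroup.of_bot
    ⟨fx_bot _, fx_bot _, fx_bot _, fun q hq => by rw [Subgroup.mem_bot.1 hq, mul_one, one_mul]⟩
    fun _ _ _ => bot_le
  rw [← mul_sum, ← Int.cast_sum]
  refine (congrArg (fun t : ℤ => _ * (t : A)) (Eq.trans ?_ k)).trans (by rw [Int.cast_one, mul_one])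
  exact sum_congr (by congr) fun Q _ => sum_congr (by congr) fun _ _ => rfl

end Vale.Agent.P179
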