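import Vale.Agent.P179B.Stmt
import Vale.Agent.P179.Main

/-! P179, blocks: definitions used in the proof. -/

open Finset
open scoped Classical

noncomputable section

namespace Vale.Agent.P179

/-- A local ring of complex numbers with a reduction map. -/
structure PM (k : Type) [Field k] where
  O : Subring ℂ
  ψ : O →+* k
  int : ∀ z, IsIntegral ℤ z → z ∈ O
  unit : ∀ z : O, ψ z ≠ 0 → IsUnit z

section Fun
variable {H A : Type} [Group H] [CommRing A]

/-- Class functions. -/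
def Cl (η : H → A) : Prop := ∀ g y, η (y * g * y⁻¹) = η g

/-- `g` centralizes `Q`. -/
def Cz (g : H) (Q : Subgroup H) : Prop := ∀ q ∈ Q, g * q = q * g

/-- `g` centralizes the members of `σ`. -/
def CzC (g : H) (σ : Finset (Subgroup H)) : Prop := ∀ Q ∈ σ, Cz g Q

/-- The stabilizer of a chain. -/
def St (σ : Finset (Subgroup H)) : Subgroup H := ⨅ Q ∈ σ, Subgroup.normalizer (Q : Set H)

/-- Truncation to the centralizer of a chain, on its stabilizer. -/
def res (σ : Finset (Subgroup H)) (η : H → A) : St σ → A :=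
  fun g => if CzC (g : H) σ then η g else 0

/-- Truncation to the centralizer of `Q`, on its normalizer. -/
def resQ (Q : Subgroup H) (η : H → A) : Subgroup.normalizer (Q : Set H) → A :=
  fun g => if Cz (g : H) Q then η g else 0

variable (p : ℕ)

/-- `a` is the regular component of `y`. -/
def RP (y a : H) : Prop := IsReg p a ∧ IsP p (y * a⁻¹) ∧ y * a = a * y

variable [Fintype H]

variable {p} in
/-- Convolution. -/
def cv (η ζ : H → A) : H → A := fun x => ∑ g, η (x * g⁻¹) * ζ g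

variable {p} in
/-- The element of the group algebra with given coefficients. -/
def ma (η : H → A) : MonoidAlgebra A H := ∑ g, MonoidAlgebra.single g (η g)

variable {p} in
/-- Push forward along a homomorphism. -/
def push {K : Type} [Group K] (f : H →* K) (η : H → A) : K → A := fun c => ∑ g with f g = c, η g

variable {p} in
/-- Truncation and push forward to the quotient of the normalizer. -/
def bar (Q : Subgroup H) (η : H → A) : NQ Q → A := push (QuotientGroup.mk' _) (resQ Q η)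

variable {p} in
/-- The ordinary central character. -/
def om (χ : H → ℂ) (η : H → ℂ) : ℂ := (∑ g, η g * χ g) / χ 1

/-- Signed number of chains above `Q₀` whose members satisfy `B`. -/
def muA (Q₀ : Subgroup H) (B : Subgroup H → Prop) : ℤ :=
  ∑ σ : Finset (Subgroup H) with IsCh p Q₀ σ ∧ ∀ Q ∈ σ, B Q, sg σ

/-- Trace on section functions, times the group order. -/
def TS (η : H → A) : A :=
  ∑ y : H × H × H with IsReg p y.1 ∧ IsP p y.2.2 ∧ y.2.2 * y.1 = y.1 * y.2.2,
    η (y.2.1 * (y.2.2 * y.1) * y.2.1⁻¹ * y.1⁻¹)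

/-- Trace on regular classes, times the group order. -/
def TL (η : H → A) : A := ∑ y : H × H with IsReg p y.1, η (y.2 * y.1 * y.2⁻¹ * y.1⁻¹)

variable {p} in
/-- Trace on the centre, times the group order. -/
def TK (η : H → A) : A := ∑ y : H × H, η (y.2 * y.1 * y.2⁻¹ * y.1⁻¹)

/-- The contribution of the nontrivial `p`-elements. -/
def TX (η : H → A) : A :=
  ∑ y : H × H × H with IsReg p y.1 ∧ IsP p y.2.2 ∧ y.2.2 ≠ 1 ∧ y.2.2 * y.1 = y.1 * y.2.2 ∧
    y.2.2 * y.2.1 = y.2.1 * y.2.2, η (y.2.1 * y.1 * y.2.1⁻¹ * y.1⁻¹)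

/-- Trace on section functions. -/
def ts (η : H → A) : A :=
  ∑ c : ConjClasses H with IsReg p (Quotient.out c : H),
    ∑ y : H with ∃ a, RP p y a ∧ IsConj a (Quotient.out c : H), η (y * (Quotient.out c : H)⁻¹)

/-- The section count weighted by chains above `Q₀`. -/
def WS (Q₀ : Subgroup H) (η : H → A) : A :=
  ∑ y : H × H × H with IsReg p y.1 ∧ IsP p y.2.2 ∧ y.2.2 * y.1 = y.1 * y.2.2,
    η (y.2.1 * (y.2.2 * y.1) * y.2.1⁻¹ * y.1⁻¹) * (muA p Q₀ fun Q => Fx y.1 Q ∧ Fx y.2.1 Q ∧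
      Fx y.2.2 Q ∧ Cz (y.2.1 * (y.2.2 * y.1) * y.2.1⁻¹ * y.1⁻¹) Q : ℤ)

/-- Chains fixed by `a`, `b` and centralized by `g`. -/
def mu3 (y : H × H × H) : ℤ := muA p ⊥ fun Q => Fx y.1 Q ∧ Fx y.2.1 Q ∧ Cz y.2.2 Q

/-- The product of the commutator and the third entry. -/
def c3 (y : H × H × H) : H := cm y.1 y.2.1 * y.2.2

/-- The number of triples with a `p`-element as product. -/
def ct3 (Γ : H → Prop) : ℕ := #{y : H × H × H | Γ y.2.2 ∧ IsP p (c3 y)}

end Fun

section Loc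
variable {k : Type} [Field k] (M : PM k) (p : ℕ) {H : Type} [Group H] [Fintype H]

/-- `x` is `n` times an element of the maximal ideal. -/
def Sm (n : ℕ) (x : M.O) : Prop := ∃ y : M.O, M.ψ y = 0 ∧ x = n * y

/-- A lift of a central idempotent, carried by regular elements. -/
structure Good (η : H → M.O) : Prop where
  cl : Cl η
  idm : cv (M.ψ ∘ η) (M.ψ ∘ η) = M.ψ ∘ η
  reg : ∀ g, ¬ IsReg p g → η g = 0

/-- The reduction of a complex number, zero outside the ring. -/
def PM.red (z : ℂ) : k := if h : z ∈ M.O then M.ψ ⟨z, h⟩ else 0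

/-- The modular central character of `χ` on class functions with values in `k`. -/
def lam (χ : H → ℂ) (β : H → k) : k :=
  ∑ c : ConjClasses H, β (Quotient.out c) * M.red (om χ fun g => if ConjClasses.mk g = c then 1 else 0)

end Loc

section Tri
variable {H : Type} [Group H]

variable (H) in
/-- A chain, a pair and a third element. -/
abbrev T4 : Type := Tr H × H

instance (C : CSub H) : MulAction C.G (T4 H) where
  smul y ξ := (y • ξ.1, C.val y * ξ.2 * (C.val y)⁻¹)
  one_smul ξ := Prod.ext (one_smul _ _) (by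
    change (1 : H) * ξ.2 * 1⁻¹ = ξ.2
    simp)
  mul_smul y z ξ := Prod.ext (mul_smul _ _ _) (by
    change C.val y * C.val z * ξ.2 * (C.val y * C.val z)⁻¹ =
      C.val y * (C.val z * ξ.2 * (C.val z)⁻¹) * (C.val y)⁻¹
    group)

/-- The first twist. -/
def t1 : Equiv.Perm (T4 H) := Equiv.prodCongr s1 (Equiv.refl H)

/-- The second twist. -/
def t2 : Equiv.Perm (T4 H) := Equiv.prodCongr s2 (Equiv.refl H)

/-- The curve of the third twist. -/
def cu (ξ : T4 H) : H := ξ.1.2.2 * ξ.1.2.1⁻¹ * ξ.1.2.2⁻¹ * ξ.2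

/-- The third twist. -/
def t3 : Equiv.Perm (T4 H) where
  toFun ξ := ((ξ.1.1, ξ.1.2.1, (cu ξ)⁻¹ * ξ.1.2.2), (cu ξ)⁻¹ * ξ.2 * cu ξ)
  invFun ξ := ((ξ.1.1, ξ.1.2.1, cu ξ * ξ.1.2.2), cu ξ * ξ.2 * (cu ξ)⁻¹)
  left_inv ξ := by
    refine Prod.ext (Prod.ext rfl (Prod.ext rfl ?_)) ?_ <;> simp only [cu] <;> group
  right_inv ξ := by
    refine Prod.ext (Prod.ext rfl (Prod.ext rfl ?_)) ?_ <;> simp only [cu] <;> group

variable (p : ℕ) (C : CSub H) (x : H) (Γ : H → Prop)

/-- Admissible points. -/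
def InY (ξ : T4 H) : Prop := IsCh p ⊥ ξ.1.1 ∧ FxC ξ.1.2.1 ξ.1.1 ∧ FxC ξ.1.2.2 ξ.1.1 ∧
  CzC ξ.2 ξ.1.1 ∧ Γ ξ.2 ∧ cm ξ.1.2.1 ξ.1.2.2 * ξ.2 = x

/-- The sign on the free part. -/
def wy (ξ : T4 H) : ℤ := if InY p x Γ ξ ∧ Free C.G ξ then sg ξ.1.1 else 0

/-- The stabilizer of the chain, of `a` and of `g`. -/
def E1 (ξ : T4 H) : Subgroup H := E0 C ξ.1 ⊓ Subgroup.centralizer {ξ.2}

/-- The twisting group. -/
def My (ξ : T4 H) : Subgroup H := Subgroup.zpowers ξ.1.2.1 ⊔ E1 C ξ

/-- The elements that `b` conjugates into the twisting group. -/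
def Dy (ξ : T4 H) : Subgroup H := E1 C ξ ⊓ cs ξ.1.2.2 (My C ξ)

/-- The normal type. -/
def Ny (ξ : T4 H) : Prop := E1 C ξ ≠ ⊥ ∧ Fx ξ.1.2.2 (E1 C ξ)

/-- The pieces. -/
def Oy (ξ η : T4 H) : Prop :=
  ∃ y : C.G, ∃ g ∈ My C ξ, η = y • (((ξ.1.1, ξ.1.2.1, ξ.1.2.2 * g), ξ.2) : T4 H)

end Tri

end Vale.Agent.P179
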