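import Vale.Agent.P179B.Defs

/-! P179, blocks: the chain relation, and the group lemmas with a third element.

chain3: as braid in P179/HC.lean: hol s = hol t = hol u by the two braid relations, hol ((s t u) ^ 4) = hol s ^ 12.
central3: copy P179/GA.lean with K = closure of a, x, g; τ g = 1 because the order of g is coprime to p and the target is a p-group.
lemG3: copy lemG of P179/GB.lean; now b a b⁻¹ = g x⁻¹ a.
-/

open Finset
open scoped Classical

noncomputable section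

namespace Vale.Agent.P179

set_option linter.unusedSectionVars false

variable {p : ℕ} [Fact p.Prime] {H : Type} [Group H] [Fintype H]
variable {P T : Type} [CommGroup P] [Finite P] [MulAction P T] [Fintype T] {h : T → P} {w : T → ℤ}
  {s t u : Equiv.Perm T}

theorem chain3 (hh : Triv h) (hw : Wt P w) (hs : Eqv P s) (ht : Eqv P t) (hu : Eqv P u)
    (hws : ∀ ξ, w (s ξ) = w ξ) (hwt : ∀ ξ, w (t ξ) = w ξ) (hwu : ∀ ξ, w (u ξ) = w ξ)
    (hb : s * t * s = t * s * t) (hb1 : t * u * t = u * t * u) {x : P}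
    (hx : ∀ ξ, w ξ ≠ 0 → ((s * t * u) ^ 4) ξ = x • ξ) {q : ℕ} (hq : hol h w s ^ q = 1) :
    ∃ m : ℤ, ∑ ξ, w ξ = Nat.card P * m ∧ x ^ (m * q) = 1 := by
  have em : ∀ {a b : Equiv.Perm T}, Eqv P a → Eqv P b → Eqv P (a * b) := fun ha hb y ξ => by
    rw [Equiv.Perm.mul_apply, hb, ha, Equiv.Perm.mul_apply]
  have wm : ∀ {a b : Equiv.Perm T}, (∀ ξ, w (a ξ) = w ξ) → (∀ ξ, w (b ξ) = w ξ) →
      ∀ ξ, w ((a * b) ξ) = w ξ := fun ha hb ξ => by rw [Equiv.Perm.mul_apply, ha, hb]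
  have e0 : ∀ {a b c : Equiv.Perm T}, Eqv P a → Eqv P b → Eqv P c → (∀ ξ, w (b ξ) = w ξ) →
      (∀ ξ, w (c ξ) = w ξ) → hol h w (a * b * c) = hol h w a * hol h w b * hol h w c :=
    fun ha hb hc wb wc => by rw [hol_mul hh hw (em ha hb) hc wc, hol_mul hh hw ha hb wb]
  have e3 : hol h w s = hol h w t := by
    have e1 := e0 hs ht hs hwt hws
    rw [hb, e0 ht hs ht hws hwt, mul_comm (hol h w t)] at e1
    exact (mul_left_cancel e1).symm
  have e4 : hol h w t = hol h w u := by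
    have e1 := e0 ht hu ht hwu hwt
    rw [hb1, e0 hu ht hu hwt hwu, mul_comm (hol h w u)] at e1
    exact (mul_left_cancel e1).symm
  have u1 := em (em hs ht) hu
  have u2 := wm (wm hws hwt) hwu
  obtain ⟨m, m1, m2⟩ := hol_smul hh hw x hx
  refine ⟨m, m1, ?_⟩
  rw [pow_succ, pow_succ, pow_succ, pow_one, hol_mul hh hw (em (em u1 u1) u1) u1 u2,
    hol_mul hh hw (em u1 u1) u1 u2, hol_mul hh hw u1 u1 u2, e0 hs ht hu hwt hwu, ← e4,
    ← e3] at m2
  rw [zpow_mul, zpow_natCast, ← m2]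
  simp only [mul_pow, hq, one_mul]

theorem EA_aux (hab : Ab p H) {a x g w : H} (hw : IsP p w) (hg : IsReg p g)
    (hc : ∀ g, w * g = g * w) {r q : ℕ} (e : w = a ^ r * ((g * x⁻¹ * a) ^ r)⁻¹)
    (hx : x ^ (r * q) = 1) : w ^ q = 1 := by
  obtain ⟨S⟩ : Nonempty (Sylow p H) := inferInstance
  let C : CSub H := ⟨S, hab S S.isPGroup'⟩
  let ϕ : (S : Subgroup H) →* C.G := ⟨⟨id, rfl⟩, fun _ _ => rfl⟩
  have h0 : MonoidHom.transfer ϕ g = 1 := by
    obtain ⟨k, hk⟩ := S.isPGroup' (MonoidHom.transfer ϕ g)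
    have hk' : MonoidHom.transfer ϕ g ^ p ^ k = 1 := hk
    refine (pow_eq_one_iff_of_coprime (Nat.Coprime.pow_right k hg)).1 ⟨?_, hk'⟩
    rw [← map_pow, pow_orderOf_eq_one, map_one]
  have h1 := MonoidHom.transfer_eq_pow ϕ w fun k g _ => by
    rw [mul_assoc, ((show Commute w g from hc g).pow_left k).eq, inv_mul_cancel_left]
  have h2 : MonoidHom.transfer ϕ w = MonoidHom.transfer ϕ x ^ r := by
    conv_lhs => rw [e]
    simp only [map_mul, map_inv, map_pow, h0, one_mul, mul_pow, inv_pow, mul_inv_rev, inv_inv,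
      mul_inv_cancel_left]
  have h3 : MonoidHom.transfer ϕ w ^ q = 1 := by rw [h2, ← pow_mul, ← map_pow, hx, map_one]
  rw [h1, ← map_pow] at h3
  have h4 : (w ^ (S : Subgroup H).index) ^ q = 1 := congrArg Subtype.val h3
  obtain ⟨k, hk⟩ := hw
  have h5 : (p ^ k).Coprime (S : Subgroup H).index :=
    ((Nat.Prime.coprime_iff_not_dvd Fact.out).2 S.not_dvd_index).pow_left k
  refine (pow_eq_one_iff_of_coprime h5).1 ⟨?_, ?_⟩
  · rw [← pow_mul, mul_comm, pow_mul, hk, one_pow]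
  · rw [← pow_mul, mul_comm, pow_mul, h4]

theorem central3 (hab : Ab p H) {a x g z : H} (hz : IsP p z) (hg : IsReg p g) (c1 : z * a = a * z)
    (c2 : z * x = x * z) (c4 : z * g = g * z) {r q : ℕ} (e : z = a ^ r * ((g * x⁻¹ * a) ^ r)⁻¹)
    (hx : x ^ (r * q) = 1) : z ^ q = 1 := by
  have hm : ∀ g : H, z * g = g * z → g ∈ Subgroup.centralizer ({z} : Set H) := fun g h =>
    Subgroup.mem_centralizer_iff.2 fun y hy => by rwa [Set.mem_singleton_iff.1 hy]
  obtain ⟨k, hk⟩ := hz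
  have := EA_aux (hab.sub (Subgroup.centralizer ({z} : Set H))) (a := ⟨a, hm a c1⟩)
    (x := ⟨x, hm x c2⟩) (g := ⟨g, hm g c4⟩) (w := ⟨z, hm z rfl⟩) ⟨k, Subtype.ext hk⟩
    (by rw [IsReg, Subgroup.orderOf_mk]; exact hg)
    (fun g => Subtype.ext (Subgroup.mem_centralizer_iff.1 g.2 z rfl)) (Subtype.ext e)
    (Subtype.ext hx)
  exact congrArg Subtype.val this

theorem lemG3 (hab : Ab p H) {a b g x : H} (hc : cm a b * g = x) (hg : IsReg p g) {j : ℕ}
    (hx : x ^ p ^ (j + 1) = 1) (E : Subgroup H) (hE : IsPGroup p E) (ha : ∀ e ∈ E, e * a = a * e)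
    (hxE : ∀ e ∈ E, e * x = x * e) (hgE : ∀ e ∈ E, e * g = g * e)
    (hb : ∀ e ∈ E, e * b = b * e → e = 1) {k : ℕ}
    (hk : k * Nat.card (E ⊓ cs b (Subgroup.zpowers a ⊔ E) : Subgroup H) =
      Nat.card (Subgroup.zpowers a ⊔ E : Subgroup H)) (h : a ^ (p ^ j * k) ≠ 1) : E ≠ ⊥ ∧ Fx b E := by
  have hp : p.Prime := Fact.out
  set M : Subgroup H := Subgroup.zpowers a ⊔ E with hM
  set D : Subgroup H := E ⊓ cs b M with hD
  set A := orderOf a with hA
  have A0 : 0 < A := orderOf_pos a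
  have e1 : g * x⁻¹ * a = b * a * b⁻¹ := by
    rw [← hc, cm]
    group
  have oa1 : orderOf (b * a * b⁻¹) = A := (MulAut.conj b).orderOf_eq a
  have ha1 : ∀ e ∈ E, e * (b * a * b⁻¹) = b * a * b⁻¹ * e := fun e he => by
    rw [← e1]
    exact (((show Commute e g from hgE e he).mul_right
      (show Commute e x from hxE e he).inv_right).mul_right (show Commute e a from ha e he)).eq
  have hDE : D ≤ E := inf_le_left
  have c1 := card_sup_comm (GB_zc ha)
  have c2 := card_sup_comm (GB_zc (E := D) fun e he => ha1 e (hDE he))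
  rw [Nat.card_zpowers, ← hM, ← hA] at c1
  rw [Nat.card_zpowers, oa1] at c2
  set Z : Subgroup H := Subgroup.zpowers a ⊓ E with hZ
  set Z1 : Subgroup H := Subgroup.zpowers (b * a * b⁻¹) ⊓ D with hZ1
  have hM1 : Subgroup.zpowers (b * a * b⁻¹) ⊔ D ≤ cs b M := by
    refine sup_le ?_ inf_le_right
    rw [Subgroup.zpowers_le, mem_cs]
    have : b⁻¹ * (b * a * b⁻¹) * b = a := by group
    rw [this]
    exact Subgroup.mem_sup_left (Subgroup.mem_zpowers a)
  obtain ⟨m, hm⟩ := Subgroup.card_dvd_of_le hM1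
  rw [card_cs] at hm
  obtain ⟨i, hi⟩ := Subgroup.card_dvd_of_le hDE
  have D0 : 0 < Nat.card D := Nat.card_pos
  have k1 : k * Nat.card Z = A * i := by
    refine Nat.eq_of_mul_eq_mul_left D0 ?_
    calc Nat.card D * (k * Nat.card Z) = k * Nat.card D * Nat.card Z := by ring
      _ = A * Nat.card E := by rw [hk, c1]
      _ = Nat.card D * (A * i) := by rw [hi]; ring
  have k2 : k * Nat.card Z1 = A * m := by
    refine Nat.eq_of_mul_eq_mul_left D0 ?_
    calc Nat.card D * (k * Nat.card Z1) = k * Nat.card D * Nat.card Z1 := by ring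
      _ = Nat.card (Subgroup.zpowers (b * a * b⁻¹) ⊔ D : Subgroup H) * Nat.card Z1 * m := by
        rw [hk, hm]; ring
      _ = Nat.card D * (A * m) := by rw [c2]; ring
  have hA' : ¬ A ∣ p ^ j * k := fun hd => h (orderOf_dvd_iff_pow_eq_one.1 hd)
  have pZ : IsPGroup p Z := hE.to_inf_right
  have pZ1 : IsPGroup p Z1 := (hE.to_le hDE).to_inf_right
  have d1 := GB_dvd pZ ⟨i, k1⟩ hA'
  have d2 := GB_dvd pZ1 ⟨m, k2⟩ hA'
  have dZ : Nat.card Z ∣ A := by
    have := Subgroup.card_dvd_of_le (inf_le_left : Z ≤ Subgroup.zpowers a)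
    rwa [Nat.card_zpowers] at this
  obtain ⟨r, hr⟩ := d1.trans dZ
  have hz : a ^ r ∈ Z := pow_mem_of_dvd inf_le_left d1 hr
  have hz1 : (b * a * b⁻¹) ^ r ∈ Z1 := pow_mem_of_dvd inf_le_left d2 (oa1.trans hr)
  have zE : a ^ r ∈ E := hz.2
  have z1E : (b * a * b⁻¹) ^ r ∈ E := hDE hz1.2
  have r0 : 0 < r := Nat.pos_of_ne_zero fun h0 => by
    rw [h0, mul_zero] at hr
    omega
  have zq : (a ^ r) ^ p ^ j ≠ 1 := fun h0 => by
    rw [← pow_mul] at h0
    have h1 := orderOf_dvd_iff_pow_eq_one.2 h0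
    rw [← hA, hr, pow_succ, mul_comm r, mul_assoc, mul_comm p r] at h1
    have h2 := Nat.dvd_of_mul_dvd_mul_left (pow_pos hp.pos j) h1
    have h3 := Nat.le_of_dvd r0 h2
    nlinarith [hp.two_le]
  have wE : a ^ r * ((b * a * b⁻¹) ^ r)⁻¹ ∈ E := E.mul_mem zE (E.inv_mem z1E)
  have wq : (a ^ r * ((b * a * b⁻¹) ^ r)⁻¹) ^ p ^ j ≠ 1 := fun h0 => by
    have cz : Commute (a ^ r) ((b * a * b⁻¹) ^ r) := hab E hE _ zE _ z1E
    rw [cz.inv_right.mul_pow, inv_pow, mul_inv_eq_one, conj_pow, conj_pow] at h0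
    refine zq (hb _ (E.pow_mem zE _) ?_)
    exact (eq_mul_inv_iff_mul_eq.1 h0)
  have pr : ¬ p ∣ r := fun ⟨t, ht⟩ => by
    refine wq (central3 hab (a := a) (x := x) (r := r) ?_ hg (ha _ wE) (hxE _ wE) (hgE _ wE) ?_ ?_)
    · obtain ⟨s, hs⟩ := hE ⟨_, wE⟩
      exact ⟨s, congrArg Subtype.val hs⟩
    · rw [e1]
    · have : r * p ^ j = p ^ (j + 1) * t := by rw [ht]; ring
      rw [this, pow_mul, hx, one_pow]
  have cop : ∀ s, Nat.Coprime (p ^ s) r := fun s =>
    ((Nat.Prime.coprime_iff_not_dvd hp).2 pr).pow_left s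
  have cZ : Nat.card Z = p ^ (j + 1) := by
    refine Nat.dvd_antisymm ?_ d1
    obtain ⟨s, hs⟩ := pZ.exists_card_eq
    rw [hs, hr] at dZ
    rw [hs]
    exact (cop s).dvd_of_dvd_mul_right dZ
  have k3 : k = r * i := by
    refine Nat.eq_of_mul_eq_mul_left (pow_pos hp.pos (j + 1)) ?_
    rw [cZ, hr] at k1
    rw [mul_comm, k1, mul_assoc]
  obtain ⟨u, hu⟩ := hE.exists_card_eq
  have i1 : i = 1 := by
    have pi : ¬ p ∣ i := fun ⟨t, ht⟩ => hA' ⟨t, by rw [k3, hr, ht]; ring⟩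
    have hiu : i ∣ p ^ u := hu ▸ hi ▸ Dvd.intro_left _ rfl
    exact (Nat.coprime_self i).1
      ((((Nat.Prime.coprime_iff_not_dvd hp).2 pi).pow_left u).coprime_dvd_left hiu)
  have DE : D = E := Subgroup.eq_of_le_of_card_ge hDE (by rw [hi, i1, mul_one])
  have cM : Nat.card M = r * p ^ u := by rw [← hk, k3, i1, mul_one, DE, hu]
  have KM : cs b⁻¹ E ≤ M := fun y hy => by
    rw [mem_cs, inv_inv] at hy
    have h1 : b * y * b⁻¹ ∈ cs b M := (DE ▸ hy : b * y * b⁻¹ ∈ D).2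
    rw [mem_cs] at h1
    have : b⁻¹ * (b * y * b⁻¹) * b = y := by group
    rwa [this] at h1
  have MC : ∀ y ∈ M, ∀ e ∈ E, y * e = e * y := by
    have : M ≤ Subgroup.centralizer (E : Set H) := sup_le
      (fun y hy => Subgroup.mem_centralizer_iff.2 fun e he => (GB_zc ha y hy e he).symm)
      (fun y hy => Subgroup.mem_centralizer_iff.2 fun e he => hab E hE e he y hy)
    exact fun y hy e he => (Subgroup.mem_centralizer_iff.1 (this hy) e he).symm
  have c3 := card_sup_comm fun y hy e he => MC y (KM hy) e he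
  rw [card_cs, hu, ← pow_add] at c3
  have d3 : Nat.card (cs b⁻¹ E ⊔ E : Subgroup H) ∣ r * p ^ u :=
    cM ▸ Subgroup.card_dvd_of_le (sup_le KM le_sup_right)
  have d4 : Nat.card (cs b⁻¹ E ⊔ E : Subgroup H) ∣ p ^ u :=
    ((cop (u + u)).coprime_dvd_left ⟨_, c3.symm⟩).dvd_of_dvd_mul_left d3
  have e4 : E = cs b⁻¹ E ⊔ E := Subgroup.eq_of_le_of_card_ge le_sup_right
    (hu ▸ Nat.le_of_dvd (pow_pos hp.pos u) d4)
  have e5 : cs b⁻¹ E = E :=
    Subgroup.eq_of_le_of_card_ge (le_sup_left.trans e4.ge) (card_cs _ _).ge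
  refine ⟨fun h0 => zq ?_, ?_⟩
  · rw [h0, Subgroup.mem_bot] at zE
    rw [zE, one_pow]
  · have := (Subgroup.normalizer (E : Set H)).inv_mem (fx_iff.2 e5)
    rwa [inv_inv] at this

end Vale.Agent.P179
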