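import Vale.Agent.P179B.DC

/-! P179, blocks: inserting chains into the weighted count.

ct3_normal: as ct_normal in P179/OA.lean: IsP p (c3 y) only depends on the images of a and b in H ⧸ Q, so ct3 = |Q| ^ 2 * N with N the number of (a1, b1, g) in (H ⧸ Q) × (H ⧸ Q) × H;
φ a1 = number of (b1, g) is invariant under conjugation and divisible by the order of the centralizer of a1; orbit_dvd for ConjAct (H ⧸ Q). ct3_mu: as ct_mu in P179/OB.lean, on K = St σ with Γ1 g = Γ g ∧ CzC g σ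
(an element centralizing the chain lies in St σ), pp_St.
-/

open Finset
open scoped Classical

noncomputable section

namespace Vale.Agent.P179

set_option linter.unusedSectionVars false

variable {p : ℕ} [Fact p.Prime] {H : Type} [Group H] [Fintype H] {Γ : H → Prop}

theorem FA_dvd {K : Type} [Group K] [Fintype K] (F : K → ℕ) (hF : ∀ y c, F (y * c * y⁻¹) = F c) :
    Nat.card K ∣ ∑ a : K, ∑ b : K, F (cm a b) := by
  have e : ((∑ a : K, ∑ b : K, F (cm a b) : ℕ) : ℤ) = ∑ a : K, ∑ b : K, (F (cm a b⁻¹) : ℤ) := by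
    push_cast
    exact sum_congr rfl fun a _ => Fintype.sum_equiv (Equiv.inv K) _ _ fun b => by simp
  rw [← Int.natCast_dvd_natCast, e]
  refine orbit_dvd (Γ := ConjAct K) _ (fun g a => ?_) fun a => ?_
  · refine (Fintype.sum_equiv (MulAut.conj (ConjAct.ofConjAct g)).toEquiv _ _ fun b => ?_).symm
    have k : cm (g • a) ((MulAut.conj (ConjAct.ofConjAct g)).toEquiv b)⁻¹ =
        ConjAct.ofConjAct g * cm a b⁻¹ * (ConjAct.ofConjAct g)⁻¹ := by
      simp [cm, ConjAct.smul_def, mul_assoc]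
    rw [k, hF]
  · rw [← Subgroup.nat_card_centralizer_nat_card_stabilizer]
    refine orbit_dvd _ (fun c b => ?_) fun b => ?_
    · have k : cm a (c • b)⁻¹ = cm a b⁻¹ := by
        have h1 := c.2 a rfl
        change a * (c * b)⁻¹ * a⁻¹ * (c * b)⁻¹⁻¹ = a * b⁻¹ * a⁻¹ * b⁻¹⁻¹
        rw [inv_inv, inv_inv, mul_inv_rev, ← mul_assoc a, mul_assoc _ _ a⁻¹, ← mul_inv_rev, h1]
        group
      rw [k]
    · have k : MulAction.stabilizer (Subgroup.centralizer {a}) b = ⊥ :=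
        (Subgroup.eq_bot_iff_forall _).2 fun g hg =>
          Subtype.ext (mul_eq_right.1 (show g.1 * b = b from hg) : g.1 = 1)
      rw [k, Subgroup.card_bot]
      exact one_dvd _

theorem FA_conj {K : Type} [Group K] (y x : K) : IsP p (y * x * y⁻¹) ↔ IsP p x := by
  refine exists_congr fun n => ?_
  rw [conj_pow, mul_inv_eq_one, mul_eq_left]

theorem ct3_normal (hΓ : ∀ g y, Γ (y * g * y⁻¹) ↔ Γ g) (Q : Subgroup H) [Q.Normal] (hQ : IsPGroup p Q)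
    (h0 : Q ≠ ⊥) : p * pp p H ∣ ct3 p Γ := by
  have : Fintype (H ⧸ Q) := Fintype.ofFinite _
  have k : ∀ x : H, IsP p x ↔ IsP p (x : H ⧸ Q) := fun x => by
    refine ⟨fun ⟨n, hn⟩ => ⟨n, by rw [← QuotientGroup.mk_pow, hn, QuotientGroup.mk_one]⟩,
      fun ⟨n, hn⟩ => ?_⟩
    rw [← QuotientGroup.mk_pow, QuotientGroup.eq_one_iff] at hn
    obtain ⟨j, hj⟩ := hQ ⟨_, hn⟩
    exact ⟨n + j, by rw [pow_add, pow_mul]; exact congrArg Subtype.val hj⟩
  let F : H ⧸ Q → ℕ := fun c => ∑ g : H, if Γ g ∧ IsP p (c * g) then 1 else 0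
  have hF : ∀ y c, F (y * c * y⁻¹) = F c := fun y c => by
    obtain ⟨y, rfl⟩ := QuotientGroup.mk_surjective y
    refine (Fintype.sum_equiv (MulAut.conj y).toEquiv _ _ fun g => ?_).symm
    have e : ((y : H ⧸ Q) * c * (y : H ⧸ Q)⁻¹) * ((MulAut.conj y).toEquiv g : H) =
        (y : H ⧸ Q) * (c * g) * (y : H ⧸ Q)⁻¹ := by
      simp [mul_assoc]
    rw [e, FA_conj]
    exact if_congr (and_congr_left' (hΓ g y).symm) rfl rfl
  have e : ct3 p Γ = Nat.card Q * (Nat.card Q * ∑ a : H ⧸ Q, ∑ b : H ⧸ Q, F (cm a b)) := by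
    rw [ct3, card_filter, Fintype.sum_prod_type, mul_sum, ← OA_quot]
    refine sum_congr rfl fun a _ => ?_
    rw [← OA_quot, Fintype.sum_prod_type]
    exact sum_congr rfl fun b _ => sum_congr rfl fun g _ =>
      if_congr (and_congr_right' (k _)) rfl rfl
  rw [e]
  refine mul_dvd_mul ?_ (pp_dvd.trans ?_)
  · obtain ⟨n, hn⟩ := IsPGroup.iff_card.1 hQ
    rw [hn]
    refine dvd_pow_self p fun h => h0 ?_
    rwa [h, pow_zero, Subgroup.card_eq_one] at hn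
  · rw [Subgroup.card_eq_card_quotient_mul_card_subgroup Q, mul_comm]
    exact mul_dvd_mul_left _ (FA_dvd F hF)

theorem FA_ct (σ : Finset (Subgroup H)) [Fintype (St σ)] :
    ct3 p (fun g : St σ => Γ g ∧ CzC (g : H) σ) = #{y : H × H × H | (Γ y.2.2 ∧ IsP p (c3 y)) ∧
      ∀ Q ∈ σ, Fx y.1 Q ∧ Fx y.2.1 Q ∧ Cz y.2.2 Q} := by
  unfold ct3
  have key : ∀ x : St σ × St σ × St σ,
      IsP p (c3 x) ↔ IsP p (c3 ((x.1 : H), (x.2.1 : H), (x.2.2 : H))) := fun x => by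
    refine exists_congr fun k => ?_
    rw [← Subtype.coe_inj]
    simp [c3, cm]
  refine card_bij (fun x _ => ((x.1 : H), (x.2.1 : H), (x.2.2 : H))) (fun x hx => ?_)
    (fun x _ y _ h => ?_) fun y hy => ?_
  · simp only [mem_filter, mem_univ, true_and] at hx ⊢
    exact ⟨⟨hx.1.1, (key _).1 hx.2⟩, fun Q hQ =>
      ⟨fxC_iff.2 x.1.2 Q hQ, fxC_iff.2 x.2.1.2 Q hQ, hx.1.2 Q hQ⟩⟩
  · simp only [Prod.mk.injEq] at h
    exact Prod.ext (Subtype.ext h.1) (Prod.ext (Subtype.ext h.2.1) (Subtype.ext h.2.2))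
  · simp only [mem_filter, mem_univ, true_and] at hy
    have h3 : FxC y.2.2 σ := fun Q hQ =>
      Subgroup.centralizer_le_normalizer _ fun q hq => ((hy.2 Q hQ).2.2 q hq).symm
    refine ⟨(⟨y.1, fxC_iff.1 fun Q hQ => (hy.2 Q hQ).1⟩,
      ⟨y.2.1, fxC_iff.1 fun Q hQ => (hy.2 Q hQ).2.1⟩, ⟨y.2.2, fxC_iff.1 h3⟩), ?_, rfl⟩
    simp only [mem_filter, mem_univ, true_and]
    exact ⟨⟨hy.1.1, fun Q hQ => (hy.2 Q hQ).2.2⟩, (key _).2 hy.1.2⟩

theorem FA_cz {g y : H} {Q : Subgroup H} (hy : Fx y Q) (h : Cz g Q) : Cz (y * g * y⁻¹) Q := by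
  intro q hq
  have h1 : y⁻¹ * q * y ∈ Q := by
    have := (Subgroup.mem_normalizer_iff.1 hy (y⁻¹ * q * y)).2
    exact this (by simpa [mul_assoc] using hq)
  have h2 := h _ h1
  calc y * g * y⁻¹ * q = y * (g * (y⁻¹ * q * y)) * y⁻¹ := by group
    _ = q * (y * g * y⁻¹) := by rw [h2]; group

theorem FA_ne (hab : Ab p H) (hΓ : ∀ g y, Γ (y * g * y⁻¹) ↔ Γ g) {σ : Finset (Subgroup H)}
    (hσ : IsCh p ⊥ σ) (hne : σ.Nonempty) :
    p * pp p H ∣ #{y : H × H × H | (Γ y.2.2 ∧ IsP p (c3 y)) ∧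
      ∀ Q ∈ σ, Fx y.1 Q ∧ Fx y.2.1 Q ∧ Cz y.2.2 Q} := by
  obtain ⟨Q, hQ⟩ := hne
  have hQp := (hσ.1 Q hQ).1
  have hQK : Q ≤ St σ := fun r hr => fxC_iff.1 fun Q' h' => by
    rcases hσ.2 Q' h' Q hQ with h | h
    · exact hab.fx hQp h hr
    · exact Subgroup.le_normalizer (h hr)
  have hKN : St σ ≤ Subgroup.normalizer (Q : Set H) := fun g hg => fxC_iff.2 hg Q hQ
  let _ : Fintype (St σ) := Fintype.ofFinite _
  have : (Q.subgroupOf (St σ)).Normal := (Subgroup.normal_subgroupOf_iff_le_normalizer hQK).2 hKN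
  have h0 : Q.subgroupOf (St σ) ≠ ⊥ := fun h => by
    rw [Subgroup.subgroupOf_eq_bot, disjoint_iff, inf_eq_left.2 hQK] at h
    exact (hσ.1 Q hQ).2.ne' h
  have h1 := ct3_normal (p := p) (Γ := fun g : St σ => Γ g ∧ CzC (g : H) σ) (fun g y =>
    and_congr (hΓ g y) ⟨fun h R hR => by
      have := FA_cz (fxC_iff.2 y⁻¹.2 R hR) (h R hR)
      simpa [mul_assoc] using this, fun h R hR => FA_cz (fxC_iff.2 y.2 R hR) (h R hR)⟩)
    (Q.subgroupOf (St σ)) (hQp.comap_subtype) h0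
  rwa [pp_St hab hσ, FA_ct] at h1

theorem ct3_mu (hab : Ab p H) (hΓ : ∀ g y, Γ (y * g * y⁻¹) ↔ Γ g) : (p * pp p H : ℤ) ∣
    (∑ y : H × H × H with Γ y.2.2 ∧ IsP p (c3 y), mu3 p y) - ct3 p Γ := by
  have e1 : ∑ y : H × H × H with Γ y.2.2 ∧ IsP p (c3 y), mu3 p y =
      ∑ σ : Finset (Subgroup H) with IsCh p ⊥ σ, sg σ * (#{y : H × H × H |
        (Γ y.2.2 ∧ IsP p (c3 y)) ∧ ∀ Q ∈ σ, Fx y.1 Q ∧ Fx y.2.1 Q ∧ Cz y.2.2 Q} : ℕ) := by
    unfold mu3 muA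
    rw [sum_comm' (t' := univ.filter fun σ : Finset (Subgroup H) => IsCh p ⊥ σ)
      (s' := fun σ => univ.filter fun y : H × H × H =>
        (Γ y.2.2 ∧ IsP p (c3 y)) ∧ ∀ Q ∈ σ, Fx y.1 Q ∧ Fx y.2.1 Q ∧ Cz y.2.2 Q)]
    · refine sum_congr rfl fun σ _ => ?_
      rw [sum_const, nsmul_eq_mul, mul_comm]
    · intro y σ
      simp only [mem_filter, mem_univ, true_and]
      tauto
  have h0 : (∅ : Finset (Subgroup H)) ∈ univ.filter fun σ : Finset (Subgroup H) => IsCh p ⊥ σ :=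
    mem_filter.2 ⟨mem_univ _, fun Q h => absurd h (notMem_empty _),
      fun Q h => absurd h (notMem_empty _)⟩
  rw [e1, ← add_sum_erase _ _ h0]
  have e2 : sg (∅ : Finset (Subgroup H)) * (#{y : H × H × H | (Γ y.2.2 ∧ IsP p (c3 y)) ∧
      ∀ Q ∈ (∅ : Finset (Subgroup H)), Fx y.1 Q ∧ Fx y.2.1 Q ∧ Cz y.2.2 Q} : ℕ) = ct3 p Γ := by
    simp [sg, ct3]
  rw [e2, add_sub_cancel_left]
  refine dvd_sum fun σ hσ => Dvd.dvd.mul_left ?_ _
  rw [mem_erase, mem_filter] at hσ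
  exact_mod_cast FA_ne hab hΓ hσ.2.2 (nonempty_iff_ne_empty.2 hσ.1)

end Vale.Agent.P179
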