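import Vale.Agent.P179B.PD

/-! P179, blocks: the weighted formula of Frobenius.

As P179/CD.lean and RE.lean: ∑ (a, b), ρ (cm a b) is the scalar (card H / χ 1) ^ 2 (irr_frob and Schur), so ∑ y, η y.2.2 * χ (c3 y) = card H ^ 2 * om χ η / χ 1.
factA3: for χ of defect zero T χ = χ 1 (vanish); otherwise T χ / χ 1 = p * t / m with m coprime to p (sum_p_char), om χ η ∈ O (om_mem), PM.inv_mem.
-/

open Finset
open scoped Classical

noncomputable section

namespace Vale.Agent.P179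

set_option linter.unusedSectionVars false

variable {p : ℕ} [Fact p.Prime] {H : Type} [Group H] [Fintype H] {k : Type} [Field k] [CharP k p]
  {M : PM k}

theorem FB_one {χ : H → ℂ} (hχ : IsIrr χ) : χ 1 ≠ 0 := by
  obtain ⟨d, hd, h3⟩ := hχ.deg
  rw [h3]
  exact Nat.cast_ne_zero.2 hd.ne'

theorem FB_sc {χ : H → ℂ} (hχ : IsIrr χ) {η : H → ℂ} (h : Cl η) (x : H) :
    ∑ g, η g * χ (x * g) = om χ η * χ x := by
  have h1 := FB_one hχ
  obtain ⟨n, ρ, hρ, rfl⟩ := hχ
  obtain ⟨c, hc⟩ := CC_schur ρ (∑ g, η g • ρ g) fun y => by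
    rw [sum_mul, mul_sum, ← Equiv.sum_comp (MulAut.conj y).toEquiv]
    refine sum_congr rfl fun g _ => ?_
    simp only [MulEquiv.toEquiv_eq_coe, EquivLike.coe_coe, MulAut.conj_apply, h g y,
      smul_mul_assoc, mul_smul_comm, ← map_mul]
    congr 2
    group
  have e : ∀ x, ∑ g, η g * ρ.character (x * g) = c * ρ.character x := fun x => by
    rw [← hc, mul_sum, map_sum]
    refine sum_congr rfl fun g _ => ?_
    rw [mul_smul_comm, map_smul, ← map_mul, smul_eq_mul]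
    rfl
  have e1 := e 1
  simp only [one_mul] at e1
  rw [e, om, e1, mul_div_cancel_right₀ _ h1]

theorem ct3_formula {η : H → ℂ} (h : Cl η) : ∑ y : H × H × H with IsP p (c3 y), η y.2.2 =
    Nat.card H * ∑ χ ∈ (irr_finite (H := H)).toFinset,
      om χ η * ((∑ x : H with IsP p x, χ x) / χ 1) := by
  have h1 := CD_exp (fun g : H => if IsP p g then (1 : ℂ) else 0) fun g y => by
    simp only [CD_conj]
  have h0 : ∀ y : H × H × H, (if IsP p (c3 y) then η y.2.2 else 0) =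
      η y.2.2 * if IsP p (c3 y) then (1 : ℂ) else 0 := fun y => by split_ifs <;> simp
  rw [sum_filter, sum_congr rfl fun y _ => (h0 y).trans
    ((congrArg (η y.2.2 * ·) (h1 (c3 y))).trans (mul_sum _ _ _)), sum_comm, mul_sum]
  refine sum_congr rfl fun χ hχ => ?_
  have h2 : IsIrr χ := CD_mem.1 hχ
  have h4 := FB_one h2
  have h5 : ∑ g : H, (if IsP p g then (1 : ℂ) else 0) * χ g⁻¹ = ∑ x : H with IsP p x, χ x := by
    rw [sum_filter]
    refine Fintype.sum_equiv (Equiv.inv H) _ _ fun g => ?_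
    simp only [Equiv.inv_apply, CD_inv, ite_mul, one_mul, zero_mul]
  have h6 := irr_frob h2
  have h7 := CD_card (H := H)
  have h8 : ∑ y : H × H × H, η y.2.2 * χ (c3 y) = om χ η * ∑ y : H × H, χ (cm y.1 y.2) := by
    simp only [Fintype.sum_prod_type, c3, FB_sc h2 h, mul_sum]
  have h9 : ∑ y : H × H, χ (cm y.1 y.2) = (Nat.card H : ℂ) ^ 2 / χ 1 := by
    rw [eq_div_iff h4, mul_comm, h6]
  rw [h5, sum_congr rfl fun y _ => mul_left_comm _ _ _, ← mul_sum, h8, h9]
  field_simp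

theorem FB_term (hab : Ab p H) {η : H → M.O} (h : Cl η) {χ : H → ℂ} (hχ : IsIrr χ) :
    ∃ z : M.O, M.ψ z = (if DefectZero p χ then lam M χ (M.ψ ∘ η) else 0) ∧
      (z : ℂ) = om χ (fun g => (η g : ℂ)) * ((∑ x : H with IsP p x, χ x) / χ 1) := by
  obtain ⟨t, m, hm, e⟩ := RE_term hab hχ
  have hp : p.Prime := Fact.out
  have m0 : (m : ℂ) ≠ 0 := Nat.cast_ne_zero.2 fun q => hp.ne_one (by simpa [q] using hm)
  refine ⟨⟨_, om_mem hχ h⟩ * ((if DefectZero p χ then 1 else 0) + p * t * ⟨_, M.inv_mem hm⟩),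
    ?_, ?_⟩
  · rw [map_mul, map_add, map_mul, map_mul, map_natCast, CharP.cast_eq_zero, zero_mul, zero_mul,
      add_zero, ← PM.red_coe, lam_red hχ h]
    split_ifs <;> simp
  · push_cast
    congr 1
    rw [← e]
    split_ifs <;> simp <;> field_simp <;> ring

theorem factA3 (hab : Ab p H) {η : H → M.O} (h : Cl η) : ∃ z : M.O,
    M.ψ z = ∑ χ ∈ (irr_finite (H := H)).toFinset with DefectZero p χ, lam M χ (M.ψ ∘ η) ∧
      ∑ y : H × H × H with IsP p (c3 y), η y.2.2 = Nat.card H * z := by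
  have hz : ∀ χ : H → ℂ, ∃ z : M.O, IsIrr χ →
      M.ψ z = (if DefectZero p χ then lam M χ (M.ψ ∘ η) else 0) ∧
        (z : ℂ) = om χ (fun g => (η g : ℂ)) * ((∑ x : H with IsP p x, χ x) / χ 1) := fun χ => by
    by_cases hχ : IsIrr χ
    · obtain ⟨z, hz⟩ := FB_term hab h hχ
      exact ⟨z, fun _ => hz⟩
    · exact ⟨0, fun q => absurd q hχ⟩
  choose z hz using hz
  refine ⟨∑ χ ∈ (irr_finite (H := H)).toFinset, z χ, ?_, Subtype.ext ?_⟩
  · rw [map_sum, sum_filter]
    exact sum_congr rfl fun χ hχ => (hz χ (CD_mem.1 hχ)).1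
  · push_cast
    rw [sum_congr rfl fun χ hχ => (hz χ (CD_mem.1 hχ)).2]
    exact ct3_formula (η := fun g => (η g : ℂ)) fun g y => congrArg _ (h g y)

end Vale.Agent.P179
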