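import Vale.Agent.P179B.PB

/-! P179, blocks: the trace on section functions.

For a regular class c let τ c be the linear functional with τ c (of y) = 1 if the regular component of y lies in c, else 0. As in P179/BE.lean τ c = ∑ i, m c i • (trace of the i-th component of π),
and as in P179/BC.lean each trace function is constant on sections, tr i = ∑ c, tr i (of c.out) • τ c. The two matrices are inverse to each other (linear independence of the tr i),
and ts p β = ∑ c, τ c (ma β * of c.out) = ∑ c, ∑ i, m c i * l i * tr i (of c.out) = ∑ i, l i.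
-/

open Finset
open scoped Classical

noncomputable section

namespace Vale.Agent.P179

set_option linter.unusedSectionVars false

variable {p : ℕ} [Fact p.Prime] {H : Type} [Group H] [Fintype H] {k : Type} [Field k] [IsAlgClosed k]
  [CharP k p] {M : PM k}

theorem GC_rp {q : ℕ} (h1 : ∀ g : H, IsReg p g → g ^ q = g) (h2 : ∀ g : H, IsReg p (g ^ q))
    {y a : H} (h : RP p y a) : y ^ q = a := by
  obtain ⟨ha, ⟨m, hu⟩, hc⟩ := h
  have h3 : orderOf ((y * a⁻¹) ^ q) ∣ p ^ m :=
    orderOf_dvd_of_pow_eq_one (by rw [← pow_mul, mul_comm q, pow_mul, hu, one_pow])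
  have h4 : (y * a⁻¹) ^ q = 1 :=
    orderOf_eq_one_iff.1 (Nat.Coprime.eq_one_of_dvd (Nat.Coprime.pow_right m (h2 _)) h3)
  have hc' : Commute y a := hc
  rw [hc'.inv_right.mul_pow, inv_pow, h1 a ha, mul_inv_eq_one] at h4
  exact h4

theorem GC_li {r : ℕ} {d : Fin r → ℕ}
    (π : MonoidAlgebra k H →ₐ[k] ∀ i, Matrix (Fin (d i)) (Fin (d i)) k) (hd : ∀ i, d i ≠ 0)
    (hs : Function.Surjective π) {c : Fin r → k}
    (h1 : ∀ g : H, ∑ i, c i * (π (MonoidAlgebra.of k H g) i).trace = 0) (j : Fin r) :
    c j = 0 := by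
  have h2 : ∀ x : MonoidAlgebra k H, ∑ i, c i * (π x i).trace = 0 := fun x => by
    induction x using MonoidAlgebra.induction_on with
    | of g => exact h1 g
    | add x y hx hy =>
      simp only [map_add, Pi.add_apply, Matrix.trace_add, mul_add, Finset.sum_add_distrib, hx, hy,
        add_zero]
    | smul t x hx =>
      simp only [map_smul, Pi.smul_apply, Matrix.trace_smul, smul_eq_mul, mul_left_comm _ t,
        ← Finset.mul_sum, hx, mul_zero]
  let z : Fin (d j) := ⟨0, Nat.pos_of_ne_zero (hd j)⟩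
  obtain ⟨x, hx⟩ := hs (Pi.single j (Matrix.single z z 1))
  have h3 := h2 x
  rw [hx, Finset.sum_eq_single j] at h3
  · simpa using h3
  · intro i _ hi
    rw [Pi.single_eq_of_ne hi, Matrix.trace_zero, mul_zero]
  · simp

theorem ts_trace {r : ℕ} {d : Fin r → ℕ}
    (π : MonoidAlgebra k H →ₐ[k] ∀ i, Matrix (Fin (d i)) (Fin (d i)) k) (hd : ∀ i, d i ≠ 0)
    (hs : Function.Surjective π) (hn : IsNilpotent (RingHom.ker π)) (β : H → k) (l : Fin r → k)
    (hl : π (ma β) = fun i => l i • 1) : ts p β = ∑ i, l i := by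

  obtain ⟨N, hN⟩ := hn
  obtain ⟨n, h0, h1, h2⟩ := BE_pow p H N
  have hq : p ^ n ≠ 0 := pow_ne_zero n (Fact.out : p.Prime).ne_zero
  have hk : ∀ a, π a = 0 → a ^ p ^ n = 0 := fun a ha => by
    have : a ^ N ∈ RingHom.ker π ^ N := Ideal.pow_mem_pow ((RingHom.mem_ker).2 ha) N
    rw [hN, Ideal.zero_eq_bot, Ideal.mem_bot] at this
    exact pow_eq_zero_of_le h0 this
  have key : ∀ c : ConjClasses H, ∃ C : Fin r → k, ∀ g : H,
      (if ConjClasses.mk (g ^ p ^ n) = c then (1 : k) else 0)
        = ∑ i, C i * (π (MonoidAlgebra.of k H g) i).trace := fun c =>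
    BE_fun π hd hs hk _ (fun g h => by
      have : ConjClasses.mk ((g * h) ^ p ^ n) = ConjClasses.mk ((h * g) ^ p ^ n) :=
        ConjClasses.mk_eq_mk_iff_isConj.2 (IsConj.pow _ (isConj_iff.2 ⟨h, by group⟩))
      rw [this]) fun g => by
      rw [h1 _ (h2 g)]
      split_ifs
      · rw [one_pow]
      · rw [zero_pow hq]
  choose C hC using key
  obtain ⟨u, mo, hts⟩ : ∃ u : ConjClasses H → H, (∀ c, ConjClasses.mk (u c) = c) ∧
      ts p β = ∑ c : ConjClasses H with IsReg p (u c),
        ∑ y : H with ∃ a, RP p y a ∧ IsConj a (u c), β (y * (u c)⁻¹) :=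
    ⟨fun c => Quotient.out c, fun c => Quotient.out_eq c, rfl⟩
  let φ : ∀ i, H →* Matrix (Fin (d i)) (Fin (d i)) k := fun i =>
    (((Pi.evalAlgHom k _ i).comp π : MonoidAlgebra k H →ₐ[k] _) : MonoidAlgebra k H →* _).comp
      (MonoidAlgebra.of k H)
  have hφ : ∀ i g, π (MonoidAlgebra.of k H g) i = φ i g := fun _ _ => rfl
  have t1 : ∀ i g, (φ i g).trace = ∑ c : ConjClasses H with IsReg p (u c),
      (φ i (u c)).trace * if ConjClasses.mk (g ^ p ^ n) = c then (1 : k) else 0 := by
    intro i g
    have hr : IsReg p (u (ConjClasses.mk (g ^ p ^ n))) := KD_reg (mo _) (h2 g)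
    simp only [mul_ite, mul_one, mul_zero, sum_ite_eq, mem_filter, mem_univ, hr, and_self, if_true]
    rw [BC_conj (φ i) (ConjClasses.mk_eq_mk_iff_isConj.1 (mo _))]
    obtain ⟨a, ha⟩ := exists_rp (p := p) g
    rw [GC_rp h1 h2 ha]
    obtain ⟨-, ⟨m, hu⟩, hc⟩ := ha
    have hc' : Commute g a := hc
    have e : g = a * (g * a⁻¹) := by rw [← mul_assoc, ← hc, mul_inv_cancel_right]
    conv_lhs => rw [e]
    exact BC_tr (hd i) (φ i) hu (hc'.symm.mul_right (Commute.refl a).inv_right)
  have t2 : ∀ i, ∑ c : ConjClasses H with IsReg p (u c),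
      (φ i (u c)).trace * C c i = 1 := fun i => by
    have := GC_li π hd hs (c := fun j => (∑ c : ConjClasses H with IsReg p (u c),
      (φ i (u c)).trace * C c j) - if j = i then 1 else 0) (fun g => by
        simp only [sub_mul, sum_sub_distrib, ite_mul, one_mul, zero_mul, sum_ite_eq', mem_univ,
          if_true, sum_mul, mul_assoc]
        rw [sum_comm, hφ i g, t1 i g]
        simp only [hC, mul_sum, sub_self]) i
    rwa [if_pos rfl, sub_eq_zero] at this
  have t3 : ∀ i (o : H), ∑ y, β (y * o⁻¹) * (φ i y).trace = l i * (φ i o).trace := fun i o => by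
    have e := congrArg Matrix.trace (congrFun (map_mul π (ma β) (MonoidAlgebra.of k H o)) i)
    rw [hl, Pi.mul_apply, smul_mul_assoc, one_mul, Matrix.trace_smul, smul_eq_mul, hφ] at e
    rw [← e, ma, sum_mul, map_sum, Finset.sum_apply, Matrix.trace_sum]
    refine (Fintype.sum_equiv (Equiv.mulRight o) _ _ fun g => ?_).symm
    rw [show MonoidAlgebra.single g (β g) = β g • MonoidAlgebra.of k H g by simp, smul_mul_assoc,
      ← map_mul, map_smul, Pi.smul_apply, Matrix.trace_smul, smul_eq_mul, hφ]
    simp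
  rw [hts]
  calc _ = ∑ c : ConjClasses H with IsReg p (u c),
        ∑ i, l i * ((φ i (u c)).trace * C c i) := by
        refine sum_congr rfl fun c _ => ?_
        rw [sum_filter]
        calc _ = ∑ y : H, β (y * (u c)⁻¹) *
              if ConjClasses.mk (y ^ p ^ n) = c then (1 : k) else 0 := by
              refine sum_congr rfl fun y _ => ?_
              rw [mul_ite, mul_one, mul_zero]
              refine if_congr ⟨fun ⟨a, ha, hc⟩ => ?_, fun hc => ?_⟩ rfl rfl
              · rw [GC_rp h1 h2 ha, ConjClasses.mk_eq_mk_iff_isConj.2 hc, mo]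
              · obtain ⟨a, ha⟩ := exists_rp (p := p) y
                rw [GC_rp h1 h2 ha] at hc
                exact ⟨a, ha, ConjClasses.mk_eq_mk_iff_isConj.1 (hc.trans (mo c).symm)⟩
          _ = _ := by
              simp only [hC, mul_sum, hφ]
              rw [sum_comm]
              refine sum_congr rfl fun i _ => ?_
              rw [← mul_assoc, ← t3, sum_mul]
              exact sum_congr rfl fun y _ => by ring
    _ = _ := by
        rw [sum_comm]
        exact sum_congr rfl fun i _ => by rw [← mul_sum, t2, mul_one]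

end Vale.Agent.P179
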