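import Vale.Agent.P179B.PB

/-! P179, blocks: simple modules in a block.

As num_simple in P179/BB.lean (reuse its lemmas): the classes of simple modules in B correspond to the i with l i = 1; Simple.In is invariant under isomorphism.
central_scalar: a central element of the product of matrix rings is a family of scalars (π is onto, Matrix.center_eq_range or mem_range_scalar_of_commute_single).
exists_in: some l i is nonzero (else B is a nilpotent idempotent) hence 1.
-/

open Finset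
open scoped Classical

noncomputable section

namespace Vale.Agent.P179

set_option linter.unusedSectionVars false

variable {p : ℕ} [Fact p.Prime] {H : Type} [Group H] [Fintype H] {k : Type} [Field k] [IsAlgClosed k]
  [CharP k p] {M : PM k}

theorem central_scalar {r : ℕ} {d : Fin r → ℕ}
    (π : MonoidAlgebra k H →ₐ[k] ∀ i, Matrix (Fin (d i)) (Fin (d i)) k) (hd : ∀ i, d i ≠ 0)
    (hs : Function.Surjective π) (hn : IsNilpotent (RingHom.ker π)) {B : MonoidAlgebra k H}
    (hB : B ∈ Subalgebra.center k (MonoidAlgebra k H)) : ∃ l : Fin r → k, π B = fun i => l i • 1 := by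
  have _ := hd
  have _ := hn
  have h1 : ∀ i, ∃ c : k, π B i = c • 1 := fun i => by
    obtain ⟨c, hc⟩ := Matrix.mem_range_scalar_of_commute_single (M := π B i) fun a b _ => by
      obtain ⟨x, hx⟩ := hs (Pi.single i (Matrix.single a b 1))
      have h2 := congrArg (fun y => π y i) (Subalgebra.mem_center_iff.1 hB x)
      simp only [map_mul, Pi.mul_apply, hx, Pi.single_eq_same] at h2
      exact h2
    refine ⟨c, ?_⟩
    rw [← hc, Matrix.scalar_apply, Matrix.smul_one_eq_diagonal]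
  choose l hl using h1
  exact ⟨l, funext hl⟩

theorem GD_l {r : ℕ} {d : Fin r → ℕ}
    (π : MonoidAlgebra k H →ₐ[k] ∀ i, Matrix (Fin (d i)) (Fin (d i)) k) (hd : ∀ i, d i ≠ 0)
    {B : MonoidAlgebra k H} (hB : B * B = B) {l : Fin r → k} (hl : π B = fun i => l i • 1)
    (i : Fin r) : l i = 0 ∨ l i = 1 := by
  have h1 := congrArg (fun y => π y i ⟨0, Nat.pos_of_ne_zero (hd i)⟩ ⟨0, Nat.pos_of_ne_zero (hd i)⟩) hB
  simp only [map_mul, Pi.mul_apply, hl, smul_mul_smul_comm, mul_one, Matrix.smul_apply,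
    Matrix.one_apply_eq, smul_eq_mul] at h1
  exact IsIdempotentElem.iff_eq_zero_or_one.1 h1

theorem GD_in {r : ℕ} {d : Fin r → ℕ}
    (π : MonoidAlgebra k H →ₐ[k] ∀ i, Matrix (Fin (d i)) (Fin (d i)) k) (hd : ∀ i, d i ≠ 0)
    {B : MonoidAlgebra k H} {l : Fin r → k} (hl : π B = fun i => l i • 1) (i : Fin r) :
    (BB_rep π i).asAlgebraHom B = 1 ↔ l i = 1 := by
  have h1 : ∀ v, (BB_rep π i).asAlgebraHom B v = l i • v := fun v => by
    rw [BB_act, hl, Matrix.smul_mulVec, Matrix.one_mulVec]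
  refine ⟨fun h => ?_, fun h => LinearMap.ext fun v => by rw [h1, h, one_smul, Module.End.one_apply]⟩
  have h2 := congrFun (h1 fun _ => 1) ⟨0, Nat.pos_of_ne_zero (hd i)⟩
  rw [h] at h2
  simpa using h2.symm

theorem GD_inv {V W : Type} [AddCommGroup V] [Module k V] [AddCommGroup W] [Module k W]
    {ρ : Representation k H V} {σ : Representation k H W} (e : ρ.Equiv σ) {B : MonoidAlgebra k H}
    (h : σ.asAlgebraHom B = 1) : ρ.asAlgebraHom B = 1 := by
  refine LinearMap.ext fun v => e.toLinearEquiv.injective ?_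
  have h1 := BB_int e.toIntertwiningMap B v
  rw [h] at h1
  exact h1

theorem num_in {r : ℕ} {d : Fin r → ℕ}
    (π : MonoidAlgebra k H →ₐ[k] ∀ i, Matrix (Fin (d i)) (Fin (d i)) k) (hd : ∀ i, d i ≠ 0)
    (hs : Function.Surjective π) (hn : IsNilpotent (RingHom.ker π)) {B : MonoidAlgebra k H} (hB : B * B = B) (l : Fin r → k)
    (hl : π B = fun i => l i • 1) : (numSimpleIn B : k) = ∑ i, l i := by
  have heq : Equivalence fun S T : {S : Simple k H // S.In B} => Nonempty (S.1.ρ.Equiv T.1.ρ) :=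
    ⟨fun S => ⟨Representation.Equiv.refl _⟩, fun ⟨e⟩ => ⟨e.symm⟩, fun ⟨e⟩ ⟨e'⟩ => ⟨e.trans e'⟩⟩
  let F : {i // l i = 1} → Quot fun S T : {S : Simple k H // S.In B} =>
      Nonempty (S.1.ρ.Equiv T.1.ρ) := fun i =>
    Quot.mk _ ⟨⟨d i, BB_rep π i, BB_irr π hd hs i⟩, (GD_in π hd hl i).2 i.2⟩
  have hF : Function.Bijective F := by
    refine ⟨fun i j hij => ?_, fun q => ?_⟩
    · obtain ⟨e⟩ := heq.eqvGen_iff.1 (Quot.eq.1 hij)
      exact Subtype.ext (BB_inj π hd hs e)
    · obtain ⟨S, rfl⟩ := Quot.exists_rep q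
      obtain ⟨i, ⟨e⟩⟩ := BB_surj π hd hs hn S.1.irr
      exact ⟨⟨i, (GD_in π hd hl i).1 (GD_inv e S.2)⟩, Quot.sound ⟨e⟩⟩
  rw [numSimpleIn, ← Nat.card_eq_of_bijective F hF, Nat.card_eq_fintype_card, Fintype.card_subtype,
    ← Finset.sum_boole]
  refine Finset.sum_congr rfl fun i _ => ?_
  rcases GD_l π hd hB hl i with h | h
  · rw [h, if_neg zero_ne_one]
  · rw [h, if_pos rfl]

theorem exists_in {B : MonoidAlgebra k H} (hB : IsBlock B) : ∃ S : Simple k H, S.In B := by
  obtain ⟨r, d, π, hd, hs, hn⟩ := exists_wedd k H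
  obtain ⟨l, hl⟩ := central_scalar π hd hs hn hB.1
  by_contra hno
  have h0 : ∀ i, l i = 0 := fun i => (GD_l π hd hB.2.1 hl i).resolve_right fun h =>
    hno ⟨⟨d i, BB_rep π i, BB_irr π hd hs i⟩, (GD_in π hd hl i).2 h⟩
  have h1 : B ∈ RingHom.ker π := by
    rw [RingHom.mem_ker, hl]
    funext i
    rw [h0, zero_smul, Pi.zero_apply]
  obtain ⟨m, hm⟩ := hn
  have h2 := Ideal.pow_mem_pow h1 m
  rw [hm] at h2
  exact hB.2.2.1 (IsIdempotentElem.eq_zero_of_isNilpotent hB.2.1 ⟨m, h2⟩)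

end Vale.Agent.P179
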