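import Vale.Agent.P179B.PA
import Vale.Agent.P179B.PB

/-! P179, blocks: ordinary and modular central characters.

For a class function η the operator ∑ g, η g • ρ g is the scalar om χ η (see P179/CC.lean), so om is multiplicative. om_int: the indicator e of a
class is integral over ℤ in MonoidAlgebra ℤ H (finite module), push the monic relation through the ring hom to End; or eigenvalue of an integer matrix.
om_mem, lam_red: decompose η into class indicators. lam_cv: both sides are bilinear, check on class indicators, whose convolution has natural values.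
-/

open Finset
open scoped Classical

noncomputable section

namespace Vale.Agent.P179

set_option linter.unusedSectionVars false

variable {p : ℕ} [Fact p.Prime] {H : Type} [Group H] [Fintype H] {k : Type} [Field k] [CharP k p]
  {M : PM k}

theorem PD_ne {χ : H → ℂ} (hχ : IsIrr χ) : χ 1 ≠ 0 := by
  obtain ⟨d, hd, h3⟩ := hχ.deg
  rw [h3]
  exact Nat.cast_ne_zero.2 hd.ne'

theorem PD_tr {χ : H → ℂ} (hχ : IsIrr χ) {ζ : H → ℂ} (h : Cl ζ) (x : H) :
    ∑ g, ζ g * χ (x * g) = om χ ζ * χ x := by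
  have h0 := PD_ne hχ
  obtain ⟨n, ρ, hρ, rfl⟩ := hχ
  obtain ⟨c, hc⟩ := CC_schur ρ (∑ g, ζ g • ρ g) fun y => by
    rw [sum_mul, mul_sum, ← Equiv.sum_comp (MulAut.conj y).toEquiv]
    refine sum_congr rfl fun g _ => ?_
    simp only [MulEquiv.toEquiv_eq_coe, EquivLike.coe_coe, MulAut.conj_apply, h g y,
      smul_mul_assoc, mul_smul_comm, ← map_mul]
    congr 2
    group
  have e : ∀ x, ∑ g, ζ g * ρ.character (x * g) = c * ρ.character x := fun x => by
    rw [← hc, mul_sum, map_sum]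
    refine sum_congr rfl fun g _ => ?_
    rw [mul_smul_comm, map_smul, ← map_mul, smul_eq_mul]
    rfl
  have e1 := e 1
  simp only [one_mul] at e1
  rw [e, om, e1, mul_div_cancel_right₀ _ h0]

theorem om_cv {χ : H → ℂ} (hχ : IsIrr χ) {η ζ : H → ℂ} (h : Cl η) (h1 : Cl ζ) :
    om χ (cv η ζ) = om χ η * om χ ζ := by
  have e : ∑ x, cv η ζ x * χ x = (∑ a, η a * χ a) * om χ ζ := by
    simp only [cv, sum_mul]
    rw [sum_comm]
    have e1 : ∀ g, ∑ x, η (x * g⁻¹) * ζ g * χ x = ∑ a, η a * (ζ g * χ (a * g)) := fun g => by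
      rw [← Equiv.sum_comp (Equiv.mulRight g)]
      exact sum_congr rfl fun a _ => by simp [mul_assoc]
    simp only [e1]
    rw [sum_comm]
    refine sum_congr rfl fun a _ => ?_
    rw [← mul_sum, PD_tr hχ h1]
    ring
  rw [om, e, om, om]
  ring

theorem om_int {χ : H → ℂ} (hχ : IsIrr χ) {η : H → ℤ} (h : Cl η) :
    IsIntegral ℤ (om χ fun g => (η g : ℂ)) := by
  have hm : ∀ x, χ x ∈ Submodule.span ℤ (Set.range χ) := fun x => Submodule.subset_span ⟨x, rfl⟩
  refine isIntegral_of_smul_mem_submodule (Submodule.span ℤ (Set.range χ))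
    (fun e => PD_ne hχ ((Submodule.mem_bot ℤ).1 (e ▸ hm 1)))
    (Submodule.fg_span (Set.finite_range χ)) _ fun z hz => ?_
  induction hz using Submodule.span_induction with
  | mem z hz =>
    obtain ⟨x, rfl⟩ := hz
    rw [smul_eq_mul, ← PD_tr hχ (ζ := fun g => (η g : ℂ)) fun g y => by simp only [h g y]]
    refine Submodule.sum_mem _ fun g _ => ?_
    rw [← zsmul_eq_mul]
    exact Submodule.smul_mem _ _ (hm _)
  | zero =>
    rw [smul_zero]
    exact Submodule.zero_mem _
  | add a b _ _ ha hb =>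
    rw [smul_add]
    exact Submodule.add_mem _ ha hb
  | smul r a _ ha =>
    rw [smul_comm]
    exact Submodule.smul_mem _ _ ha

/-- The indicator of a class. -/
def PD_i (A : Type) [CommRing A] (c : ConjClasses H) (g : H) : A :=
  if ConjClasses.mk g = c then 1 else 0

theorem PD_cl {A : Type} [CommRing A] (c : ConjClasses H) : Cl (PD_i A c) := fun g y => by
  have e : ConjClasses.mk (y * g * y⁻¹) = ConjClasses.mk g :=
    ConjClasses.mk_eq_mk_iff_isConj.2 (isConj_iff.2 ⟨y, rfl⟩).symm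
  simp only [PD_i, e]

theorem PD_dec {A : Type} [CommRing A] {η : H → A} (h : Cl η) (g : H) :
    η g = ∑ c : ConjClasses H, η (Quotient.out c) * PD_i A c g := by
  simp only [PD_i, mul_ite, mul_one, mul_zero, sum_ite_eq, mem_univ, if_true]
  have e : IsConj (Quotient.out (ConjClasses.mk g) : H) g :=
    ConjClasses.mk_eq_mk_iff_isConj.1 (Quotient.out_eq (ConjClasses.mk g))
  obtain ⟨y, hy⟩ := isConj_iff.1 e
  exact (congrArg η hy).symm.trans (h _ y)

theorem PD_om (χ : H → ℂ) {η : H → ℂ} (h : Cl η) :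
    om χ η = ∑ c : ConjClasses H, η (Quotient.out c) * om χ (PD_i ℂ c) := by
  simp only [om, ← mul_div_assoc, ← sum_div, mul_sum]
  rw [sum_comm]
  congr 1
  refine sum_congr rfl fun g _ => ?_
  rw [PD_dec h g, sum_mul]
  exact sum_congr rfl fun c _ => mul_assoc _ _ _

theorem PD_mem {χ : H → ℂ} (hχ : IsIrr χ) (c : ConjClasses H) : om χ (PD_i ℂ c) ∈ M.O := by
  have h := om_int hχ (PD_cl (A := ℤ) c)
  have e : (fun g => (PD_i ℤ c g : ℂ)) = PD_i ℂ c := funext fun g => by simp [PD_i]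
  rw [e] at h
  exact M.int _ h

theorem PD_coe {η : H → M.O} (h : Cl η) : Cl fun g => (η g : ℂ) := fun g y => by
  simp only [h g y]

theorem om_mem {χ : H → ℂ} (hχ : IsIrr χ) {η : H → M.O} (h : Cl η) :
    om χ (fun g => (η g : ℂ)) ∈ M.O := by
  rw [PD_om χ (PD_coe h)]
  exact M.O.sum_mem fun c _ => M.O.mul_mem (η _).2 (PD_mem hχ c)

theorem lam_red {χ : H → ℂ} (hχ : IsIrr χ) {η : H → M.O} (h : Cl η) :
    lam M χ (M.ψ ∘ η) = M.red (om χ fun g => (η g : ℂ)) := by
  have e : om χ (fun g => (η g : ℂ)) = ((∑ c : ConjClasses H,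
      η (Quotient.out c) * ⟨om χ (PD_i ℂ c), PD_mem hχ c⟩ : M.O) : ℂ) := by
    rw [PD_om χ (PD_coe h)]
    simp
  rw [e, PM.red_coe, map_sum]
  refine sum_congr rfl fun c _ => ?_
  rw [map_mul, ← PM.red_coe ⟨om χ (PD_i ℂ c), PD_mem hχ c⟩]
  rfl

theorem PD_w {χ : H → ℂ} (hχ : IsIrr χ) (c d : ConjClasses H) :
    lam M χ (cv (PD_i k c) (PD_i k d)) = M.red (om χ (PD_i ℂ c)) * M.red (om χ (PD_i ℂ d)) := by
  have e1 : cv (PD_i k c) (PD_i k d) = M.ψ ∘ cv (PD_i M.O c) (PD_i M.O d) := funext fun x => by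
    simp [cv, PD_i, apply_ite M.ψ]
  have e2 : (fun g => ((cv (PD_i M.O c) (PD_i M.O d) g : M.O) : ℂ)) =
      cv (PD_i ℂ c) (PD_i ℂ d) := funext fun x => by simp [cv, PD_i, apply_ite (Subtype.val : M.O → ℂ)]
  rw [e1, lam_red hχ ((PD_cl c).cv (PD_cl d)), e2, om_cv hχ (PD_cl c) (PD_cl d)]
  exact (PM.red_coe (⟨_, PD_mem hχ c⟩ * ⟨_, PD_mem hχ d⟩ : M.O)).trans ((map_mul _ _ _).trans
    (congrArg₂ (· * ·) (PM.red_coe _).symm (PM.red_coe _).symm))

theorem lam_cv {χ : H → ℂ} (hχ : IsIrr χ) {β γ : H → k} (h : Cl β) (h1 : Cl γ) :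
    lam M χ (cv β γ) = lam M χ β * lam M χ γ := by
  have e : ∀ x, cv β γ x = ∑ c : ConjClasses H, ∑ d : ConjClasses H,
      β (Quotient.out c) * γ (Quotient.out d) * cv (PD_i k c) (PD_i k d) x := fun x => by
    simp only [cv, mul_sum]
    rw [sum_congr rfl fun c _ => sum_comm, sum_comm]
    refine sum_congr rfl fun g _ => ?_
    rw [PD_dec h (x * g⁻¹), PD_dec h1 g, sum_mul_sum]
    exact sum_congr rfl fun c _ => sum_congr rfl fun d _ => by ring
  have e1 : lam M χ (cv β γ) = ∑ c : ConjClasses H, ∑ d : ConjClasses H,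
      β (Quotient.out c) * γ (Quotient.out d) * lam M χ (cv (PD_i k c) (PD_i k d)) := by
    simp only [lam, e, mul_sum, sum_mul]
    rw [sum_comm]
    refine sum_congr rfl fun c _ => ?_
    rw [sum_comm]
    exact sum_congr rfl fun d _ => sum_congr rfl fun _ _ => mul_assoc _ _ _
  rw [e1, lam, lam, sum_mul_sum]
  refine sum_congr rfl fun c _ => sum_congr rfl fun d _ => ?_
  rw [PD_w hχ]
  exact mul_mul_mul_comm _ _ _ _

theorem lam_one {χ : H → ℂ} (hχ : IsIrr χ) : lam M χ (fun g => if g = 1 then 1 else 0) = 1 := by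
  have e1 : (fun g : H => if g = 1 then (1 : k) else 0) =
      M.ψ ∘ fun g : H => if g = 1 then (1 : M.O) else 0 := funext fun g => by
    simp [apply_ite M.ψ]
  have e2 : om χ (fun g => ((if g = 1 then (1 : M.O) else 0 : M.O) : ℂ)) = ((1 : M.O) : ℂ) := by
    simp [om, apply_ite (Subtype.val : M.O → ℂ), PD_ne hχ]
  rw [e1, lam_red hχ fun g y => by simp only [mul_inv_eq_one, mul_eq_left], e2, PM.red_coe,
    map_one]

theorem om_inj {η : H → ℂ} (h : Cl η) (h0 : ∀ χ, IsIrr χ → om χ η = 0) : η = 0 := by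
  have h1 := class_zero (fun g => η g⁻¹) (fun g y => by
    rw [← h g⁻¹ y]
    congr 1
    group) fun χ hχ => by
      have e := (div_eq_zero_iff.1 (h0 χ hχ)).resolve_right (PD_ne hχ)
      rw [← e]
      exact Fintype.sum_equiv (Equiv.inv H) _ _ fun g => rfl
  funext g
  simpa using congrFun h1 g⁻¹

end Vale.Agent.P179
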