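import Vale.Agent.P179B.PC
import Vale.Agent.P179B.PD

/-! P179, blocks: the induced central character of a weight.

μ z = lam M φ (bar Q (coefficients of z)): additive, k-linear, multiplicative on the centre by resQ_cv, push_cv, lam_cv, ma_cv, ma_center, ma_self; unital by lam_one.
On a class sum: let ζ n = 1 if IsConj x n on the normalizer N (integer valued class function); omega Q φ x = om φ (push ζ), integral by om_int, and push of the part of ζ outside the centralizer of Q is
divisible by p (Q acts by conjugation without fixed points on each fibre), so it vanishes in k; lam_red.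
-/

open Finset
open scoped Classical

noncomputable section

namespace Vale.Agent.P179

set_option linter.unusedSectionVars false

variable {p : ℕ} [Fact p.Prime] {H : Type} [Group H] [Fintype H] {k : Type} [Field k] [CharP k p]
  {M : PM k}

theorem HD_fix {P α : Type} [Group P] [Fintype α] (hP : IsPGroup p P) (σ : P →* Equiv.Perm α)
    (f : α → k) (hf : ∀ g a, f (σ g a) = f a) (h0 : ∀ a, (∀ g, σ g a = a) → f a = 0) :
    ∑ a, f a = 0 := by
  let _ := MulAction.compHom α σ
  rw [← sum_fiberwise univ (Quotient.mk (MulAction.orbitRel P α)) f]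
  refine sum_eq_zero fun j _ => ?_
  obtain ⟨a, rfl⟩ := Quotient.exists_rep j
  have e : ∀ b, b ∈ (univ.filter fun b => Quotient.mk (MulAction.orbitRel P α) b =
      Quotient.mk (MulAction.orbitRel P α) a) ↔ b ∈ MulAction.orbit P a := fun b => by
    rw [mem_filter, Quotient.eq]
    exact and_iff_right (mem_univ b)
  rw [sum_congr rfl (g := fun _ => f a) fun b hb => by
    obtain ⟨g, rfl⟩ := (e b).1 hb
    exact hf g a, sum_const, nsmul_eq_mul]
  obtain ⟨n, hn⟩ := hP.card_orbit a
  rw [← Nat.subtype_card _ e]
  rcases n with _ | n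
  · rw [h0 a fun g => ?_, mul_zero]
    have := (Nat.card_eq_one_iff_unique.1 hn).1
    exact congrArg Subtype.val (this.elim (⟨_, MulAction.mem_orbit a g⟩ : MulAction.orbit P a)
      ⟨_, MulAction.mem_orbit_self a⟩)
  · have hn' : Nat.card {b // b ∈ MulAction.orbit P a} = p ^ (n + 1) := hn
    rw [hn', pow_succ, Nat.cast_mul, CharP.cast_eq_zero k p, mul_zero, zero_mul]

theorem HD_push {Q : Subgroup H} (hQ : IsPGroup p Q) {β : H → k} (h : Cl β) :
    push (QuotientGroup.mk' _) (fun n : Subgroup.normalizer (Q : Set H) => β n) = bar Q β := by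
  funext c
  have k := HD_fix (hQ.comap_subtype (K := Subgroup.normalizer (Q : Set H)))
    ((MulAut.toPerm _).comp (MulAut.conj.comp (Subgroup.subtype _)))
    (fun n => if QuotientGroup.mk' (Q.subgroupOf _) n = c then β n - resQ Q β n else 0)
    (fun g n => by
      have e : QuotientGroup.mk' (Q.subgroupOf _) g.1 = 1 := (QuotientGroup.eq_one_iff _).2 g.2
      change (if QuotientGroup.mk' _ (g.1 * n * g.1⁻¹) = c then
        β (g.1 * n * (g.1 : H)⁻¹) - resQ Q β (g.1 * n * g.1⁻¹) else 0) = _
      rw [map_mul, map_mul, map_inv, e, h, h.resQ Q, inv_one, mul_one, one_mul])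
    fun n hn => by
      have e : Cz (n : H) Q := fun q hq => by
        have e1 : q * n * q⁻¹ = n := congrArg Subtype.val (hn ⟨⟨q, Subgroup.le_normalizer hq⟩, hq⟩)
        exact (mul_inv_eq_iff_eq_mul.1 e1).symm
      rw [resQ, if_pos e, sub_self, ite_self]
  rw [← sum_filter, sum_sub_distrib, sub_eq_zero] at k
  exact (sum_congr (Finset.ext fun _ => by simp only [mem_filter]) fun _ _ => rfl).trans
    (k.trans (sum_congr (Finset.ext fun _ => by simp only [mem_filter]) fun _ _ => rfl))

theorem HD_class (x : H) : classSum k x = ma fun g => if IsConj x g then (1 : k) else 0 := by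
  rw [classSum, ma, sum_filter]
  refine sum_congr rfl fun g _ => ?_
  split_ifs
  · rfl
  · exact (MonoidAlgebra.single_zero g).symm

theorem HD_cl {A : Type} [CommRing A] (x : H) : Cl fun g => if IsConj x g then (1 : A) else 0 :=
  fun _ y => if_congr ⟨fun h => h.trans (isConj_iff.2 ⟨y, rfl⟩).symm,
    fun h => h.trans (isConj_iff.2 ⟨y, rfl⟩)⟩ rfl rfl

theorem classSum_center (x : H) : classSum k x ∈ Subalgebra.center k (MonoidAlgebra k H) := by
  rw [HD_class]
  exact ma_center.2 (HD_cl x)

theorem exists_mu {Q : Subgroup H} (hQ : IsPGroup p Q) {φ : NQ Q → ℂ} (hφ : IsIrr φ) :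
    ∃ μ : Subalgebra.center k (MonoidAlgebra k H) →ₐ[k] k,
      (∀ z, μ z = lam M φ (bar Q fun g => (z : MonoidAlgebra k H).coeff g)) ∧
      ∀ x : H, IsIntegral ℤ (omega Q φ x) ∧ μ ⟨classSum k x, classSum_center x⟩ = M.red (omega Q φ x) := by
  have cl : ∀ z : Subalgebra.center k (MonoidAlgebra k H),
      Cl fun g => (z : MonoidAlgebra k H).coeff g := fun z => ma_center.1 (by
    rw [ma_self]
    exact z.2)
  have cb : ∀ {β : H → k}, Cl β → Cl (bar Q β) := fun h =>
    Cl.push (QuotientGroup.mk'_surjective _) (h.resQ Q)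
  refine ⟨AlgHom.ofLinearMap
    { toFun z := lam M φ (bar Q fun g => (z : MonoidAlgebra k H).coeff g)
      map_add' z w := ?_
      map_smul' c z := ?_ } ?_ fun z w => ?_, fun z => rfl, fun x => ?_⟩
  · simp only [lam, bar, push, resQ, ← sum_add_distrib, ← add_mul]
    refine sum_congr rfl fun c _ => congrArg (· * _) (sum_congr rfl fun n _ => ?_)
    split_ifs <;> simp
  · simp only [lam, bar, push, resQ, RingHom.id_apply, smul_eq_mul, mul_sum, ← mul_assoc]
    refine sum_congr rfl fun c _ => congrArg (· * _) (sum_congr rfl fun n _ => ?_)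
    split_ifs <;> simp
  · refine Eq.trans (congrArg (lam M φ) (funext fun c => ?_)) (lam_one hφ)
    have e : ∀ n : Subgroup.normalizer (Q : Set H), resQ Q (fun g =>
        ((1 : Subalgebra.center k (MonoidAlgebra k H)) : MonoidAlgebra k H).coeff g) n =
          if n = 1 then 1 else 0 := fun n => by
      by_cases h : n = 1
      · simp [resQ, Cz, h, MonoidAlgebra.one_def]
      · simp [resQ, h, MonoidAlgebra.one_def]
    simp only [bar, push, e, sum_ite_eq', mem_filter, mem_univ, true_and, map_one, eq_comm]
    split_ifs <;> rfl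
  · have e : (fun g => ((z * w : Subalgebra.center k (MonoidAlgebra k H)) :
        MonoidAlgebra k H).coeff g) = cv (fun g => (z : MonoidAlgebra k H).coeff g)
          fun g => (w : MonoidAlgebra k H).coeff g := funext fun g => by
      rw [← ma_coeff (cv _ _), ma_cv, ma_self, ma_self]
      rfl
    change lam M φ (bar Q _) = lam M φ (bar Q _) * lam M φ (bar Q _)
    rw [e, ← lam_cv hφ (cb (cl z)) (cb (cl w)), bar, resQ_cv hQ (cl z) (cl w), push_cv]
    rfl
  · let η : NQ Q → ℤ := push (QuotientGroup.mk' _)
      fun n : Subgroup.normalizer (Q : Set H) => if IsConj x (n : H) then 1 else 0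
    have hη : Cl η := Cl.push (QuotientGroup.mk'_surjective _) fun g y => HD_cl x g.1 y.1
    have e : omega Q φ x = om φ fun c => (η c : ℂ) := by
      rw [omega, om, ← sum_fiberwise univ (QuotientGroup.mk' (Q.subgroupOf _))]
      refine congrArg (· / _) (sum_congr rfl fun c _ => ?_)
      simp only [η, push, Int.cast_sum, sum_mul]
      refine sum_congr (Finset.ext fun _ => by simp only [mem_filter]) fun n hn => ?_
      simp only [mem_filter] at hn
      rw [← hn.2]
      split_ifs <;> simp
    rw [e]
    refine ⟨om_int hφ hη, ?_⟩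
    have r := lam_red (M := M) hφ (η := fun c => (η c : M.O)) fun g y => congrArg _ (hη g y)
    simp only [SubringClass.coe_intCast] at r
    rw [← r]
    change lam M φ (bar Q fun g => (classSum k x).coeff g) = _
    simp only [HD_class, ma_coeff]
    rw [← HD_push hQ (HD_cl x)]
    refine congrArg _ (funext fun c => ?_)
    simp [η, push]

end Vale.Agent.P179
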