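import Vale.Agent.P179B.HD
import Vale.Agent.P179B.GD

/-! P179, blocks: weights in a block.

hom_unique: Z = the centre is a finite dimensional commutative algebra; y = (z - μ z) * B has y ^ n = y ^ (2 n) * v for some n, v (Artinian), f = y ^ n * v * B is an idempotent with f * B = f, μ f = 0, so f ≠ B and
primitivity (B = f + (B - f)) gives f = 0, y ^ n = 0, μ1 y = 0. in_iff: for a simple S the centre acts by scalars (Schur), an algebra hom μ1; the class sums span the centre. μ B is 0 or 1.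
-/

open Finset
open scoped Classical

noncomputable section

namespace Vale.Agent.P179

set_option linter.unusedSectionVars false

variable {p : ℕ} [Fact p.Prime] {H : Type} [Group H] [Fintype H] {k : Type} [Field k] [IsAlgClosed k]
  [CharP k p] {M : PM k}

theorem HE_uniq {Z : Type} [CommRing Z] [Algebra k Z] [IsArtinianRing Z] {B : Z} (h1 : B * B = B)
    (h2 : ∀ e f : Z, e * e = e → f * f = f → e * f = 0 → B = e + f → e = 0 ∨ f = 0)
    (μ μ1 : Z →ₐ[k] k) (h : μ B = 1) (h' : μ1 B = 1) : μ = μ1 := by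
  ext z
  obtain ⟨y, hy⟩ : ∃ y, y = (z - algebraMap k Z (μ z)) * B := ⟨_, rfl⟩
  have y0 : μ y = 0 := by simp [hy]
  have y1 : μ1 y = μ1 z - μ z := by simp [hy, h']
  have yB : y * B = y := by rw [hy, mul_assoc, h1]
  obtain ⟨n, v, hv⟩ := IsArtinian.exists_pow_succ_smul_dvd y (1 : Z)
  rw [smul_eq_mul, smul_eq_mul, mul_one, Nat.succ_eq_add_one] at hv
  have k1 : ∀ m : ℕ, y ^ n * (y * v) ^ m = y ^ n := fun m => by
    induction m with
    | zero => simp
    | succ m ih => linear_combination (y * v) * ih + hv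
  obtain ⟨e, he⟩ : ∃ e, e = (y * v) ^ (n + 1) := ⟨_, rfl⟩
  have k2 : y ^ n * e = y ^ n := he ▸ k1 (n + 1)
  have k3 : e = y ^ n * (y * v ^ (n + 1)) := by
    rw [he]
    ring
  have e1 : e * e = e := by
    conv_lhs => rw [mul_comm]; rhs; rw [k3]
    conv_rhs => rw [k3]
    linear_combination (y * v ^ (n + 1)) * k2
  have e2 : e * B = e := by
    rw [k3]
    linear_combination (y ^ n * v ^ (n + 1)) * yB
  have e3 : μ e = 0 := by simp [he, y0]
  rcases h2 e (B - e) e1 (by linear_combination h1 - 2 * e2 + e1) (by linear_combination e2 - e1)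
    (by ring) with h3 | h3
  · rw [h3, mul_zero] at k2
    have h4 : μ1 y ^ n = 0 := by rw [← map_pow, ← k2, map_zero]
    have h5 := pow_eq_zero_iff' |>.1 h4 |>.1
    rw [y1] at h5
    exact (sub_eq_zero.1 h5).symm
  · rw [sub_eq_zero.1 h3, e3] at h
    exact absurd h zero_ne_one

theorem HE_inj (S : Simple k H) :
    Function.Injective (algebraMap k (Module.End k (Fin S.n → k))) := by
  have := S.irr
  have : Nontrivial (Fin S.n → k) :=
    IsSimpleModule.nontrivial (MonoidAlgebra k H) S.ρ.asModule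
  exact RingHom.injective _

theorem HE_schur (S : Simple k H) : ∃ μ : Subalgebra.center k (MonoidAlgebra k H) →ₐ[k] k,
    ∀ z : Subalgebra.center k (MonoidAlgebra k H),
      S.ρ.asAlgebraHom (z : MonoidAlgebra k H) = algebraMap k _ (μ z) := by
  have := S.irr
  have h : ∀ z : Subalgebra.center k (MonoidAlgebra k H), ∃ c : k,
      S.ρ.asAlgebraHom (z : MonoidAlgebra k H) = algebraMap k _ c := fun z => by
    obtain ⟨c, hc⟩ := (Representation.IsIrreducible.algebraMap_intertwiningMap_bijective_of_isAlgClosed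
      (ρ := S.ρ)).2 ⟨S.ρ.asAlgebraHom (z : MonoidAlgebra k H), fun g => by
        rw [← Representation.asAlgebraHom_of, ← Module.End.mul_eq_comp, ← Module.End.mul_eq_comp,
          ← map_mul, ← map_mul, Subalgebra.mem_center_iff.1 z.2]⟩
    refine ⟨c, LinearMap.ext fun v => ?_⟩
    exact (congrArg (fun f : Representation.IntertwiningMap S.ρ S.ρ => f v) hc).symm
  choose c hc using h
  have inj := HE_inj S
  refine ⟨⟨⟨⟨⟨c, inj ?_⟩, fun x y => inj ?_⟩, inj ?_, fun x y => inj ?_⟩, fun r => inj ?_⟩, hc⟩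
  · rw [← hc]
    simp
  · rw [map_mul, ← hc, ← hc, ← hc]
    simp
  · change algebraMap k _ (c 0) = _
    rw [← hc]
    simp
  · change algebraMap k _ (c (x + y)) = algebraMap k _ (c x + c y)
    rw [map_add, ← hc, ← hc, ← hc]
    simp
  · change algebraMap k _ (c (algebraMap k _ r)) = _
    rw [← hc]
    exact S.ρ.asAlgebraHom.commutes r

theorem HE_span (μ μ1 : Subalgebra.center k (MonoidAlgebra k H) →ₐ[k] k)
    (h : ∀ x : H, μ ⟨classSum k x, classSum_center x⟩ = μ1 ⟨classSum k x, classSum_center x⟩) :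
    μ = μ1 := by
  ext z
  have hz : Cl fun g => (z : MonoidAlgebra k H).coeff g := ma_center.1 (by rw [ma_self]; exact z.2)
  have e : z = ∑ c : ConjClasses H, (z : MonoidAlgebra k H).coeff (Quotient.out c) •
      (⟨classSum k (Quotient.out c), classSum_center _⟩ :
        Subalgebra.center k (MonoidAlgebra k H)) := by
    refine Subtype.ext ?_
    rw [AddSubmonoidClass.coe_finsetSum]
    simp only [SetLike.mk_smul_mk, classSum, Finset.smul_sum, MonoidAlgebra.of_apply,
      MonoidAlgebra.smul_single, smul_eq_mul, mul_one]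
    conv_lhs => rw [← ma_self (z : MonoidAlgebra k H), ma]
    rw [← Finset.sum_fiberwise (s := univ) (g := fun g : H => ConjClasses.mk g)]
    refine Finset.sum_congr rfl fun c _ => ?_
    have hc : ConjClasses.mk (Quotient.out c : H) = c := Quotient.out_eq c
    refine Finset.sum_congr ?_ fun y hy => ?_
    · ext y
      simp only [Finset.mem_filter, Finset.mem_univ, true_and]
      rw [← ConjClasses.mk_eq_mk_iff_isConj, hc, eq_comm]
    · obtain ⟨u, hu⟩ := isConj_iff.1 (Finset.mem_filter.1 hy).2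
      rw [← hu]
      exact congrArg _ (hz _ u)
  rw [e, map_sum, map_sum]
  exact Finset.sum_congr rfl fun c _ => by rw [map_smul, map_smul, h]

theorem hom_unique {B : MonoidAlgebra k H} (hB : IsBlock B)
    (μ μ1 : Subalgebra.center k (MonoidAlgebra k H) →ₐ[k] k) (h : μ ⟨B, hB.1⟩ = 1)
    (h1 : μ1 ⟨B, hB.1⟩ = 1) : μ = μ1 := by
  have : IsArtinianRing (Subalgebra.center k (MonoidAlgebra k H)) := IsArtinianRing.of_finite k _
  refine HE_uniq (Subtype.ext hB.2.1) (fun e f e1 f1 e2 e3 => ?_) μ μ1 h h1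
  rcases hB.2.2.2 e e.2 f f.2 (congrArg Subtype.val e1) (congrArg Subtype.val f1)
    (congrArg Subtype.val e2) (congrArg Subtype.val e3) with h3 | h3
  · exact Or.inl (Subtype.ext h3)
  · exact Or.inr (Subtype.ext h3)

theorem in_iff {ψ0 : integralClosure ℤ ℂ →+* k} (hM : ∀ z : integralClosure ℤ ℂ, M.red (z : ℂ) = ψ0 z)
    {B : MonoidAlgebra k H} (hB : IsBlock B) (w : Weight p H) :
    lam M w.φ (bar w.Q fun g => B.coeff g) = if w.In ψ0 B then 1 else 0 := by
  obtain ⟨μ, hμ, hx⟩ := exists_mu (M := M) w.pgroup w.irr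
  rw [← hμ ⟨B, hB.1⟩]
  have one : ∀ (S : Simple k H) (μ1 : Subalgebra.center k (MonoidAlgebra k H) →ₐ[k] k),
      (∀ z : Subalgebra.center k (MonoidAlgebra k H),
        S.ρ.asAlgebraHom (z : MonoidAlgebra k H) = algebraMap k _ (μ1 z)) → S.In B →
      μ1 ⟨B, hB.1⟩ = 1 := fun S μ1 h1 h2 =>
    HE_inj S (by rw [← h1, map_one]; exact h2)
  split_ifs with h
  · obtain ⟨S, hS, h2⟩ := h
    obtain ⟨μ1, h1⟩ := HE_schur S
    rw [HE_span μ μ1 fun x => ?_, one S μ1 h1 hS]
    obtain ⟨z, z1, z2⟩ := h2 x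
    rw [(hx x).2, ← z1, hM]
    refine HE_inj S ?_
    rw [← h1, Algebra.algebraMap_eq_smul_one]
    exact z2.symm
  · by_contra h0
    have h3 : μ ⟨B, hB.1⟩ * μ ⟨B, hB.1⟩ = μ ⟨B, hB.1⟩ * 1 := by
      rw [← map_mul, mul_one]
      exact congrArg μ (Subtype.ext hB.2.1)
    obtain ⟨S, hS⟩ := exists_in hB
    obtain ⟨μ1, h1⟩ := HE_schur S
    have h4 := hom_unique hB μ μ1 (mul_left_cancel₀ h0 h3) (one S μ1 h1 hS)
    refine h ⟨S, hS, fun x => ⟨⟨omega w.Q w.φ x, (hx x).1⟩, rfl, ?_⟩⟩
    rw [← hM, ← Algebra.algebraMap_eq_smul_one]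
    refine (h1 ⟨classSum k x, classSum_center x⟩).trans ?_
    rw [← h4]
    exact congrArg _ (hx x).2

end Vale.Agent.P179
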