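import Vale.Agent.P179B.Defs

/-! P179, blocks: counting weights in a block.

As weight_count in P179/KC.lean (reuse its lemmas) restricted to the weights in B: Weight.In is invariant under Weight.Conj (omega is invariant: reindex the sum by conjugation).
-/

open Finset
open scoped Classical

noncomputable section

namespace Vale.Agent.P179

set_option linter.unusedSectionVars false

variable {p : ℕ} [Fact p.Prime] {H : Type} [Group H] [Fintype H] {k : Type} [Field k]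

theorem KE_omega {g : H} {w w1 : Weight p H} (h : KC_R g w w1) (x : H) :
    omega w1.Q w1.φ x = omega w.Q w.φ x := by
  unfold omega
  congr 1
  · rw [← (KC_ne h.1).toEquiv.sum_comp]
    refine Finset.sum_congr rfl fun n _ => ?_
    have e : IsConj x (((KC_ne h.1).toEquiv n : Subgroup.normalizer (w1.Q : Set H)) : H) ↔
        IsConj x (n : H) := by
      have h1 : IsConj (n : H) (g * n * g⁻¹) := isConj_iff.2 ⟨g, rfl⟩
      exact ⟨fun a => a.trans h1.symm, fun a => a.trans h1⟩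
    by_cases hx : IsConj x (n : H)
    · rw [if_pos hx, if_pos (e.2 hx)]
      exact h.2 n _ rfl
    · rw [if_neg hx, if_neg fun a => hx (e.1 a)]
  · exact h.2 1 1 (by simp)

theorem in_conj {ψ0 : integralClosure ℤ ℂ →+* k} {B : MonoidAlgebra k H} {w w1 : Weight p H}
    (h : w.Conj w1) : w.In ψ0 B ↔ w1.In ψ0 B := by
  obtain ⟨g, hg⟩ := h
  simp only [Weight.In, KE_omega (g := g) hg]

theorem weight_count_in (ψ0 : integralClosure ℤ ℂ →+* k) (B : MonoidAlgebra k H) :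
    Nat.card H * numWeightsIn p ψ0 B = ∑ Q : {Q : Subgroup H // IsPGroup p Q},
      Nat.card (Subgroup.normalizer (Q.1 : Set H)) * Nat.card {φ : {φ : NQ Q.1 → ℂ //
        IsIrr φ ∧ DefectZero p φ} // Weight.In ψ0 ⟨Q.1, Q.2, φ.1, φ.2.1, φ.2.2⟩ B} := by
  let e : {w : Weight p H // w.In ψ0 B} ≃ Σ Q : {Q : Subgroup H // IsPGroup p Q},
      {φ : {φ : NQ Q.1 → ℂ // IsIrr φ ∧ DefectZero p φ} //
        Weight.In ψ0 ⟨Q.1, Q.2, φ.1, φ.2.1, φ.2.2⟩ B} :=
    ⟨fun w => ⟨⟨w.1.Q, w.1.pgroup⟩, ⟨w.1.φ, w.1.irr, w.1.defect⟩, w.2⟩,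
      fun x => ⟨⟨x.1.1, x.1.2, x.2.1.1, x.2.1.2.1, x.2.1.2.2⟩, x.2.2⟩, fun _ => rfl, fun _ => rfl⟩
  have f : ∀ Q : {Q : Subgroup H // IsPGroup p Q},
      Finite {φ : {φ : NQ Q.1 → ℂ // IsIrr φ ∧ DefectZero p φ} //
        Weight.In ψ0 ⟨Q.1, Q.2, φ.1, φ.2.1, φ.2.2⟩ B} := fun Q => by
    let _ : Fintype (NQ Q.1) := Fintype.ofFinite _
    have : Finite {χ : NQ Q.1 → ℂ // IsIrr χ ∧ DefectZero p χ} :=
      (irr_finite.subset fun χ hχ => hχ.1 : {χ : NQ Q.1 → ℂ | IsIrr χ ∧ DefectZero p χ}.Finite)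
    infer_instance
  let _ := fun Q => @Fintype.ofFinite _ (f Q)
  let _ : Fintype {w : Weight p H // w.In ψ0 B} := Fintype.ofEquiv _ e.symm
  have h := KC_abs (fun (g : H) (w w' : {w : Weight p H // w.In ψ0 B}) => KC_R g w.1 w'.1)
    (fun g w => by
      obtain ⟨w', hw⟩ := KC_ex g w.1
      exact ⟨⟨w', (in_conj ⟨g, hw⟩).1 w.2⟩, hw⟩)
    (fun g w w1 w2 h1 h2 => Subtype.ext (KC_un g _ _ _ h1 h2)) (fun w => KC_one w.1)
    (fun g h w w1 w2 => KC_mul g h w.1 w1.1 w2.1)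
  refine h.trans ?_
  rw [← e.symm.sum_comp, Fintype.sum_sigma]
  refine Finset.sum_congr rfl fun Q _ => ?_
  rw [Finset.sum_congr rfl (g := fun _ => Nat.card (Subgroup.normalizer (Q.1 : Set H)))
    fun χ _ => Nat.card_congr (Equiv.subtypeEquivRight fun g => KC_stab g _)]
  rw [Finset.sum_const, Finset.card_univ, smul_eq_mul, mul_comm, ← Nat.card_eq_fintype_card]

end Vale.Agent.P179
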