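import Vale.Agent.P179B.YA

/-! P179, blocks: the pieces.

The argument of P179/XD and P179/XE with E1, My, Dy, Ny, Oy.
-/

open Finset
open scoped Classical

noncomputable section

namespace Vale.Agent.P179

set_option linter.unusedSectionVars false

variable {p : ℕ} [Fact p.Prime] {H : Type} [Group H] [Fintype H] {C : CSub H} {x : H} {Γ : H → Prop}

theorem YD_val (y : C.G) (ξ : T4 H) : ∀ e ∈ E1 C ξ, C.val y * e = e * C.val y :=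
  fun _ he => C.comm _ (val_mem y) _ (mem_E1.1 he).1

theorem YD_comm {ξ : T4 H} {g : H} (hg : g ∈ My C ξ) :
    g * ξ.1.2.1 = ξ.1.2.1 * g ∧ ∀ e ∈ E1 C ξ, g * e = e * g := by
  have h : My C ξ ≤ Subgroup.centralizer (insert ξ.1.2.1 (E1 C ξ : Set H)) := by
    refine sup_le (Subgroup.zpowers_le.2 ?_) fun e he => ?_
    · rw [Subgroup.mem_centralizer_iff]
      rintro z (rfl | hz)
      · rfl
      · exact (mem_E1.1 hz).2.1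
    · rw [Subgroup.mem_centralizer_iff]
      rintro z (rfl | hz)
      · exact (mem_E1.1 he).2.1.symm
      · exact C.comm _ (mem_E1.1 hz).1 _ (mem_E1.1 he).1
  have h1 := Subgroup.mem_centralizer_iff.1 (h hg)
  exact ⟨(h1 _ (Or.inl rfl)).symm, fun e he => (h1 e (Or.inr he)).symm⟩

theorem YD_My (y : C.G) (ξ : T4 H) : My C (y • ξ) = cs (C.val y) (My C ξ) := by
  unfold My
  rw [cs_sup, E1_smul, XD_cs (YD_val y ξ)]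
  have h : cs (C.val y) (Subgroup.zpowers ξ.1.2.1) = Subgroup.zpowers (y • ξ).1.2.1 :=
    MonoidHom.map_zpowers _ _
  rw [h]

theorem YD_tw (y : C.G) (ξ : T4 H) (g : H) :
    ((((y • ξ).1.1, (y • ξ).1.2.1, (y • ξ).1.2.2 * (C.val y * g * (C.val y)⁻¹)), (y • ξ).2) : T4 H) =
      y • (((ξ.1.1, ξ.1.2.1, ξ.1.2.2 * g), ξ.2) : T4 H) := by
  refine Prod.ext (Prod.ext rfl (Prod.ext rfl ?_)) rfl
  change C.val y * ξ.1.2.2 * (C.val y)⁻¹ * (C.val y * g * (C.val y)⁻¹) =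
    C.val y * (ξ.1.2.2 * g) * (C.val y)⁻¹
  group

theorem YD_pow (n : ℕ) (y : C.G) (ξ : T4 H) :
    (t1 ^ n : Equiv.Perm (T4 H)) (y • ξ) = y • (t1 ^ n : Equiv.Perm (T4 H)) ξ := by
  induction n with
  | zero => rfl
  | succ n ih => rw [pow_succ', Equiv.Perm.mul_apply, Equiv.Perm.mul_apply, ih, eqv_t1]

theorem oy_refl (ξ : T4 H) : Oy C ξ ξ :=
  ⟨1, 1, one_mem _, by rw [one_smul, mul_one]⟩

theorem oy_iff {ξ η : T4 H} (h : Oy C ξ η) (ζ : T4 H) : Oy C η ζ ↔ Oy C ξ ζ := by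
  obtain ⟨y, g, hg, rfl⟩ := h
  have hM : My C (y • (((ξ.1.1, ξ.1.2.1, ξ.1.2.2 * g), ξ.2) : T4 H)) = cs (C.val y) (My C ξ) := YD_My y _
  constructor
  · rintro ⟨z, g', hg', rfl⟩
    rw [hM, mem_cs] at hg'
    refine ⟨z * y, g * ((C.val y)⁻¹ * g' * C.val y), mul_mem hg hg', ?_⟩
    have e : g' = C.val y * ((C.val y)⁻¹ * g' * C.val y) * (C.val y)⁻¹ := by group
    rw [mul_smul, ← mul_assoc ξ.1.2.2]
    refine congrArg (z • ·) ?_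
    conv_lhs => rw [e]
    exact YD_tw y _ _
  · rintro ⟨z, g', hg', rfl⟩
    refine ⟨z * y⁻¹, C.val y * (g⁻¹ * g') * (C.val y)⁻¹, ?_, ?_⟩
    · rw [hM, mem_cs]
      have e : (C.val y)⁻¹ * (C.val y * (g⁻¹ * g') * (C.val y)⁻¹) * C.val y = g⁻¹ * g' := by group
      rw [e]
      exact mul_mem (inv_mem hg) hg'
    · rw [YD_tw, mul_smul, inv_smul_smul]
      refine congrArg (z • ·) (Prod.ext (Prod.ext rfl (Prod.ext rfl ?_)) rfl)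
      change ξ.1.2.2 * g' = ξ.1.2.2 * g * (g⁻¹ * g')
      group

theorem oy_wy (hΓ : ∀ g y, Γ (y * g * y⁻¹) ↔ Γ g) (hx : x ∈ C.P) {ξ η : T4 H} (h0 : wy p C x Γ ξ ≠ 0) (h : Oy C ξ η) :
    wy p C x Γ η = wy p C x Γ ξ := by
  obtain ⟨y, g, hg, rfl⟩ := h
  obtain ⟨hI, hF⟩ := wy_ne.1 h0
  obtain ⟨c1, c2⟩ := YD_comm hg
  have hle : My C ξ ≤ ⨅ Q ∈ ξ.1.1, Subgroup.normalizer (Q : Set H) :=
    sup_le (Subgroup.zpowers_le.2 (fxC_iff.1 hI.2.1)) (inf_le_left.trans inf_le_right)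
  have hI' : InY p x Γ (((ξ.1.1, ξ.1.2.1, ξ.1.2.2 * g), ξ.2) : T4 H) := by
    refine ⟨hI.1, hI.2.1, fxC_iff.2 (mul_mem (fxC_iff.1 hI.2.2.1) (hle hg)), hI.2.2.2.1, hI.2.2.2.2.1, ?_⟩
    rw [← hI.2.2.2.2.2]
    refine congrArg (· * ξ.2) ?_
    change ξ.1.2.1 * (ξ.1.2.2 * g) * ξ.1.2.1⁻¹ * (ξ.1.2.2 * g)⁻¹ = ξ.1.2.1 * ξ.1.2.2 * ξ.1.2.1⁻¹ * ξ.1.2.2⁻¹
    have e : g = ξ.1.2.1⁻¹ * g * ξ.1.2.1 := by rw [mul_assoc, c1]; group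
    conv_lhs => enter [1, 1, 2, 2]; rw [e]
    group
  have hF' : Free C.G (((ξ.1.1, ξ.1.2.1, ξ.1.2.2 * g), ξ.2) : T4 H) := by
    refine (free4_iff (p := p) hI'.1).2 fun e he h1 => (free4_iff (p := p) hI.1).1 hF e he ?_
    have h2 : e * (ξ.1.2.2 * g) = ξ.1.2.2 * g * e := h1
    rw [mul_assoc ξ.1.2.2, c2 e he, ← mul_assoc, ← mul_assoc] at h2
    exact mul_right_cancel h2
  rw [(wt_wy hΓ hx).2]
  unfold wy
  rw [if_pos ⟨hI', hF'⟩, if_pos ⟨hI, hF⟩]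

theorem oy_ny {ξ η : T4 H} (h : Oy C ξ η) : Ny C η ↔ Ny C ξ := by
  obtain ⟨y, g, hg, rfl⟩ := h
  have hE : E1 C (y • (((ξ.1.1, ξ.1.2.1, ξ.1.2.2 * g), ξ.2) : T4 H)) = E1 C ξ := E1_smul y _
  have h1 : C.val y ∈ Subgroup.normalizer (E1 C ξ : Set H) := fx_iff.2 (XD_cs (YD_val y ξ))
  have h2 : g ∈ Subgroup.normalizer (E1 C ξ : Set H) := fx_iff.2 (XD_cs (YD_comm hg).2)
  unfold Ny
  rw [hE]
  refine and_congr_right fun _ => ?_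
  change C.val y * (ξ.1.2.2 * g) * (C.val y)⁻¹ ∈ Subgroup.normalizer (E1 C ξ : Set H) ↔
    ξ.1.2.2 ∈ Subgroup.normalizer (E1 C ξ : Set H)
  rw [mul_mem_cancel_right (inv_mem h1), mul_mem_cancel_left h1, mul_mem_cancel_right h2]

theorem oy_smul {ξ η : T4 H} (h : Oy C ξ η) (y : C.G) : Oy C ξ (y • η) := by
  obtain ⟨z, g, hg, rfl⟩ := h
  exact ⟨y * z, g, hg, (mul_smul _ _ _).symm⟩

theorem oy_t1 {ξ η : T4 H} (h : Oy C ξ η) : Oy C ξ (t1 η) := by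
  obtain ⟨z, g, hg, rfl⟩ := h
  refine ⟨z, g * ξ.1.2.1, mul_mem hg (Subgroup.mem_sup_left (Subgroup.mem_zpowers _)), ?_⟩
  rw [eqv_t1, ← mul_assoc]
  rfl

theorem oy_order {ξ η : T4 H} (h : Oy C ξ η) : orderOf η.1.2.1 = orderOf ξ.1.2.1 := by
  obtain ⟨z, g, -, rfl⟩ := h
  exact (MulAut.conj (C.val z)).orderOf_eq ξ.1.2.1

theorem oy_hom {ξ η : T4 H} (hσ : IsCh p ⊥ ξ.1.1) (h : Oy C ξ η) (n : ℕ) (y : C.G)
    (e : (t1 ^ n : Equiv.Perm (T4 H)) ξ = y • ξ) : (t1 ^ n : Equiv.Perm (T4 H)) η = y • η := by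
  obtain ⟨z, g, hg, rfl⟩ := h
  rw [t1_pow] at e
  have e1 : ξ.1.1 = cc (C.val y) ξ.1.1 := congrArg (fun u : T4 H => u.1.1) e
  have e2 : ξ.1.2.1 = C.val y * ξ.1.2.1 * (C.val y)⁻¹ := congrArg (fun u : T4 H => u.1.2.1) e
  have e3 : ξ.1.2.2 * ξ.1.2.1 ^ n = C.val y * ξ.1.2.2 * (C.val y)⁻¹ := congrArg (fun u : T4 H => u.1.2.2) e
  have e4 : ξ.2 = C.val y * ξ.2 * (C.val y)⁻¹ := congrArg (fun u : T4 H => u.2) e
  have hy : C.val y ∈ E1 C ξ :=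
    mem_E1.2 ⟨val_mem y, (eq_mul_inv_iff_mul_eq.1 e2).symm, (cc_eq_iff hσ).1 e1.symm,
      (eq_mul_inv_iff_mul_eq.1 e4).symm⟩
  obtain ⟨c1, c2⟩ := YD_comm hg
  have c3 : g * ξ.1.2.1 ^ n = ξ.1.2.1 ^ n * g := (Commute.pow_right c1 n).eq
  have c4 : g * (C.val y)⁻¹ = (C.val y)⁻¹ * g := (Commute.inv_right (c2 _ hy)).eq
  rw [YD_pow, ← mul_smul, mul_comm y z, mul_smul, t1_pow]
  refine congrArg (z • ·) (Prod.ext (Prod.ext e1 (Prod.ext e2 ?_)) e4)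
  change ξ.1.2.2 * g * ξ.1.2.1 ^ n = C.val y * (ξ.1.2.2 * g) * (C.val y)⁻¹
  rw [mul_assoc, c3, ← mul_assoc, e3, mul_assoc, ← c4]
  group

theorem YD_eq {ξ : T4 H} (hσ : IsCh p ⊥ ξ.1.1) (e : C.G) (g g' : H) :
    e • (((ξ.1.1, ξ.1.2.1, ξ.1.2.2 * g'), ξ.2) : T4 H) = ((ξ.1.1, ξ.1.2.1, ξ.1.2.2 * g), ξ.2) ↔
      C.val e ∈ E1 C ξ ∧ g' = ξ.1.2.2⁻¹ * (C.val e)⁻¹ * ξ.1.2.2 * g * C.val e := by
  change ((cj (C.val e) _, C.val e * ξ.2 * (C.val e)⁻¹) : T4 H) = _ ↔ _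
  simp only [cj, Prod.mk.injEq, cc_eq_iff hσ, mem_E1, val_mem, true_and, mul_inv_eq_iff_eq_mul]
  constructor
  · rintro ⟨⟨h1, h2, h3⟩, h4⟩
    refine ⟨⟨h2, h1, h4⟩, ?_⟩
    rw [mul_assoc, mul_assoc, mul_assoc, ← mul_assoc ξ.1.2.2 g, ← h3]
    group
  · rintro ⟨⟨h1, h2, h4⟩, rfl⟩
    exact ⟨⟨h2, h1, by group⟩, h4⟩

theorem YD_fib {ξ : T4 H} (hσ : IsCh p ⊥ ξ.1.1) (y : C.G) (g : My C ξ) :
    Nat.card {z : C.G × My C ξ // z.1 • (((ξ.1.1, ξ.1.2.1, ξ.1.2.2 * z.2), ξ.2) : T4 H) =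
      y • (((ξ.1.1, ξ.1.2.1, ξ.1.2.2 * g), ξ.2) : T4 H)} = Nat.card (Dy C ξ) := by
  have hM : E1 C ξ ≤ My C ξ := le_sup_right
  have k1 : ∀ z : C.G × My C ξ, z.1 • (((ξ.1.1, ξ.1.2.1, ξ.1.2.2 * z.2), ξ.2) : T4 H) =
      y • (((ξ.1.1, ξ.1.2.1, ξ.1.2.2 * g), ξ.2) : T4 H) ↔ C.val (y⁻¹ * z.1) ∈ E1 C ξ ∧
        (z.2 : H) = ξ.1.2.2⁻¹ * (C.val (y⁻¹ * z.1))⁻¹ * ξ.1.2.2 * g * C.val (y⁻¹ * z.1) := fun z => by
    rw [← YD_eq hσ, mul_smul, inv_smul_eq_iff]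
  refine Nat.card_congr (Equiv.ofBijective (fun z => ⟨C.val (y⁻¹ * z.1.1), ((k1 _).1 z.2).1, ?_⟩)
    ⟨fun z z' h => ?_, fun d => ?_⟩)
  · obtain ⟨h1, h2⟩ := (k1 _).1 z.2
    have h3 := (My C ξ).inv_mem ((My C ξ).mul_mem ((My C ξ).mul_mem z.1.2.2
      ((My C ξ).inv_mem (hM h1))) ((My C ξ).inv_mem g.2))
    rw [h2] at h3
    refine mem_cs.2 ?_
    simpa [mul_assoc] using h3
  · have h1 : C.val (y⁻¹ * z.1.1) = C.val (y⁻¹ * z'.1.1) :=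
      congrArg (fun d : Dy C ξ => (d : H)) h
    refine Subtype.ext (Prod.ext (mul_left_cancel (val_inj h1)) (Subtype.ext ?_))
    rw [((k1 _).1 z.2).2, ((k1 _).1 z'.2).2, h1]
  · obtain ⟨d, h1, h2⟩ := d
    let e : C.G := (⟨d, (mem_E1.1 h1).1⟩ : C.P)
    have h3 : C.val (y⁻¹ * (y * e)) = d := by
      rw [inv_mul_cancel_left]
      rfl
    have h4 : ξ.1.2.2⁻¹ * d⁻¹ * ξ.1.2.2 * g * d ∈ My C ξ := by
      refine (My C ξ).mul_mem ((My C ξ).mul_mem ?_ g.2) (hM h1)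
      simpa [mul_assoc] using (My C ξ).inv_mem (mem_cs.1 h2)
    exact ⟨⟨(y * e, ⟨_, h4⟩), (k1 _).2 ⟨h3.symm ▸ h1, by rw [h3]⟩⟩, Subtype.ext h3⟩

theorem oy_card {ξ : T4 H} (hσ : IsCh p ⊥ ξ.1.1) : ∃ k : ℕ, k * Nat.card (Dy C ξ) = Nat.card (My C ξ) ∧
    #{η : T4 H | Oy C ξ η} = Nat.card C.G * k := by
  have hD : Dy C ξ ≤ My C ξ := inf_le_left.trans le_sup_right
  obtain ⟨k, hk⟩ := Subgroup.card_dvd_of_le hD
  refine ⟨k, by rw [hk, mul_comm], ?_⟩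
  have := Fintype.ofFinite C.G
  have h1 := card_eq_sum_card_fiberwise (s := (univ : Finset (C.G × My C ξ)))
    (t := ({η : T4 H | Oy C ξ η} : Finset (T4 H)))
    (f := fun z => z.1 • (((ξ.1.1, ξ.1.2.1, ξ.1.2.2 * z.2), ξ.2) : T4 H))
    fun z _ => mem_coe.2 (mem_filter.2 ⟨mem_univ _, z.1, z.2, z.2.2, rfl⟩)
  rw [sum_congr rfl (g := fun _ => Nat.card (Dy C ξ)) fun η hη => by
    obtain ⟨y, g, hg, rfl⟩ := (mem_filter.1 hη).2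
    rw [← YD_fib hσ y ⟨g, hg⟩, Nat.card_eq_fintype_card, Fintype.card_subtype],
    sum_const, smul_eq_mul, card_univ, ← Nat.card_eq_fintype_card, Nat.card_prod, hk] at h1
  refine Nat.eq_of_mul_eq_mul_right (Nat.card_pos (α := Dy C ξ)) ?_
  rw [← h1]
  ring

end Vale.Agent.P179
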