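import Vale.Agent.P179B.YB
import Vale.Agent.P179B.YD
import Vale.Agent.P179B.EA

/-! P179, blocks: triples with a given nontrivial product. -/

open Finset
open scoped Classical

noncomputable section

namespace Vale.Agent.P179

set_option linter.unusedSectionVars false

variable {p : ℕ} [Fact p.Prime] {H : Type} [Group H] [Fintype H] {C : CSub H} {x : H} {Γ : H → Prop}

theorem YF_hol (hab : Ab p H) (hΓ : ∀ g y, Γ (y * g * y⁻¹) ↔ Γ g) (hr : ∀ g, Γ g → IsReg p g)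
    (hP : IsPGroup p C.P) (hx : x ∈ C.P) {j : ℕ}
    (hj : x ^ p ^ (j + 1) = 1) {h : T4 H → C.G} (hh : Triv h) :
    hol h (wy p C x Γ) t1 ^ p ^ j = 1 := by
  refine hol_pow hh (wt_wy hΓ hx) eqv_t1 wy_t1 wy_val (Ny C)
    (fun ξ => ((tg ⊥ (E1 C ξ) ξ.1.1, ξ.1.2), ξ.2))
    ny_smul ny_t1 (ny_tau hP _ fun _ => rfl) (Oy C) fun ξ h0 hN => ⟨oy_refl ξ, fun η e =>
      ⟨oy_wy hΓ hx h0 e, fun a => hN ((oy_ny e).1 a), oy_iff e⟩, ?_⟩
  obtain ⟨a1, a2⟩ := wy_ne.1 h0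
  obtain ⟨k, k1, k2⟩ := oy_card (C := C) a1.1
  have w0 : ∀ η, Oy C ξ η → wy p C x Γ η ≠ 0 := fun η e => by rwa [oy_wy hΓ hx h0 e]
  have ha : ξ.1.2.1 ^ (p ^ j * k) = 1 := by
    by_contra hne
    exact hN (lemG3 hab a1.2.2.2.2.2 (hr _ a1.2.2.2.2.1) hj (E1 C ξ)
      (hP.to_le fun e he => (mem_E1.1 he).1)
      (fun e he => (mem_E1.1 he).2.1) (fun e he => C.comm _ (mem_E1.1 he).1 _ hx)
      (fun e he => (mem_E1.1 he).2.2.2) ((free4_iff a1.1).1 a2) k1 hne)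
  have key := hol_cyc hh eqv_t1 (univ.filter fun η => Oy C ξ η)
    (fun η e => (wy_ne.1 (w0 η (mem_filter.1 e).2)).2)
    (fun y η e => mem_filter.2 ⟨mem_univ _, oy_smul (mem_filter.1 e).2 y⟩)
    (fun η e => mem_filter.2 ⟨mem_univ _, oy_t1 (mem_filter.1 e).2⟩)
    (fun η e ζ e' n y => oy_hom (wy_ne.1 (w0 η (mem_filter.1 e).2)).1.1
      ((oy_iff (mem_filter.1 e).2 ζ).2 (mem_filter.1 e').2) n y) k2 (q := p ^ j) fun η e => by
      rw [t1_pow, orderOf_dvd_iff_pow_eq_one.1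
        (oy_order (mem_filter.1 e).2 ▸ orderOf_dvd_iff_pow_eq_one.2 ha), mul_one]
  simpa only [mem_filter, mem_univ, true_and] using key

theorem sum3_dvd (hab : Ab p H) (hΓ : ∀ g y, Γ (y * g * y⁻¹) ↔ Γ g) (hr : ∀ g, Γ g → IsReg p g) (hx : IsP p x)
    (h1 : x ≠ 1) : (p * pp p H : ℤ) ∣ ∑ y : H × H × H with Γ y.2.2 ∧ c3 y = x, mu3 p y := by
  obtain ⟨S, hS⟩ := (isP_iff.1 hx).exists_le_sylow
  let C : CSub H := ⟨S, hab S S.isPGroup'⟩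
  have hxP : x ∈ C.P := hS (Subgroup.mem_zpowers x)
  obtain ⟨k, hk⟩ := hx
  obtain ⟨i, -, hi⟩ := (Nat.dvd_prime_pow Fact.out).1 (orderOf_dvd_of_pow_eq_one hk)
  obtain ⟨j, rfl⟩ : ∃ j, i = j + 1 := by
    refine Nat.exists_eq_succ_of_ne_zero fun e => h1 ?_
    rwa [e, pow_zero, orderOf_eq_one_iff] at hi
  obtain ⟨h, hh⟩ := exists_triv C.G (T4 H)
  let y : C.G := ⟨x, hxP⟩
  obtain ⟨m, m1, m2⟩ := chain3 hh (wt_wy hΓ hxP) eqv_t1 eqv_t2 eqv_t3 wy_t1 wy_t2 (wy_t3 hΓ)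
    t_braid t_braid1 (x := y⁻¹) (fun ξ h0 => chain4 (wy_ne.1 h0).1 rfl)
    (YF_hol hab hΓ hr S.isPGroup' hxP (hi ▸ pow_orderOf_eq_one x) hh)
  have e1 : Nat.card C.G = pp p H := card_sylow S
  have e2 : x ^ (m * (p ^ j : ℕ)) = 1 := by
    rw [inv_zpow, inv_eq_one] at m2
    exact congrArg Subtype.val m2
  rw [← orderOf_dvd_iff_zpow_eq_one, hi, pow_succ'] at e2
  push_cast at e2
  have p0 : (p : ℤ) ^ j ≠ 0 := pow_ne_zero _ (by exact_mod_cast (Fact.out : p.Prime).ne_zero)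
  rw [sum_wy (C := C) S.isPGroup', m1, e1, mul_comm]
  exact mul_dvd_mul_left _ ((mul_dvd_mul_iff_right p0).1 e2)

end Vale.Agent.P179
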