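import Vale.Agent.P179B.DA
import Vale.Agent.P179B.DB
import Vale.Agent.P179B.DF
import Vale.Agent.P179B.YF
import Vale.Agent.P179B.FA
import Vale.Agent.P179B.FB
import Vale.Agent.P179B.GC
import Vale.Agent.P179B.HE
import Vale.Agent.P179B.KE

/-! P179, blocks: the congruence. -/

open Finset
open scoped Classical

noncomputable section

namespace Vale.Agent.P179

set_option linter.unusedSectionVars false

variable {p : ℕ} [Fact p.Prime] {H : Type} [Group H] [Fintype H] {k : Type} [Field k] [CharP k p]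
  {M : PM k}

theorem aa3 (hab : Ab p H) {Γ : H → Prop} (hΓ : ∀ g y, Γ (y * g * y⁻¹) ↔ Γ g)
    (hr : ∀ g, Γ g → IsReg p g) : (p * pp p H : ℤ) ∣ ∑ y : H × H × H with Γ y.2.2,
      ((if c3 y = 1 then mu3 p y else 0) - if IsP p (c3 y) then 1 else 0) := by
  have a1 := ct3_mu hab hΓ
  have a3 : (p * pp p H : ℤ) ∣ ∑ x : H with IsP p x ∧ x ≠ 1,
      ∑ y : H × H × H with Γ y.2.2 ∧ c3 y = x, mu3 p y :=
    dvd_sum fun x hx => sum3_dvd hab hΓ hr (mem_filter.1 hx).2.1 (mem_filter.1 hx).2.2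
  have e2 := sum_fiberwise_eq_sum_filter (univ.filter fun y : H × H × H => Γ y.2.2)
    (univ.filter fun x : H => IsP p x ∧ x ≠ 1) c3 (mu3 p)
  simp only [filter_filter] at e2
  rw [e2] at a3
  refine (a1.sub a3).trans (dvd_of_eq ?_)
  simp only [ct3, card_filter, Nat.cast_sum, sum_filter, ← sum_sub_distrib, mem_filter, mem_univ,
    true_and]
  refine sum_congr rfl fun y _ => ?_
  have h1 : IsP p (1 : H) := ⟨0, one_pow _⟩
  by_cases c1 : Γ y.2.2 <;> by_cases c2 : c3 y = 1 <;> by_cases c4 : IsP p (c3 y) <;>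
    simp_all

theorem WS_local (hab : Ab p H) {η : H → M.O} (h : Good M p η) : ∃ z : M.O,
    M.ψ z = ∑ χ ∈ (irr_finite (H := H)).toFinset with DefectZero p χ, lam M χ (M.ψ ∘ η) ∧
      Sm M (pp p H) (WS p ⊥ η - Nat.card H * z) := by
  obtain ⟨z, z1, z2⟩ := factA3 hab h.cl
  refine ⟨z, z1, ?_⟩
  have a1 := weighted (M := M) (fun y : H × H × H => y.2.2) _ (fun Γ b1 b2 => aa3 hab b1 b2)
    h.cl h.reg
  have a2 : Sm M (pp p H) (∑ σ : Finset (Subgroup H) with IsCh p ⊥ σ, (sg σ : M.O) *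
      ((TS p (res σ η) - TL p (res σ η)) - (TK (res σ η) - TL p (res σ η) - TX p (res σ η)))) := by
    refine Sm.sum fun σ hσ => Sm.mul ?_ _
    have b := (mem_filter.1 hσ).2
    exact ((TS_TL (h.res b)).sub (TK_TL (h.res b) (hab.sub _))).of_dvd (pp_St hab b ▸ pp_dvd)
  have e1 : ∑ y : H × H × H, η y.2.2 * (((if c3 y = 1 then mu3 p y else 0) -
      if IsP p (c3 y) then 1 else 0 : ℤ) : M.O) =
      ∑ σ : Finset (Subgroup H) with IsCh p ⊥ σ, (sg σ : M.O) * TK (res σ η) - Nat.card H * z := by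
    rw [← WK_swap, ← z2, sum_filter, sum_filter, ← sum_sub_distrib]
    refine sum_congr rfl fun y _ => ?_
    split_ifs <;> simp [mul_sub]
  rw [e1] at a1
  have e2 := TX_zero (p := p) η
  convert a1.add a2 using 1
  simp only [WS_swap, mul_sub, sum_sub_distrib, e2]
  ring

theorem block_congr [IsAlgClosed k] (hab : Ab p H) (ψ0 : integralClosure ℤ ℂ →+* k)
    {B : MonoidAlgebra k H} (hB : IsBlock B) : numSimpleIn B ≡ numWeightsIn p ψ0 B [MOD p] := by
  obtain ⟨M, hM⟩ := exists_PM ψ0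
  have c1 : Cl fun g => B.coeff g := ma_center.1 (by rw [ma_self]; exact hB.1)
  have c2 : cv (fun g => B.coeff g) (fun g => B.coeff g) = fun g => B.coeff g := funext fun g => by
    rw [← ma_coeff (cv _ _), ma_cv, ma_self, hB.2.1]
  obtain ⟨ε, h, e⟩ := exists_good (M := M) (p := p) c1 c2
  obtain ⟨r, d, π, h1, h2, h3⟩ := exists_wedd k H
  obtain ⟨l, hl⟩ := central_scalar π h1 h2 h3 hB.1
  have a1 : M.ψ (ts p ε) = numSimpleIn B := by
    rw [num_in π h1 h2 h3 hB.2.1 l hl, ← ts_trace π h1 h2 h3 _ l (by rw [ma_self]; exact hl), ← e]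
    simp only [ts, map_sum, Function.comp_apply]
  have a2 : Sm M (pp p H) (Nat.card H * (ts p ε - numWeightsIn p ψ0 B)) := by
    rw [mul_sub, ← ts_eq h.cl, ← sum_WS hab ε h.reg, ← Nat.cast_mul, weight_count_in, Nat.cast_sum,
      sum_subtype (p := fun Q : Subgroup H => IsPGroup p Q) _ (fun Q => by simp),
      ← sum_sub_distrib]
    refine Sm.sum fun Q _ => ?_
    obtain ⟨z, z1, z2⟩ := WS_local (hab.nq Q.2) (h.bar Q.2)
    have e1 : Nat.card (Subgroup.normalizer (Q.1 : Set H)) = Nat.card Q.1 * Nat.card (NQ Q.1) := by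
      rw [Subgroup.card_eq_card_quotient_mul_card_subgroup
        (Q.1.subgroupOf (Subgroup.normalizer (Q.1 : Set H))), Nat.card_congr
        (Subgroup.subgroupOfEquivOfLe Subgroup.le_normalizer).toEquiv, mul_comm]
    have b1 := z2.nat_mul (Nat.card Q.1)
    rw [card_mul_pp hab Q.2] at b1
    obtain ⟨n, hn⟩ : ∃ n, n = Nat.card {φ : {φ : NQ Q.1 → ℂ // IsIrr φ ∧ DefectZero p φ} //
      Weight.In ψ0 ⟨Q.1, Q.2, φ.1, φ.2.1, φ.2.2⟩ B} := ⟨_, rfl⟩
    have b2 : M.ψ (z - n) = 0 := by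
      have e2 : M.ψ ∘ bar Q.1 ε = bar Q.1 fun g => B.coeff g := by
        rw [← e]
        funext c
        simp only [bar, push, resQ, Function.comp_apply, map_sum, apply_ite M.ψ, map_zero]
      have : Fintype {φ : NQ Q.1 → ℂ // IsIrr φ ∧ DefectZero p φ} :=
        (irr_finite.subset fun φ (hφ : IsIrr φ ∧ DefectZero p φ) => hφ.1).fintype
      rw [map_sub, map_natCast, z1, e2, sub_eq_zero, hn, Nat.card_eq_fintype_card,
        Fintype.card_subtype, card_filter, Nat.cast_sum,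
        sum_subtype (p := fun φ : NQ Q.1 → ℂ => IsIrr φ ∧ DefectZero p φ) _ (fun φ => by simp)]
      refine sum_congr rfl fun φ _ => ?_
      rw [in_iff hM hB ⟨Q.1, Q.2, φ.1, φ.2.1, φ.2.2⟩]
      split_ifs <;> simp
    have b3 : Sm M (pp p H) (Nat.card (Subgroup.normalizer (Q.1 : Set H)) * (z - n)) :=
      Sm.of_dvd ⟨_, b2, rfl⟩ (by
        rw [e1, ← card_mul_pp hab Q.2]
        exact mul_dvd_mul_left _ pp_dvd)
    convert b1.add b3 using 1
    rw [← hn, e1]
    push_cast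
    ring
  have a3 := a2.cancel
  rw [map_sub, a1, map_natCast, sub_eq_zero] at a3
  exact (CharP.natCast_eq_natCast k p).1 a3

end Vale.Agent.P179
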