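import Vale.Agent.P179B.Defs

/-! P179, blocks: the local ring.

O = the set of z with m * z integral for some integral m with ψ0 m ≠ 0; ψ z = ψ0 (m z) / ψ0 m (well defined). If ψ z ≠ 0 then
m1 = m z has ψ0 m1 ≠ 0 and m1 * z⁻¹ = m is integral. Compare P179/RA.lean. The small lemmas are one liners.
-/

open Finset
open scoped Classical

noncomputable section

namespace Vale.Agent.P179

set_option linter.unusedSectionVars false

variable {p : ℕ} [Fact p.Prime] {H : Type} [Group H] [Fintype H] {k : Type} [Field k] [CharP k p]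
  {M : PM k}

/-- The localization. -/
def PA_O (ψ0 : integralClosure ℤ ℂ →+* k) : Subring ℂ where
  carrier := {z | ∃ m n : integralClosure ℤ ℂ, ψ0 m ≠ 0 ∧ (m : ℂ) * z = n}
  one_mem' := ⟨1, 1, by simp, by simp⟩
  zero_mem' := ⟨1, 0, by simp, by simp⟩
  mul_mem' := by
    rintro a b ⟨m, n, hm, ha⟩ ⟨m', n', hm', hb⟩
    exact ⟨m * m', n * n', by simp [hm, hm'], by push_cast; rw [← ha, ← hb]; ring⟩
  add_mem' := by
    rintro a b ⟨m, n, hm, ha⟩ ⟨m', n', hm', hb⟩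
    exact ⟨m * m', n * m' + n' * m, by simp [hm, hm'], by push_cast; rw [← ha, ← hb]; ring⟩
  neg_mem' := by
    rintro a ⟨m, n, hm, ha⟩
    exact ⟨m, -n, hm, by push_cast; rw [← ha]; ring⟩

theorem PA_f (ψ0 : integralClosure ℤ ℂ →+* k) : ∃ f : PA_O ψ0 → k, ∀ (z : PA_O ψ0)
    (m n : integralClosure ℤ ℂ), ψ0 m ≠ 0 → (m : ℂ) * z = n → f z = ψ0 n / ψ0 m := by
  choose a b h1 h2 using fun z : PA_O ψ0 => z.2
  refine ⟨fun z => ψ0 (b z) / ψ0 (a z), fun z m n hm h => ?_⟩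
  rw [div_eq_div_iff (h1 z) hm, ← map_mul, ← map_mul]
  refine congrArg _ (Subtype.ext ?_)
  push_cast
  rw [← h, ← h2]
  ring

theorem PA_cl {A : Type} [CommRing A] {η : H → A} (h : Cl η) {a b : H}
    (e : ConjClasses.mk a = ConjClasses.mk b) : η a = η b := by
  obtain ⟨c, rfl⟩ := isConj_iff.1 (ConjClasses.mk_eq_mk_iff_isConj.1 e)
  exact (h a c).symm

theorem PA_card (a : H) : Nat.card (Subgroup.centralizer {a}) *
    #{b | ConjClasses.mk b = ConjClasses.mk a} = Nat.card H := by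
  have h := MulAction.card_orbit_mul_card_stabilizer_eq_card_group (ConjAct H) a
  rw [Subgroup.nat_card_centralizer_nat_card_stabilizer, mul_comm, Nat.card_eq_fintype_card,
    Nat.card_eq_fintype_card, ← ConjAct.card (G := H), ← h, ← Fintype.card_subtype]
  refine congrArg (· * _) (Fintype.card_congr (Equiv.subtypeEquivRight fun b => ?_))
  rw [ConjAct.orbit_eq_carrier_conjClasses, ConjClasses.mem_carrier_iff_mk_eq]

theorem exists_PM (ψ0 : integralClosure ℤ ℂ →+* k) : ∃ M : PM k,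
    ∀ z : integralClosure ℤ ℂ, M.red (z : ℂ) = ψ0 z := by
  obtain ⟨f, hf⟩ := PA_f ψ0
  have i : ∀ z : integralClosure ℤ ℂ, (z : ℂ) ∈ PA_O ψ0 := fun z => ⟨1, z, by simp, by simp⟩
  refine ⟨⟨PA_O ψ0,
    { toFun := f
      map_one' := by simpa using hf 1 1 1 (by simp) (by simp)
      map_zero' := by simpa using hf 0 1 0 (by simp) (by simp)
      map_mul' := fun x y => by
        obtain ⟨m, n, hm, ha⟩ := x.2
        obtain ⟨m', n', hm', hb⟩ := y.2
        rw [hf x m n hm ha, hf y m' n' hm' hb, hf (x * y) (m * m') (n * n') (by simp [hm, hm'])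
          (by push_cast; rw [← ha, ← hb]; ring), map_mul, map_mul, div_mul_div_comm]
      map_add' := fun x y => by
        obtain ⟨m, n, hm, ha⟩ := x.2
        obtain ⟨m', n', hm', hb⟩ := y.2
        rw [hf x m n hm ha, hf y m' n' hm' hb, hf (x + y) (m * m') (n * m' + n' * m)
          (by simp [hm, hm']) (by push_cast; rw [← ha, ← hb]; ring), map_add, map_mul, map_mul,
          map_mul, div_add_div _ _ hm hm', mul_comm (ψ0 n')] },
    fun z hz => i ⟨z, hz⟩, fun z hz => ?_⟩, fun z => ?_⟩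
  · obtain ⟨m, n, hm, ha⟩ := z.2
    have hn : ψ0 n ≠ 0 := fun h => hz ((hf z m n hm ha).trans (by simp [h]))
    have z0 : (z : ℂ) ≠ 0 := fun h => hn (by
      rw [show n = 0 from Subtype.ext (by simpa [h] using ha.symm), map_zero])
    exact IsUnit.of_mul_eq_one ⟨(z : ℂ)⁻¹, n, m, hn, by rw [← ha, mul_inv_cancel_right₀ z0]⟩
      (Subtype.ext (mul_inv_cancel₀ z0))
  · exact (dif_pos (i z)).trans ((hf ⟨z, i z⟩ 1 z (by simp) (by simp)).trans (by simp))

theorem PM.red_coe (z : M.O) : M.red (z : ℂ) = M.ψ z := by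
  exact dif_pos z.2

theorem PM.ker_ne (M : PM k) : RingHom.ker M.ψ ≠ ⊤ := by
  exact RingHom.ker_ne_top _

theorem PM.inv_mem (M : PM k) {m : ℕ} (hm : m.Coprime p) : (m : ℂ)⁻¹ ∈ M.O := by
  obtain ⟨z, hz⟩ := (M.unit m (by
    rw [map_natCast, Ne, CharP.cast_eq_zero_iff k p]
    exact (Nat.Prime.coprime_iff_not_dvd Fact.out).1 hm.symm)).exists_right_inv
  have e : (m : ℂ) * z = 1 := by simpa using congrArg Subtype.val hz
  exact (eq_inv_of_mul_eq_one_right e) ▸ z.2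

theorem PM.root (M : PM k) (z : M.O) (n : ℕ) (h : z ^ p ^ n = 1) : z - 1 ∈ RingHom.ker M.ψ := by
  rw [RingHom.mem_ker, map_sub, map_one]
  refine pow_eq_zero_iff (pow_ne_zero n (Fact.out : p.Prime).ne_zero) |>.1 ?_
  rw [sub_pow_char_pow, ← map_pow, h, map_one, one_pow, sub_self]

theorem Sm.zero (n : ℕ) : Sm M n 0 := by
  exact ⟨0, map_zero _, (mul_zero _).symm⟩

theorem Sm.add {n : ℕ} {x y : M.O} (hx : Sm M n x) (hy : Sm M n y) : Sm M n (x + y) := by
  obtain ⟨a, ha, rfl⟩ := hx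
  obtain ⟨b, hb, rfl⟩ := hy
  exact ⟨a + b, by simp [ha, hb], (mul_add _ _ _).symm⟩

theorem Sm.sub {n : ℕ} {x y : M.O} (hx : Sm M n x) (hy : Sm M n y) : Sm M n (x - y) := by
  obtain ⟨a, ha, rfl⟩ := hx
  obtain ⟨b, hb, rfl⟩ := hy
  exact ⟨a - b, by simp [ha, hb], (mul_sub _ _ _).symm⟩

theorem Sm.mul {n : ℕ} {x : M.O} (hx : Sm M n x) (y : M.O) : Sm M n (y * x) := by
  obtain ⟨a, ha, rfl⟩ := hx
  exact ⟨y * a, by simp [ha], mul_left_comm _ _ _⟩

theorem Sm.sum {n : ℕ} {ι : Type} {W : Finset ι} {f : ι → M.O} (h : ∀ i ∈ W, Sm M n (f i)) :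
    Sm M n (∑ i ∈ W, f i) := by
  exact sum_induction _ _ (fun _ _ => Sm.add) (Sm.zero n) h

theorem Sm.of_dvd {n m : ℕ} {x : M.O} (hx : Sm M n x) (h : m ∣ n) : Sm M m x := by
  obtain ⟨a, ha, rfl⟩ := hx
  obtain ⟨c, rfl⟩ := h
  exact ⟨c * a, by simp [ha], by rw [Nat.cast_mul, mul_assoc]⟩

theorem Sm.nat_mul {n : ℕ} {x : M.O} (hx : Sm M n x) (m : ℕ) : Sm M (m * n) (m * x) := by
  obtain ⟨a, ha, rfl⟩ := hx
  exact ⟨a, ha, by rw [Nat.cast_mul, mul_assoc]⟩

theorem Sm.of_int {n : ℕ} {z : ℤ} (h : (p * n : ℤ) ∣ z) : Sm M n (z : M.O) := by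
  obtain ⟨c, rfl⟩ := h
  exact ⟨p * c, by simp, by push_cast; ring⟩

theorem Sm.cancel {x : M.O} (h : Sm M (pp p H) (Nat.card H * x)) : M.ψ x = 0 := by
  obtain ⟨y, hy, e⟩ := h
  have hp : p.Prime := Fact.out
  have h1 : pp p H * (Nat.card H / pp p H) = Nat.card H := Nat.ordProj_mul_ordCompl_eq_self _ _
  have h2 : p.Coprime (Nat.card H / pp p H) := Nat.coprime_ordCompl hp Nat.card_pos.ne'
  have h3 : (pp p H : M.O) ≠ 0 := Nat.cast_ne_zero.2 (pow_ne_zero _ hp.ne_zero)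
  generalize Nat.card H / pp p H = c at h1 h2
  rw [← h1, Nat.cast_mul, mul_assoc] at e
  rw [← mul_left_cancel₀ h3 e, map_mul, map_natCast, mul_eq_zero, CharP.cast_eq_zero_iff k p] at hy
  exact hy.resolve_left (hp.coprime_iff_not_dvd.1 h2)

theorem sum_cent {δ : H → M.O} (hδ : Cl δ) (h0 : ∀ a, M.ψ (δ a) = 0) :
    Sm M (Nat.card H) (∑ a, Nat.card (Subgroup.centralizer {a}) * δ a) := by
  rw [← sum_fiberwise (g := ConjClasses.mk)]
  refine Sm.sum fun c _ => ?_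
  obtain ⟨x, rfl⟩ := ConjClasses.exists_rep c
  refine ⟨δ x, h0 x, ?_⟩
  rw [sum_congr rfl fun a ha => by rw [PA_cl hδ (mem_filter.1 ha).2], ← sum_mul, ← Nat.cast_sum]
  refine congrArg (fun n : ℕ => (n : M.O) * δ x) (Nat.eq_of_mul_eq_mul_right
    (m := #{b | ConjClasses.mk b = ConjClasses.mk x}) (card_pos.2 ⟨x, by simp⟩) ?_)
  rw [sum_mul, sum_congr rfl (g := fun _ => Nat.card H) fun a ha => by
    rw [← (mem_filter.1 ha).2, PA_card], sum_const, smul_eq_mul, mul_comm]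

theorem weighted {ι : Type} [Fintype ι] (π : ι → H) (F : ι → ℤ) {n : ℕ}
    (h : ∀ Γ : H → Prop, (∀ g y, Γ (y * g * y⁻¹) ↔ Γ g) → (∀ g, Γ g → IsReg p g) →
      (p * n : ℤ) ∣ ∑ i with Γ (π i), F i) {η : H → M.O} (hη : Cl η)
    (hr : ∀ g, ¬ IsReg p g → η g = 0) : Sm M n (∑ i, η (π i) * (F i : M.O)) := by
  rw [← sum_fiberwise (g := fun i => ConjClasses.mk (π i))]
  refine Sm.sum fun c _ => ?_
  obtain ⟨x, rfl⟩ := ConjClasses.exists_rep c
  rw [sum_congr rfl fun a ha => by rw [PA_cl hη (mem_filter.1 ha).2], ← mul_sum, ← Int.cast_sum]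
  by_cases hc : ∀ g, ConjClasses.mk g = ConjClasses.mk x → IsReg p g
  · have := h (fun g => ConjClasses.mk g = ConjClasses.mk x) (fun g y => by
      rw [← ConjClasses.mk_eq_mk_iff_isConj.2 (isConj_iff.2 ⟨y, rfl⟩)]) hc
    rw [filter_congr_decidable] at this
    exact (Sm.of_int this).mul _
  · push Not at hc
    obtain ⟨g, e, hg⟩ := hc
    rw [← PA_cl hη e, hr g hg, zero_mul]
    exact Sm.zero n

end Vale.Agent.P179
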