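import Vale.Agent.P179B.PF

/-! P179, blocks: block idempotents have local coefficients.

For each irreducible χ1 outside the family S pick a class c with different reductions for χ0 and χ1, z χ1 = indicator of c minus om χ1 (indicator) times the
unit; y = convolution product of the z χ1 (work in MonoidAlgebra M.O H through ma, or with functions): om χ y = 0 outside S, a unit of O on S.
∏ χ ∈ S, (X - om χ y) = X * r + c0 with c0 a unit; ε = - c0⁻¹ * y * r(y) has om χ ε = 1 on S and 0 outside (om_cv). A convenient way: the set of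
functions χ ↦ om χ η, η an O valued class function, is a subring closed under scalars from O; show that it contains the indicator of S.
-/

open Finset
open scoped Classical

noncomputable section

namespace Vale.Agent.P179

set_option linter.unusedSectionVars false

variable {p : ℕ} [Fact p.Prime] {H : Type} [Group H] [Fintype H] {k : Type} [Field k] [CharP k p]
  {M : PM k}

theorem block_idem {χ0 : H → ℂ} (h0 : IsIrr χ0) : ∃ ε : H → M.O, Cl ε ∧ ∀ χ, IsIrr χ →
    om χ (fun g => (ε g : ℂ)) = if ∀ β : H → k, lam M χ β = lam M χ0 β then 1 else 0 := by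
  choose z f h1 h2 h3 using Rp.cls (M := M) (H := H)
  have a1 : ∀ χ χ1 : H → ℂ, (∀ β : H → k, lam M χ β = lam M χ1 β) ↔
      ∀ c, M.ψ (f c χ) = M.ψ (f c χ1) := by
    refine fun χ χ1 => ⟨fun h c => ?_, fun h β => by simp only [lam, h3, h]⟩
    have a2 := h fun g => if ConjClasses.mk g = c then 1 else 0
    have a3 : ∀ c1 : ConjClasses H, ConjClasses.mk (Quotient.out c1) = c1 := Quotient.out_eq
    simpa only [lam, h3, a3, ite_mul, one_mul, zero_mul, sum_ite_eq', mem_univ, if_true] using a2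
  simp only [a1]
  have a4 : ∀ χ1 : H → ℂ, ∃ c, (¬ ∀ c, M.ψ (f c χ1) = M.ψ (f c χ0)) →
      M.ψ (f c χ1) ≠ M.ψ (f c χ0) := fun χ1 => by
    by_cases h : ∀ c, M.ψ (f c χ1) = M.ψ (f c χ0)
    · exact ⟨1, fun h4 => absurd h h4⟩
    · obtain ⟨c, hc⟩ := not_forall.1 h
      exact ⟨c, fun _ => hc⟩
  choose t ht using a4
  obtain ⟨y, hy⟩ : ∃ y : (H → ℂ) → M.O, y = fun χ => ∏ χ1 ∈ (irr_finite (H := H)).toFinset with
    ¬ ∀ c, M.ψ (f c χ1) = M.ψ (f c χ0), (f (t χ1) χ - f (t χ1) χ1) := ⟨_, rfl⟩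
  obtain ⟨w, hw⟩ : ∃ w, Rp M w y := ⟨_, hy ▸ Rp.prod _ fun χ1 _ => (h1 (t χ1)).sub (Rp.const _)⟩
  have a5 : ∀ χ : H → ℂ, ∃ v : M.O, (∀ c, M.ψ (f c χ) = M.ψ (f c χ0)) → v * y χ = 1 := fun χ => by
    by_cases h : ∀ c, M.ψ (f c χ) = M.ψ (f c χ0)
    · obtain ⟨v, hv⟩ := (M.unit (y χ) (by
        rw [hy, map_prod]
        refine prod_ne_zero_iff.2 fun χ1 h5 => ?_
        rw [map_sub, h, sub_ne_zero]
        exact (ht χ1 (mem_filter.1 h5).2).symm)).exists_left_inv
      exact ⟨v, fun _ => hv⟩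
    · exact ⟨0, fun h4 => absurd h4 h⟩
  choose v hv using a5
  obtain ⟨ε, e1, -, e2⟩ := (Rp.const 1).sub (Rp.prod ((irr_finite (H := H)).toFinset.filter
    fun χ1 => ∀ c, M.ψ (f c χ1) = M.ψ (f c χ0)) fun χ1 _ =>
      (Rp.const 1).sub ((Rp.const (v χ1)).mul hw))
  refine ⟨ε, e1, fun χ hχ => ?_⟩
  rw [e2 χ hχ]
  split_ifs with h
  · have a7 : ∏ i ∈ (irr_finite (H := H)).toFinset with ∀ c, M.ψ (f c i) = M.ψ (f c χ0),
        (1 - v i * y χ) = 0 :=
      prod_eq_zero (i := χ) (mem_filter.2 ⟨CD_mem.2 hχ, h⟩) (by rw [hv χ h, sub_self])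
    simp only [a7]
    simp
  · have a6 : y χ = 0 := by
      rw [hy]
      exact prod_eq_zero (i := χ) (mem_filter.2 ⟨CD_mem.2 hχ, h⟩) (sub_self _)
    simp [a6]

end Vale.Agent.P179
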