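import Vale.Agent.P179B.PD

/-! P179, blocks: modular central characters detect nilpotent elements.

For every choice of classes c χ the product over irreducible χ (irr_finite) of (class sum of c χ minus om χ (indicator of c χ)) vanishes in MonoidAlgebra M.O H
(it is ma of a class function killed by all om χ, om_inj). Map to MonoidAlgebra k H (mapRingHom / mapRangeRingHom ψ) and expand
∏ χ, (ma d - lam χ d) = ∏ χ, ∑ c, d c.out • (class sum c - ..) with Finset.prod_univ_sum (use the commutative centre, or Finset.noncommProd,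
or induction on a list). So ma d ^ n = 0 when all lam χ d vanish.
-/

open Finset
open scoped Classical

noncomputable section

namespace Vale.Agent.P179

set_option linter.unusedSectionVars false

variable {p : ℕ} [Fact p.Prime] {H : Type} [Group H] [Fintype H] {k : Type} [Field k] [CharP k p]
  {M : PM k}

variable (M) in
/-- A central element together with the ordinary central characters of a lift. -/
def Rp (z : Subalgebra.center k (MonoidAlgebra k H)) (f : (H → ℂ) → M.O) : Prop :=
  ∃ η : H → M.O, Cl η ∧ ma (M.ψ ∘ η) = z ∧ ∀ χ, IsIrr χ → om χ (fun g => (η g : ℂ)) = f χ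

theorem Rp.const (c : M.O) :
    Rp M (algebraMap k (Subalgebra.center k (MonoidAlgebra k H)) (M.ψ c)) fun _ => c := by
  refine ⟨fun g => if g = 1 then c else 0, fun g y => by simp only [conj_eq_one_iff], ?_,
    fun χ hχ => ?_⟩
  · rw [ma, sum_eq_single 1 (fun g _ hg => by simp [hg]) (by simp)]
    simp
  · obtain ⟨d, hd, e⟩ := hχ.deg
    have h0 : χ 1 ≠ 0 := by rw [e]; exact Nat.cast_ne_zero.2 hd.ne'
    rw [om, sum_eq_single 1 (fun g _ hg => by simp [hg]) (by simp)]
    simp [h0]

theorem Rp.sub {z z1 : Subalgebra.center k (MonoidAlgebra k H)} {f f1 : (H → ℂ) → M.O}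
    (h : Rp M z f) (h1 : Rp M z1 f1) : Rp M (z - z1) fun χ => f χ - f1 χ := by
  obtain ⟨η, a1, a2, a3⟩ := h
  obtain ⟨ζ, b1, b2, b3⟩ := h1
  refine ⟨fun g => η g - ζ g, fun g y => by simp only [a1 g y, b1 g y], ?_, fun χ hχ => ?_⟩
  · rw [AddSubgroupClass.coe_sub, ← a2, ← b2]
    simp only [ma, ← sum_sub_distrib, Function.comp_apply, map_sub, MonoidAlgebra.single_sub]
  · rw [AddSubgroupClass.coe_sub, ← a3 χ hχ, ← b3 χ hχ]
    simp only [om, AddSubgroupClass.coe_sub, sub_mul, sum_sub_distrib, sub_div]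

theorem Rp.mul {z z1 : Subalgebra.center k (MonoidAlgebra k H)} {f f1 : (H → ℂ) → M.O}
    (h : Rp M z f) (h1 : Rp M z1 f1) : Rp M (z * z1) fun χ => f χ * f1 χ := by
  obtain ⟨η, a1, a2, a3⟩ := h
  obtain ⟨ζ, b1, b2, b3⟩ := h1
  refine ⟨cv η ζ, a1.cv b1, ?_, fun χ hχ => ?_⟩
  · rw [MulMemClass.coe_mul, ← a2, ← b2, ← ma_cv]
    congr 1
    funext g
    simp only [cv, Function.comp_apply, map_sum, map_mul]
  · rw [MulMemClass.coe_mul, ← a3 χ hχ, ← b3 χ hχ, ← om_cv hχ (fun g y => by simp only [a1 g y])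
      fun g y => by simp only [b1 g y]]
    congr 1
    funext g
    simp [cv]

theorem Rp.prod {ι : Type} (s : Finset ι) {z : ι → Subalgebra.center k (MonoidAlgebra k H)}
    {f : ι → (H → ℂ) → M.O} (h : ∀ i ∈ s, Rp M (z i) (f i)) :
    Rp M (∏ i ∈ s, z i) fun χ => ∏ i ∈ s, f i χ := by
  induction s using Finset.induction_on with
  | empty => simpa using Rp.const (M := M) (H := H) 1
  | insert i s hi ih =>
    simp only [prod_insert hi]
    exact (h i (mem_insert_self _ _)).mul (ih fun j hj => h j (mem_insert_of_mem hj))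

theorem Rp.zero {z : Subalgebra.center k (MonoidAlgebra k H)} {f : (H → ℂ) → M.O} (h : Rp M z f)
    (h0 : ∀ χ, IsIrr χ → f χ = 0) : z = 0 := by
  obtain ⟨η, a1, a2, a3⟩ := h
  have a4 := om_inj (η := fun g => (η g : ℂ)) (fun g y => by simp only [a1 g y])
    fun χ hχ => by rw [a3 χ hχ, h0 χ hχ]; rfl
  have a5 : ∀ g, η g = 0 := fun g => Subtype.ext (congrFun a4 g)
  refine Subtype.ext ?_
  rw [← a2]
  simp [ma, a5]

theorem Rp.cls (c : ConjClasses H) : ∃ z f, Rp M z f ∧
    (z : MonoidAlgebra k H) = ma (fun g => if ConjClasses.mk g = c then 1 else 0) ∧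
      ∀ χ, M.red (om χ fun g => if ConjClasses.mk g = c then 1 else 0) = M.ψ (f χ) := by
  have h1 : ∀ g y : H, ConjClasses.mk (y * g * y⁻¹) = ConjClasses.mk g := fun g y =>
    ConjClasses.mk_eq_mk_iff_isConj.2 (isConj_iff.2 ⟨y, rfl⟩).symm
  have h2 : Cl fun g : H => if ConjClasses.mk g = c then (1 : M.O) else 0 := fun g y => by
    simp only [h1]
  have h3 : (fun g : H => ((if ConjClasses.mk g = c then 1 else 0 : M.O) : ℂ)) =
      fun g => if ConjClasses.mk g = c then 1 else 0 := funext fun g => by split_ifs <;> rfl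
  refine ⟨⟨ma fun g => if ConjClasses.mk g = c then 1 else 0, ma_center.2 fun g y => by
    simp only [h1]⟩, fun χ => if h : (om χ fun g => if ConjClasses.mk g = c then 1 else 0) ∈ M.O
      then ⟨_, h⟩ else 0, ⟨_, h2, ?_, fun χ hχ => ?_⟩, rfl, fun χ => ?_⟩
  · congr 1
    funext g
    simp only [Function.comp_apply, apply_ite M.ψ, map_one, map_zero]
  · have h4 := om_mem hχ h2
    rw [h3] at h4 ⊢
    simp only [dif_pos h4]
  · rw [PM.red]
    split_ifs with h5
    · simp only [dif_pos h5]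
    · simp only [dif_neg h5, map_zero]

theorem lam_nil {d : H → k} (h : Cl d) (h0 : ∀ χ, IsIrr χ → lam M χ d = 0) : IsNilpotent (ma d) := by
  choose z f h1 h2 h3 using Rp.cls (M := M) (H := H)
  have : Fintype {χ : H → ℂ // IsIrr χ} := irr_finite.fintype
  have e1 : (⟨ma d, ma_center.2 h⟩ : Subalgebra.center k (MonoidAlgebra k H)) =
      ∑ c : ConjClasses H, d (Quotient.out c) • z c := by
    refine Subtype.ext ?_
    simp only [AddSubmonoidClass.coe_finsetSum, SetLike.val_smul, h2, ma, smul_sum,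
      MonoidAlgebra.smul_single, smul_eq_mul, mul_ite, mul_one, mul_zero]
    rw [sum_comm]
    refine sum_congr rfl fun g _ => ?_
    rw [sum_eq_single (ConjClasses.mk g) (fun c _ hc => by simp [Ne.symm hc]) (by simp), if_pos rfl]
    obtain ⟨y, hy⟩ := isConj_iff.1 (ConjClasses.mk_eq_mk_iff_isConj.1
      (Quotient.out_eq (ConjClasses.mk g)).symm)
    rw [← hy, h]
  have e2 : ∀ χ : {χ : H → ℂ // IsIrr χ},
      (⟨ma d, ma_center.2 h⟩ : Subalgebra.center k (MonoidAlgebra k H)) =
      ∑ c : ConjClasses H, d (Quotient.out c) • (z c - algebraMap k _ (M.ψ (f c χ.1))) := by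
    intro χ
    have e3 := h0 χ.1 χ.2
    simp only [lam, h3] at e3
    simp only [smul_sub, sum_sub_distrib, ← e1, Algebra.algebraMap_eq_smul_one, smul_smul, ← sum_smul,
      e3, zero_smul, sub_zero]
  have e4 : ∏ _χ : {χ : H → ℂ // IsIrr χ},
      (⟨ma d, ma_center.2 h⟩ : Subalgebra.center k (MonoidAlgebra k H)) = 0 := by
    rw [prod_congr rfl fun χ _ => e2 χ, prod_univ_sum]
    refine sum_eq_zero fun t _ => ?_
    rw [prod_smul, Rp.zero (Rp.prod univ fun χ _ => (h1 (t χ)).sub (Rp.const (f (t χ) χ.1)))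
      fun χ hχ => prod_eq_zero (mem_univ ⟨χ, hχ⟩) (sub_self _), smul_zero]
  rw [prod_const] at e4
  exact ⟨_, by simpa using congrArg Subtype.val e4⟩

end Vale.Agent.P179
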