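import Vale.Agent.P179B.RB2
import Vale.Agent.P179B.PE
import Vale.Agent.P179B.PF

/-! P179, blocks: lifting idempotents and block orthogonality.

lift_idem: lam χ β is 0 or 1 (lam_cv). ε = sum of block_idem over the families contained in S = those χ with lam χ β = 1 (one representative each; or sum over
the image finset of χ ↦ lam M χ). Then om χ ε = indicator of S, so cv ε ε = ε by om_inj, and d = ψ ∘ ε - β has all lam χ d = 0 (lam_red, lam is linear), ma d is nilpotent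
and (ma d) ^ 3 = ma d (difference of commuting idempotents), so d = 0. orth0: perm_zero with Ω = H, E α β = ε (α * β⁻¹), x = s * u (exists_rp), σ α = a * α * s⁻¹, τ α = α * u⁻¹.
orth: lift ψ ∘ η to ε, group Y into classes, orth0 gives card of the centralizer times the class sum is zero in ℂ. exists_good: orth0 with a = 1.
-/

open Finset
open scoped Classical

noncomputable section

namespace Vale.Agent.P179

set_option linter.unusedSectionVars false

variable {p : ℕ} [Fact p.Prime] {H : Type} [Group H] [Fintype H] {k : Type} [Field k] [CharP k p]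
  {M : PM k}

theorem PG_om_sub (χ η ζ : H → ℂ) : om χ (η - ζ) = om χ η - om χ ζ := by
  simp only [om, Pi.sub_apply, sub_mul, sum_sub_distrib, sub_div]

theorem PG_lam_sub (χ : H → ℂ) (β γ : H → k) : lam M χ (β - γ) = lam M χ β - lam M χ γ := by
  simp only [lam, Pi.sub_apply, sub_mul, sum_sub_distrib]

theorem PG_ma_sub (β γ : H → k) : ma (β - γ) = ma β - ma γ := by
  simp only [ma, Pi.sub_apply, MonoidAlgebra.single_sub, sum_sub_distrib]

theorem PG_ex (β : H → k) : ∃ ε : H → M.O, Cl ε ∧ ∀ χ, IsIrr χ →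
    om χ (fun g => (ε g : ℂ)) = if lam M χ β = 1 then 1 else 0 := by
  have h1 : ∀ φ : (H → k) → k, ∃ e : H → M.O, Cl e ∧ ((∃ χ0, IsIrr χ0 ∧ lam M χ0 = φ) →
      ∀ χ, IsIrr χ → om χ (fun g => (e g : ℂ)) = if lam M χ = φ then 1 else 0) := fun φ => by
    by_cases hφ : ∃ χ0, IsIrr χ0 ∧ lam M χ0 = φ
    · obtain ⟨χ0, h0, rfl⟩ := hφ
      obtain ⟨e, h1, h2⟩ := block_idem (M := M) h0
      refine ⟨e, h1, fun _ χ hχ => ?_⟩
      rw [h2 χ hχ]
      exact if_congr funext_iff.symm rfl rfl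
    · exact ⟨0, fun _ _ => rfl, fun h => absurd h hφ⟩
  choose e h1 h2 using h1
  obtain ⟨F, hF⟩ : ∃ F : Finset ((H → k) → k), ∀ φ, φ ∈ F ↔
      ∃ χ0, (IsIrr χ0 ∧ lam M χ0 β = 1) ∧ lam M χ0 = φ :=
    ⟨((irr_finite (H := H)).toFinset.filter fun χ => lam M χ β = 1).image (lam M), fun φ => by
      simp only [mem_image, mem_filter, Set.Finite.mem_toFinset, Set.mem_ofPred_eq]⟩
  refine ⟨fun g => ∑ φ ∈ F, e φ g, fun g y => sum_congr rfl fun φ _ => h1 φ g y, fun χ hχ => ?_⟩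
  have h3 : om χ (fun g => ((∑ φ ∈ F, e φ g : M.O) : ℂ)) =
      ∑ φ ∈ F, om χ fun g => (e φ g : ℂ) := by
    simp only [om, AddSubmonoidClass.coe_finsetSum, sum_mul, ← sum_div]
    rw [sum_comm]
  rw [h3, sum_congr rfl fun φ hφ => h2 φ (by
    obtain ⟨χ0, h0, h4⟩ := (hF φ).1 hφ
    exact ⟨χ0, h0.1, h4⟩) χ hχ, sum_ite_eq]
  refine if_congr ((hF _).trans ⟨?_, fun h => ⟨χ, ⟨hχ, h⟩, rfl⟩⟩) rfl rfl
  rintro ⟨χ0, h0, h4⟩
  rw [← h4]
  exact h0.2

theorem lift_idem {β : H → k} (h : Cl β) (hi : cv β β = β) :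
    ∃ ε : H → M.O, Cl ε ∧ cv ε ε = ε ∧ M.ψ ∘ ε = β := by
  obtain ⟨ε, h1, h2⟩ := PG_ex (M := M) β
  have c1 : Cl fun g => (ε g : ℂ) := fun g y => congrArg Subtype.val (h1 g y)
  have h3 : cv ε ε = ε := by
    have h4 := om_inj (η := cv (fun g => (ε g : ℂ)) (fun g => (ε g : ℂ)) - fun g => (ε g : ℂ))
      (fun g y => by simp only [Pi.sub_apply, c1.cv c1 g y, h1 g y]) fun χ hχ => by
        rw [PG_om_sub, om_cv hχ c1 c1, h2 χ hχ]
        split_ifs <;> simp
    funext x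
    refine Subtype.ext ?_
    refine Eq.trans ?_ (sub_eq_zero.1 (congrFun h4 x))
    simp only [cv, AddSubmonoidClass.coe_finsetSum, Subring.coe_mul]
  refine ⟨ε, h1, h3, ?_⟩
  have c2 : Cl (M.ψ ∘ ε) := fun g y => congrArg M.ψ (h1 g y)
  have h4 : cv (M.ψ ∘ ε) (M.ψ ∘ ε) = M.ψ ∘ ε := by
    funext x
    have h5 := congrArg M.ψ (congrFun h3 x)
    simpa only [cv, map_sum, map_mul, Function.comp_apply] using h5
  have h5 : IsNilpotent (ma (M.ψ ∘ ε - β)) := by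
    refine lam_nil (M := M) (fun g y => by simp only [Pi.sub_apply, c2 g y, h g y]) fun χ hχ => ?_
    rw [PG_lam_sub, lam_red hχ h1, h2 χ hχ]
    have h6 := lam_cv (M := M) hχ h h
    rw [hi] at h6
    split_ifs with h7
    · have h8 := M.red_coe 1
      rw [map_one, Subring.coe_one] at h8
      rw [h8, h7, sub_self]
    · have h8 := M.red_coe 0
      rw [map_zero, Subring.coe_zero] at h8
      rw [h8, zero_sub, neg_eq_zero]
      by_contra h9
      exact h7 (mul_left_cancel₀ h9 (h6.symm.trans (mul_one _).symm))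
  rw [PG_ma_sub] at h5
  have h6 : ma (M.ψ ∘ ε) = ma β :=
    eq_of_isNilpotent_sub_of_isIdempotentElem_of_commute
      ((ma_cv _ _).symm.trans (congrArg ma h4)) ((ma_cv _ _).symm.trans (congrArg ma hi)) h5
      (Subalgebra.mem_center_iff.1 (ma_center.2 h) _)
  funext g
  rw [← ma_coeff (M.ψ ∘ ε) g, h6, ma_coeff]

theorem orth0 {ε : H → M.O} (h : Cl ε) (hi : cv ε ε = ε) {a x : H} (ha : IsReg p a)
    (hx : ¬ IsReg p x) : ∑ y, ε (y * x * y⁻¹ * a⁻¹) = 0 := by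
  obtain ⟨s, s1, ⟨j, s2⟩, s3⟩ := exists_rp (p := p) x
  obtain ⟨u, hu⟩ : ∃ u, u = x * s⁻¹ := ⟨_, rfl⟩
  rw [← hu] at s2
  have e1 : s * u = x := by rw [hu, ← mul_assoc, ← s3, mul_inv_cancel_right]
  have e2 : u * s = x := by rw [hu, inv_mul_cancel_right]
  have e3 : u⁻¹ * s⁻¹ = x⁻¹ := by rw [← e1, mul_inv_rev]
  have e4 : s⁻¹ * u⁻¹ = x⁻¹ := by rw [← e2, mul_inv_rev]
  have hc : Commute (Equiv.mulLeft a) (Equiv.mulRight s⁻¹) :=
    Equiv.ext fun α => (mul_assoc a α s⁻¹).symm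
  have h0 := perm_zero (M := M) (p := p) (fun α β : H => ε (α * β⁻¹)) (fun α γ => by
      rw [← congrFun hi (α * γ⁻¹)]
      exact Fintype.sum_equiv (Equiv.mulRight γ⁻¹) _ _ fun β => by
        simp only [Equiv.coe_mulRight]
        congr 2
        group)
    (Equiv.mulLeft a * Equiv.mulRight s⁻¹) (Equiv.mulRight u⁻¹) (n := orderOf a * orderOf s)
    (j := j) (Nat.Coprime.mul_left ha s1) (by
      rw [hc.mul_pow, Equiv.pow_mulLeft, Equiv.pow_mulRight, pow_mul, pow_orderOf_eq_one, one_pow,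
        inv_pow, pow_mul', pow_orderOf_eq_one, one_pow, inv_one, Equiv.mulLeft_one,
        Equiv.mulRight_one, mul_one]) (by
      rw [Equiv.pow_mulRight, inv_pow, s2, inv_one, Equiv.mulRight_one])
    (Equiv.ext fun α => by
      show a * (α * u⁻¹ * s⁻¹) = a * (α * s⁻¹) * u⁻¹
      simp only [mul_assoc, e3, e4]) (fun i α hα => by
      rw [Equiv.pow_mulRight] at hα ⊢
      have h2 : α * u⁻¹ ^ i = α := hα
      rw [mul_eq_left.1 h2, Equiv.mulRight_one]) (fun h1 => by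
      have h2 : (1 : H) * u⁻¹ = 1 := congrArg (fun τ : Equiv.Perm H => τ 1) h1
      rw [one_mul, inv_eq_one] at h2
      rw [h2, mul_one] at e1
      exact hx (e1 ▸ s1)) (fun α β => by
      show ε (a * (α * s⁻¹) * (a * (β * s⁻¹))⁻¹) = ε (α * β⁻¹)
      rw [← h (α * β⁻¹) a]
      congr 1
      group) (fun α β => by
      show ε (α * u⁻¹ * (β * u⁻¹)⁻¹) = ε (α * β⁻¹)
      congr 1
      group)
  rw [← h0]
  refine sum_congr rfl fun α _ => ?_
  show _ = ε (α * (a * (α * u⁻¹ * s⁻¹))⁻¹)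
  rw [mul_assoc α u⁻¹, e3]
  congr 1
  group

theorem orth {η : H → M.O} (h : Good M p η) {a : H} (ha : IsReg p a) (Y : Finset H)
    (h1 : ∀ y ∈ Y, ¬ IsReg p y) (h2 : ∀ y ∈ Y, ∀ b, b * y * b⁻¹ ∈ Y) :
    M.ψ (∑ y ∈ Y, η (y * a⁻¹)) = 0 := by
  obtain ⟨ε, k1, k2, k3⟩ := lift_idem (M := M) (β := M.ψ ∘ η)
    (fun g y => congrArg M.ψ (h.cl g y)) h.idm
  have h3 : ∀ b : H, ∑ y ∈ Y, ε (b * y * b⁻¹ * a⁻¹) = ∑ y ∈ Y, ε (y * a⁻¹) := fun b =>
    sum_equiv (MulAut.conj b).toEquiv (fun y => ⟨fun hy => h2 y hy b, fun hy => by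
      have h4 := h2 _ hy b⁻¹
      have h5 : b⁻¹ * (MulAut.conj b).toEquiv y * b⁻¹⁻¹ = y := by
        show b⁻¹ * (b * y * b⁻¹) * b⁻¹⁻¹ = y
        group
      rwa [h5] at h4⟩) fun y _ => rfl
  have h4 : ∑ b : H, ∑ y ∈ Y, ε (b * y * b⁻¹ * a⁻¹) = 0 := by
    rw [sum_comm]
    exact sum_eq_zero fun y hy => orth0 k1 k2 ha (h1 y hy)
  rw [sum_congr rfl fun b _ => h3 b, sum_const, card_univ, nsmul_eq_mul] at h4
  have h5 := (mul_eq_zero.1 h4).resolve_left (Nat.cast_ne_zero.2 Fintype.card_ne_zero)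
  have h6 := congrArg M.ψ h5
  rw [map_zero, map_sum] at h6
  rw [map_sum, ← h6]
  exact sum_congr rfl fun y _ => (congrFun k3 _).symm

theorem exists_good {β : H → k} (h : Cl β) (hi : cv β β = β) :
    ∃ ε : H → M.O, Good M p ε ∧ M.ψ ∘ ε = β := by
  obtain ⟨ε, k1, k2, k3⟩ := lift_idem (M := M) h hi
  refine ⟨ε, ⟨k1, by rw [k3, hi], fun g hg => ?_⟩, k3⟩
  have h1 := orth0 (p := p) k1 k2 (a := 1) (by simp [IsReg]) hg
  simp only [inv_one, mul_one, k1 g, sum_const, card_univ, nsmul_eq_mul] at h1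
  exact (mul_eq_zero.1 h1).resolve_left (Nat.cast_ne_zero.2 Fintype.card_ne_zero)

end Vale.Agent.P179
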