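import Vale.Agent.P179B.PA

/-! P179, blocks: a projectivity argument.

Generalizes eps_zero in P179/RC.lean. For an n-th root of unity θ put F θ = n⁻¹ ∑ j < n, θ ^ (-j) • (matrix of σ ^ j), an idempotent with entries in O commuting with E and τ,
E1 = E * F θ is idempotent and τ invariant. U = zpowers τ acts freely on Ω; with orbit representatives T and a character λ of U put (E1 λ) s t = ∑ v : U, E1 s (v • t) * λ v
(idempotent), trace_eq shows that the trace ∑ v, λ v * ∑ s ∈ T, E1 s (v • s) does not depend on λ; Fourier inversion on U, then on ZMod n (sum over θ). U is commutative so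
∑ α : Ω, E1 α (v • α) = card U * ∑ s ∈ T, E1 s (v • s).
-/

open Finset
open scoped Classical

noncomputable section

namespace Vale.Agent.P179

set_option linter.unusedSectionVars false

variable {p : ℕ} [Fact p.Prime] {H : Type} [Group H] [Fintype H] {k : Type} [Field k] [CharP k p]
  {M : PM k}

theorem RB2_four {G : Type} [Group G] [Fintype G] (hc : ∀ a b : G, a * b = b * a) (f : G → ℂ) (c : ℂ)
    (h : ∀ l : G → ℂ, (∀ u v, l (u * v) = l u * l v) → (∀ u n, l (u ^ n) = l u ^ n) →
      ∑ u, f u * l u = c) {x : G} (hx : x ≠ 1) : f x = 0 := by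
  let _ : CommGroup G := { ‹Group G› with mul_comm := hc }
  refine RC_four (G := G) f c (fun ψ => h (fun u => ψ (Additive.ofMul u)) (fun u v => ?_)
    fun u n => ?_) hx
  · rw [ofMul_mul, AddChar.map_add_eq_mul]
  · rw [ofMul_pow, AddChar.map_nsmul_eq_pow]

theorem RB2_sum {U Ω : Type} [Group U] [Fintype U] [MulAction U Ω] [Fintype Ω]
    (hf : ∀ (u : U) (α : Ω), u • α = α → u = 1) (f : Ω → M.O) :
    ∑ r : Quotient (MulAction.orbitRel U Ω), ∑ v : U, f (v • r.out) = ∑ g, f g := by
  rw [← Fintype.sum_prod_type' (fun (r : Quotient (MulAction.orbitRel U Ω)) (v : U) => f (v • r.out))]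
  refine Fintype.sum_bijective (fun z : Quotient (MulAction.orbitRel U Ω) × U => z.2 • z.1.out)
    ⟨?_, ?_⟩ _ _ fun _ => rfl
  · rintro ⟨r, v⟩ ⟨r', v'⟩ h
    have h' : v • r.out = v' • r'.out := h
    have h1 : r = r' := by
      rw [← r.out_eq, ← r'.out_eq]
      exact Quotient.sound ⟨v⁻¹ * v', by
        change (v⁻¹ * v') • r'.out = r.out
        rw [mul_smul, ← h', inv_smul_smul]⟩
    subst h1
    have h2 := hf (v⁻¹ * v') r.out (by rw [mul_smul, ← h', inv_smul_smul])
    exact Prod.ext rfl (inv_mul_eq_one.1 h2)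
  · intro g
    obtain ⟨u, hu⟩ : (MulAction.orbitRel U Ω) g (Quotient.mk (MulAction.orbitRel U Ω) g).out :=
      Quotient.exact (Quotient.out_eq _).symm
    exact ⟨(Quotient.mk _ g, u), hu⟩

theorem RB2_free {U Ω : Type} [Group U] [Fintype U] [MulAction U Ω] [Fintype Ω]
    (hc : ∀ a b : U, a * b = b * a) (hf : ∀ (u : U) (α : Ω), u • α = α → u = 1) {j : ℕ}
    (hu : ∀ u : U, u ^ p ^ j = 1) (E : Ω → Ω → M.O) (hE : ∀ α γ, ∑ β, E α β * E β γ = E α γ)
    (e : ∀ (u : U) α β, E (u • α) (u • β) = E α β) {x : U} (hx : x ≠ 1) :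
    ∑ α, E α (x • α) = 0 := by
  have hp : 0 < p ^ j := Nat.pow_pos (Fact.out : p.Prime).pos
  let m : (U → M.O) → Matrix (Quotient (MulAction.orbitRel U Ω))
      (Quotient (MulAction.orbitRel U Ω)) M.O :=
    fun l => Matrix.of fun s t => ∑ v : U, E s.out (v • t.out) * l v
  have a1 : ∀ l : U → M.O, (∀ u v, l (u * v) = l u * l v) → m l * m l = m l := by
    intro l hl
    ext1 s t
    simp only [m, Matrix.mul_apply, Matrix.of_apply]
    have h1 : ∀ r : Quotient (MulAction.orbitRel U Ω), (∑ u : U, E s.out (u • r.out) * l u) *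
        (∑ v : U, E r.out (v • t.out) * l v) =
        ∑ w : U, ∑ u : U, E s.out (u • r.out) * E (u • r.out) (w • t.out) * l w := by
      intro r
      rw [sum_mul_sum]
      conv_rhs => rw [sum_comm]
      refine sum_congr rfl fun u _ => Fintype.sum_equiv (Equiv.mulLeft u) _ _ fun v => ?_
      simp only [Equiv.coe_mulLeft, hl, mul_smul, e]
      ring
    simp only [h1]
    rw [sum_comm]
    refine sum_congr rfl fun w _ => ?_
    simp only [← sum_mul]
    rw [RB2_sum hf fun g => E s.out g * E g (w • t.out), hE]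
  have a2 : ∀ l : U → M.O, (m l).trace =
      ∑ v : U, (∑ s : Quotient (MulAction.orbitRel U Ω), E s.out (v • s.out)) * l v := by
    intro l
    simp only [m, Matrix.trace, Matrix.diag, Matrix.of_apply, sum_mul]
    exact sum_comm
  have a3 := RB2_four hc
    (fun v => ((∑ s : Quotient (MulAction.orbitRel U Ω), E s.out (v • s.out) : M.O) : ℂ))
    (((m fun _ => 1).trace : M.O) : ℂ) (fun l h1 h2 => by
      have h0 : l 1 = 1 := by simpa using h2 1 0
      have hψ : ∀ u : U, l u ^ p ^ j = 1 := fun u => by rw [← h2, hu, h0]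
      have hO : ∀ u : U, l u ∈ M.O := fun u =>
        M.int _ (IsIntegral.of_pow hp (by rw [hψ]; exact isIntegral_one))
      rw [← trace_eq M.ker_ne (m fun u => ⟨_, hO u⟩) _ (a1 _ fun u v => Subtype.ext (h1 u v))
        (a1 _ fun _ _ => (one_mul 1).symm) (fun s t => by
          simp only [m, Matrix.of_apply, ← sum_sub_distrib, ← mul_sub]
          exact Ideal.sum_mem _ fun u _ => Ideal.mul_mem_left _ _
            (M.root (p := p) _ j (Subtype.ext (hψ u)))), a2]
      simp) hx
  have a4 : ∑ s : Quotient (MulAction.orbitRel U Ω), E s.out (x • s.out) = 0 := Subtype.ext a3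
  rw [← RB2_sum hf fun g => E g (x • g), sum_comm]
  refine sum_eq_zero fun v _ => ?_
  simp only [← mul_smul, hc x v]
  simp only [mul_smul, e, a4]

theorem RB2_inv {Ω : Type} [Fintype Ω] (E : Ω → Ω → M.O) {σ : Equiv.Perm Ω}
    (e1 : ∀ α β, E (σ α) (σ β) = E α β) (u : Subgroup.zpowers σ) (α β : Ω) :
    E (u • α) (u • β) = E α β := by
  obtain ⟨u, hu⟩ := u
  obtain ⟨i, rfl⟩ := (mem_powers_iff_mem_zpowers).2 hu
  change E ((σ ^ i) α) ((σ ^ i) β) = E α β
  clear hu
  induction i with
  | zero => rfl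
  | succ i ih => rw [pow_succ', Equiv.Perm.mul_apply, Equiv.Perm.mul_apply, e1, ih]

theorem RB2_comm {G : Type} [Group G] {σ τ : G} (h : σ * τ = τ * σ) (u : Subgroup.zpowers σ)
    (v : Subgroup.zpowers τ) : (u : G) * v = v * u := by
  obtain ⟨_, i, rfl⟩ := u
  obtain ⟨_, j, rfl⟩ := v
  exact (Commute.zpow_zpow h i j).eq

theorem perm_zero {Ω : Type} [Fintype Ω] (E : Ω → Ω → M.O) (hE : ∀ α γ, ∑ β, E α β * E β γ = E α γ)
    (σ τ : Equiv.Perm Ω) {n j : ℕ} (hn : n.Coprime p) (h1 : σ ^ n = 1) (h2 : τ ^ p ^ j = 1)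
    (h3 : σ * τ = τ * σ) (h4 : ∀ (i : ℕ) α, (τ ^ i) α = α → τ ^ i = 1) (h5 : τ ≠ 1)
    (e1 : ∀ α β, E (σ α) (σ β) = E α β) (e2 : ∀ α β, E (τ α) (τ β) = E α β) :
    ∑ α, E α (σ (τ α)) = 0 := by
  have key : ∀ F : Ω → Ω → M.O, (∀ α γ, ∑ β, F α β * F β γ = F α γ) →
      (∀ α β, F (τ α) (τ β) = F α β) → ∑ α, F α (τ α) = 0 := fun F b1 b2 =>
    RB2_free (p := p) (U := Subgroup.zpowers τ) (j := j)
      (fun a b => Subtype.ext (RB2_comm rfl a b))
      (fun u α hu => by
        obtain ⟨u, hu1⟩ := u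
        obtain ⟨i, rfl⟩ := (mem_powers_iff_mem_zpowers).2 hu1
        exact Subtype.ext (h4 i α hu))
      (by
        rintro ⟨_, i, rfl⟩
        refine Subtype.ext ?_
        change (τ ^ i) ^ p ^ j = 1
        rw [← zpow_natCast, ← zpow_mul, mul_comm, zpow_mul, zpow_natCast, h2, one_zpow])
      F b1 (RB2_inv F b2) (x := ⟨τ, Subgroup.mem_zpowers τ⟩) fun h => h5 (congrArg Subtype.val h)
  by_cases h0 : σ = 1
  · subst h0
    exact key E hE e2
  have hc : (Fintype.card (Subgroup.zpowers σ)).Coprime p := by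
    rw [Fintype.card_zpowers]
    exact hn.coprime_dvd_left (orderOf_dvd_of_pow_eq_one h1)
  obtain ⟨c, hc1⟩ : ∃ c : M.O, c * Fintype.card (Subgroup.zpowers σ) = 1 :=
    ⟨⟨_, M.inv_mem hc⟩, Subtype.ext (by
      simp)⟩
  have a3 := RB2_four (G := Subgroup.zpowers σ) (fun a b => Subtype.ext (RB2_comm rfl a b))
    (fun v => ((∑ α, E α (v • τ α) : M.O) : ℂ)) 0 (fun l b1 b2 => by
      have b0 : l 1 = 1 := by simpa using b2 1 0
      have hO : ∀ u, l u ∈ M.O := fun u => M.int _ (IsIntegral.of_pow Fintype.card_pos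
        (by rw [← b2, pow_card_eq_one, b0]; exact isIntegral_one))
      obtain ⟨l1, c1, c2⟩ : ∃ l1 : Subgroup.zpowers σ → M.O, (∀ u, (l1 u : ℂ) = l u) ∧
        ∀ u v, l1 (u * v) = l1 u * l1 v :=
        ⟨fun u => ⟨_, hO u⟩, fun _ => rfl, fun u v => Subtype.ext (b1 u v)⟩
      have a4 := key (fun α β => c * ∑ v : Subgroup.zpowers σ, E α (v • β) * l1 v) (fun α γ => by
        have d1 : ∀ β, (c * ∑ v : Subgroup.zpowers σ, E α (v • β) * l1 v) *
            (c * ∑ v : Subgroup.zpowers σ, E β (v • γ) * l1 v) = ∑ u : Subgroup.zpowers σ,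
            ∑ w : Subgroup.zpowers σ, c * c * l1 w * (E α (u • β) * E (u • β) (w • γ)) := by
          intro β
          rw [mul_mul_mul_comm, sum_mul_sum, mul_sum]
          refine sum_congr rfl fun u _ => ?_
          rw [mul_sum]
          refine Fintype.sum_equiv (Equiv.mulLeft u) _ _ fun v => ?_
          simp only [Equiv.coe_mulLeft, c2, mul_smul, RB2_inv E e1]
          ring
        have d2 : ∀ u w : Subgroup.zpowers σ, ∑ β, c * c * l1 w * (E α (u • β) * E (u • β) (w • γ)) =
            c * c * l1 w * E α (w • γ) := fun u w => by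
          rw [← mul_sum, ← hE α]
          congr 1
          exact Fintype.sum_equiv (MulAction.toPerm u) _ _ fun _ => rfl
        simp only [d1]
        rw [sum_comm]
        simp only [sum_comm (s := (univ : Finset Ω)), d2, sum_const, card_univ, nsmul_eq_mul, mul_sum]
        refine sum_congr rfl fun w _ => ?_
        linear_combination (c * l1 w * E α (w • γ)) * hc1) (fun α β => by
        congr 1
        refine sum_congr rfl fun v _ => ?_
        have d3 : v • τ β = τ (v • β) :=
          DFunLike.congr_fun (RB2_comm h3 v ⟨τ, Subgroup.mem_zpowers τ⟩) β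
        rw [d3, e2])
      rw [← mul_sum, sum_comm] at a4
      have a5 : ∑ v : Subgroup.zpowers σ, ∑ α, E α (v • τ α) * l1 v = 0 := by
        rw [← one_mul (∑ v : Subgroup.zpowers σ, _), ← hc1, mul_comm c, mul_assoc, a4, mul_zero]
      have a6 := congrArg (fun z : M.O => (z : ℂ)) a5
      simpa [← c1, sum_mul] using a6) (x := ⟨σ, Subgroup.mem_zpowers σ⟩)
      fun h => h0 (congrArg Subtype.val h)
  exact Subtype.ext a3

end Vale.Agent.P179
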