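import Vale.Agent.P179.Stmt

/-! Blocks, and the simple modules and weights that belong to a block. -/

open scoped Classical

noncomputable section

namespace Vale.Agent.P179

variable {k G : Type} [Field k] [Group G] [Fintype G]

/-- A block: a primitive idempotent of the centre of the group algebra. -/
def IsBlock (B : MonoidAlgebra k G) : Prop :=
  B ∈ Subalgebra.center k (MonoidAlgebra k G) ∧ B * B = B ∧ B ≠ 0 ∧
    ∀ e ∈ Subalgebra.center k (MonoidAlgebra k G), ∀ f ∈ Subalgebra.center k (MonoidAlgebra k G),
      e * e = e → f * f = f → e * f = 0 → B = e + f → e = 0 ∨ f = 0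

/-- The simple module `S` lies in the block `B`: the block acts as the identity. -/
def Simple.In (S : Simple k G) (B : MonoidAlgebra k G) : Prop := S.ρ.asAlgebraHom B = 1

/-- The number of isomorphism classes of simple modules in `B`. -/
def numSimpleIn (B : MonoidAlgebra k G) : ℕ :=
  Nat.card (Quot fun S T : {S : Simple k G // S.In B} => Nonempty (S.1.ρ.Equiv T.1.ρ))

/-- The sum of the conjugacy class of `x`. -/
def classSum (k : Type) [Field k] (x : G) : MonoidAlgebra k G :=
  ∑ y : G with IsConj x y, MonoidAlgebra.of k G y

/-- The central character of the inflation of `φ` to the normalizer `N` of `Q`, evaluated on the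
sum of the elements of `N` that are conjugate to `x` in `G`. -/
def omega (Q : Subgroup G) (φ : NQ Q → ℂ) (x : G) : ℂ :=
  (∑ n : Subgroup.normalizer (Q : Set G),
    if IsConj x (n : G) then φ (QuotientGroup.mk n) else 0) / φ 1

/-- The weight `w` belongs to `B`: the central character of the block of the normalizer that
contains the inflated character (reduction `ψ` of its ordinary central character), composed with
the truncation to the normalizer, is the central character of `B`. -/
def Weight.In {p : ℕ} (ψ : integralClosure ℤ ℂ →+* k) (w : Weight p G) (B : MonoidAlgebra k G) :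
    Prop :=
  ∃ S : Simple k G, S.In B ∧ ∀ x : G, ∃ z : integralClosure ℤ ℂ, (z : ℂ) = omega w.Q w.φ x ∧
    S.ρ.asAlgebraHom (classSum k x) = ψ z • 1

/-- The number of conjugacy classes of weights that belong to `B`. -/
def numWeightsIn (p : ℕ) (ψ : integralClosure ℤ ℂ →+* k) (B : MonoidAlgebra k G) : ℕ :=
  Nat.card (Quot fun w w' : {w : Weight p G // w.In ψ B} => w.1.Conj w'.1)

end Vale.Agent.P179
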