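import Vale.Agent.P179B.PB

/-! P179, blocks: the twists on quadruples.

Copy P179/XA.lean. y • ξ = (y • ξ.1, val y * ξ.2 * (val y)⁻¹) by rfl. All relations hold in the free group (checked by machine): use Prod.ext, cu, cm and group;
(t1 t2 t3) (a, b, g) = (b⁻¹ g, g⁻¹ b a b⁻¹ g, g⁻¹ b a b⁻¹ g b a⁻¹ b⁻¹ g). An element centralizing the members of a chain normalizes them; cu ξ fixes the chain.
-/

open Finset
open scoped Classical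

noncomputable section

namespace Vale.Agent.P179

set_option linter.unusedSectionVars false

variable {p : ℕ} [Fact p.Prime] {H : Type} [Group H] [Fintype H] {C : CSub H} {x : H} {Γ : H → Prop}

theorem YA_t1 (ξ : T4 H) : t1 ξ = ((ξ.1.1, ξ.1.2.1, ξ.1.2.2 * ξ.1.2.1), ξ.2) := rfl

theorem YA_t2 (ξ : T4 H) : t2 ξ = ((ξ.1.1, ξ.1.2.1 * ξ.1.2.2⁻¹, ξ.1.2.2), ξ.2) := rfl

theorem YA_t3 (ξ : T4 H) :
    t3 ξ = ((ξ.1.1, ξ.1.2.1, (cu ξ)⁻¹ * ξ.1.2.2), (cu ξ)⁻¹ * ξ.2 * cu ξ) := rfl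

theorem YA_fx {g : H} {σ : Finset (Subgroup H)} (h : CzC g σ) : FxC g σ := fun Q hQ =>
  Subgroup.centralizer_le_normalizer (Q : Set H) fun q hq => (h Q hQ q hq).symm

theorem mem_E1 {ξ : T4 H} {e : H} : e ∈ E1 C ξ ↔
    e ∈ C.P ∧ e * ξ.1.2.1 = ξ.1.2.1 * e ∧ FxC e ξ.1.1 ∧ e * ξ.2 = ξ.2 * e := by
  rw [E1, Subgroup.mem_inf, mem_E0, Subgroup.mem_centralizer_singleton_iff, and_assoc, and_assoc]

theorem smul4_iff {ξ : T4 H} (hσ : IsCh p ⊥ ξ.1.1) (y : C.G) :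
    y • ξ = ξ ↔ C.val y ∈ E1 C ξ ∧ C.val y * ξ.1.2.2 = ξ.1.2.2 * C.val y := by
  change (y • ξ.1, C.val y * ξ.2 * (C.val y)⁻¹) = ξ ↔ _
  rw [Prod.ext_iff, smul_eq_iff hσ, mul_inv_eq_iff_eq_mul, E1, Subgroup.mem_inf,
    Subgroup.mem_centralizer_singleton_iff, and_right_comm]

theorem free4_iff {ξ : T4 H} (hσ : IsCh p ⊥ ξ.1.1) :
    Free C.G ξ ↔ ∀ e ∈ E1 C ξ, e * ξ.1.2.2 = ξ.1.2.2 * e → e = 1 := by
  refine ⟨fun h e he hb => ?_, fun h y hy => val_inj ?_⟩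
  · exact congrArg C.val (h ⟨e, (mem_E1.1 he).1⟩ ((smul4_iff hσ _).2 ⟨he, hb⟩))
  · exact h _ ((smul4_iff hσ y).1 hy).1 ((smul4_iff hσ y).1 hy).2

theorem E1_smul (y : C.G) (ξ : T4 H) : E1 C (y • ξ) = E1 C ξ := by
  ext e
  change e ∈ E0 C (y • ξ.1) ⊓ Subgroup.centralizer {C.val y * ξ.2 * (C.val y)⁻¹} ↔ _
  rw [E0_smul, E1, Subgroup.mem_inf, Subgroup.mem_inf, Subgroup.mem_centralizer_singleton_iff,
    Subgroup.mem_centralizer_singleton_iff]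
  refine and_congr_right fun he => ?_
  have h : C.val y * e * (C.val y)⁻¹ = e := by
    rw [C.comm _ (val_mem y) _ (mem_E0.1 he).1, mul_inv_cancel_right]
  rw [← h, conj_mul, conj_mul, mul_left_inj, mul_right_inj, h]

theorem czC_cc {y g : H} {σ : Finset (Subgroup H)} : CzC (y * g * y⁻¹) (cc y σ) ↔ CzC g σ := by
  unfold CzC cc
  rw [Finset.forall_mem_image]
  refine forall_congr' fun Q => forall_congr' fun _ => ?_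
  unfold Cz cs
  constructor
  · intro h q hq
    have := h (y * q * y⁻¹) ⟨q, hq, rfl⟩
    rwa [conj_mul, conj_mul, mul_left_inj, mul_right_inj] at this
  · rintro h _ ⟨q, hq, rfl⟩
    change y * g * y⁻¹ * (y * q * y⁻¹) = y * q * y⁻¹ * (y * g * y⁻¹)
    rw [conj_mul, conj_mul, h q hq]

theorem eqv_t1 : Eqv C.G (t1 : Equiv.Perm (T4 H)) := by
  exact fun y ξ => Prod.ext (eqv_s1 y ξ.1) rfl

theorem eqv_t2 : Eqv C.G (t2 : Equiv.Perm (T4 H)) := by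
  exact fun y ξ => Prod.ext (eqv_s2 y ξ.1) rfl

theorem eqv_t3 : Eqv C.G (t3 : Equiv.Perm (T4 H)) := by
  intro y ξ
  have h : cu (y • ξ) = C.val y * cu ξ * (C.val y)⁻¹ := by
    change C.val y * ξ.1.2.2 * (C.val y)⁻¹ * (C.val y * ξ.1.2.1 * (C.val y)⁻¹)⁻¹ *
      (C.val y * ξ.1.2.2 * (C.val y)⁻¹)⁻¹ * (C.val y * ξ.2 * (C.val y)⁻¹) = _
    unfold cu
    group
  refine Prod.ext (Prod.ext rfl (Prod.ext rfl ?_)) ?_
  · change (cu (y • ξ))⁻¹ * (C.val y * ξ.1.2.2 * (C.val y)⁻¹) =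
      C.val y * ((cu ξ)⁻¹ * ξ.1.2.2) * (C.val y)⁻¹
    rw [h]
    group
  · change (cu (y • ξ))⁻¹ * (C.val y * ξ.2 * (C.val y)⁻¹) * cu (y • ξ) =
      C.val y * ((cu ξ)⁻¹ * ξ.2 * cu ξ) * (C.val y)⁻¹
    rw [h]
    group

theorem t_braid : (t1 * t2 * t1 : Equiv.Perm (T4 H)) = t2 * t1 * t2 := by
  exact Equiv.ext fun ξ => Prod.ext (DFunLike.congr_fun s_braid ξ.1) rfl

theorem t_braid1 : (t2 * t3 * t2 : Equiv.Perm (T4 H)) = t3 * t2 * t3 := by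
  refine Equiv.ext fun ξ => ?_
  simp only [Equiv.Perm.mul_apply, YA_t2, YA_t3, cu, Prod.mk.injEq, true_and]
  refine ⟨⟨?_, ?_⟩, ?_⟩ <;> group

theorem t1_pow (n : ℕ) (ξ : T4 H) :
    (t1 ^ n : Equiv.Perm (T4 H)) ξ = ((ξ.1.1, ξ.1.2.1, ξ.1.2.2 * ξ.1.2.1 ^ n), ξ.2) := by
  induction n with
  | zero => simp
  | succ n ih =>
    rw [pow_succ', Equiv.Perm.mul_apply, ih, pow_succ, ← mul_assoc]
    rfl

theorem chain4 {ξ : T4 H} (hξ : InY p x Γ ξ) {y : C.G} (hy : C.val y = x) :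
    ((t1 * t2 * t3) ^ 4 : Equiv.Perm (T4 H)) ξ = y⁻¹ • ξ := by
  have h1 : ∀ ξ : T4 H, (t1 * t2 * t3 : Equiv.Perm (T4 H)) ξ =
      ((ξ.1.1, ξ.1.2.2⁻¹ * ξ.2, ξ.2⁻¹ * ξ.1.2.2 * ξ.1.2.1 * ξ.1.2.2⁻¹ * ξ.2),
        ξ.2⁻¹ * ξ.1.2.2 * ξ.1.2.1 * ξ.1.2.2⁻¹ * ξ.2 * ξ.1.2.2 * ξ.1.2.1⁻¹ * ξ.1.2.2⁻¹ * ξ.2) := by
    intro ξ
    simp only [Equiv.Perm.mul_apply, YA_t1, YA_t2, YA_t3, cu, Prod.mk.injEq, true_and]
    refine ⟨⟨?_, ?_⟩, ?_⟩ <;> group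
  have h2 : cc x⁻¹ ξ.1.1 = ξ.1.1 := by
    have a := fxC_iff.1 hξ.2.1
    have b := fxC_iff.1 hξ.2.2.1
    have c := fxC_iff.1 (YA_fx hξ.2.2.2.1)
    rw [cc_eq_iff hξ.1, fxC_iff, ← hξ.2.2.2.2.2]
    exact inv_mem (mul_mem (mul_mem (mul_mem (mul_mem a b) (inv_mem a)) (inv_mem b)) c)
  change _ = ((cj (C.val y)⁻¹ ξ.1, (C.val y)⁻¹ * ξ.2 * (C.val y)⁻¹⁻¹) : T4 H)
  rw [hy, cj, h2, ← hξ.2.2.2.2.2, show 4 = 1 + 1 + 1 + 1 from rfl]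
  generalize (t1 * t2 * t3 : Equiv.Perm (T4 H)) = D at h1
  simp only [pow_succ, pow_zero, one_mul, Equiv.Perm.mul_apply, h1, cm, Prod.mk.injEq, true_and]
  refine ⟨⟨?_, ?_⟩, ?_⟩ <;> group

theorem YA_smul (hΓ : ∀ g y, Γ (y * g * y⁻¹) ↔ Γ g) (hx : x ∈ C.P) (y : C.G) (ξ : T4 H) :
    InY p x Γ (y • ξ) ↔ InY p x Γ ξ := by
  have h : C.val y * x * (C.val y)⁻¹ = x := by
    rw [C.comm _ (val_mem y) _ hx, mul_inv_cancel_right]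
  have h1 : cm (C.val y * ξ.1.2.1 * (C.val y)⁻¹) (C.val y * ξ.1.2.2 * (C.val y)⁻¹) *
      (C.val y * ξ.2 * (C.val y)⁻¹) = C.val y * (cm ξ.1.2.1 ξ.1.2.2 * ξ.2) * (C.val y)⁻¹ := by
    unfold cm
    group
  change InY p x Γ (cj (C.val y) ξ.1, C.val y * ξ.2 * (C.val y)⁻¹) ↔ _
  unfold InY cj
  dsimp only
  rw [fxC_cc, fxC_cc, czC_cc, hΓ, h1, ← h, mul_left_inj, mul_right_inj, h, ← cs_bot (C.val y),
    isCh_cc, cs_bot]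

theorem YA_cu {ξ : T4 H} (h : InY p x Γ ξ) : cu ξ ∈ St ξ.1.1 := by
  have a := fxC_iff.1 h.2.1
  have b := fxC_iff.1 h.2.2.1
  have c := fxC_iff.1 (YA_fx h.2.2.2.1)
  exact mul_mem (mul_mem (mul_mem b (inv_mem a)) (inv_mem b)) c

theorem YA_tw (hΓ : ∀ g y, Γ (y * g * y⁻¹) ↔ Γ g) {ξ : T4 H} (h : InY p x Γ ξ) {u : H}
    (hu : u ∈ St ξ.1.1)
    (e : cm ξ.1.2.1 (u * ξ.1.2.2) * (u * ξ.2 * u⁻¹) = cm ξ.1.2.1 ξ.1.2.2 * ξ.2) :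
    InY p x Γ ((ξ.1.1, ξ.1.2.1, u * ξ.1.2.2), u * ξ.2 * u⁻¹) := by
  refine ⟨h.1, h.2.1, fxC_iff.2 (mul_mem hu (fxC_iff.1 h.2.2.1)), ?_, (hΓ _ _).2 h.2.2.2.2.1,
    e.trans h.2.2.2.2.2⟩
  have h1 := (czC_cc (y := u)).2 h.2.2.2.1
  rwa [(cc_eq_iff h.1).2 (fxC_iff.2 hu)] at h1

theorem wt_wy (hΓ : ∀ g y, Γ (y * g * y⁻¹) ↔ Γ g) (hx : x ∈ C.P) : Wt C.G (wy p C x Γ) := by
  refine ⟨fun ξ h => ?_, fun y ξ => ?_⟩
  · by_contra h1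
    exact h (if_neg fun h2 => h1 h2.2)
  · have h : Free C.G (y • ξ) ↔ Free C.G ξ := forall_congr' fun z => by
      rw [smul_comm z y, smul_left_cancel_iff]
    unfold wy
    rw [YA_smul hΓ hx, h]
    exact congrArg (ite _ · _) (sg_cc _ _)

theorem wy_t1 (ξ : T4 H) : wy p C x Γ (t1 ξ) = wy p C x Γ ξ := by
  have h : InY p x Γ (t1 ξ) ↔ InY p x Γ ξ := by
    have e : cm ξ.1.2.1 (ξ.1.2.2 * ξ.1.2.1) = cm ξ.1.2.1 ξ.1.2.2 := by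
      unfold cm
      group
    rw [YA_t1]
    unfold InY
    dsimp only
    rw [e]
    refine and_congr_right fun _ => and_congr_right fun ha => and_congr_left fun _ => ?_
    rw [fxC_iff, fxC_iff, mul_mem_cancel_right (fxC_iff.1 ha)]
  unfold wy
  rw [h, eqv_t1.free]
  rfl

theorem wy_t2 (ξ : T4 H) : wy p C x Γ (t2 ξ) = wy p C x Γ ξ := by
  have h : InY p x Γ (t2 ξ) ↔ InY p x Γ ξ := by
    have e : cm (ξ.1.2.1 * ξ.1.2.2⁻¹) ξ.1.2.2 = cm ξ.1.2.1 ξ.1.2.2 := by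
      unfold cm
      group
    rw [YA_t2]
    unfold InY
    dsimp only
    rw [e]
    refine and_congr_right fun _ => and_congr_left fun hb => ?_
    rw [fxC_iff, fxC_iff, mul_mem_cancel_right (inv_mem (fxC_iff.1 hb.1))]
  unfold wy
  rw [h, eqv_t2.free]
  rfl

theorem wy_t3 (hΓ : ∀ g y, Γ (y * g * y⁻¹) ↔ Γ g) (ξ : T4 H) : wy p C x Γ (t3 ξ) = wy p C x Γ ξ := by
  have h : InY p x Γ (t3 ξ) ↔ InY p x Γ ξ := by
    constructor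
    · intro h
      have h1 : InY p x Γ (t3.symm (t3 ξ)) := YA_tw hΓ h (YA_cu h) (by unfold cm cu; group)
      rwa [Equiv.symm_apply_apply] at h1
    · intro h
      have h1 := YA_tw hΓ h (inv_mem (YA_cu h)) (by unfold cm cu; group)
      rw [inv_inv] at h1
      exact h1
  unfold wy
  rw [h, eqv_t3.free]
  rfl

theorem wy_val (ξ : T4 H) : wy p C x Γ ξ = 0 ∨ wy p C x Γ ξ = 1 ∨ wy p C x Γ ξ = -1 := by
  unfold wy
  split_ifs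
  · exact Or.inr (neg_one_pow_eq_or ℤ _)
  · exact Or.inl rfl

theorem wy_ne {ξ : T4 H} : wy p C x Γ ξ ≠ 0 ↔ InY p x Γ ξ ∧ Free C.G ξ := by
  unfold wy
  split_ifs with h
  · exact iff_of_true (pow_ne_zero _ (by norm_num)) h
  · exact iff_of_false (fun h => h rfl) h

end Vale.Agent.P179
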