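import Vale.Agent.P179B.YA

/-! P179, blocks: stabilizers and the normal type.

Copy P179/XB.lean and P179/XC.lean with E1 in place of E0; g centralizes E1, use czC_tg.
-/

open Finset
open scoped Classical

noncomputable section

namespace Vale.Agent.P179

set_option linter.unusedSectionVars false

variable {p : ℕ} [Fact p.Prime] {H : Type} [Group H] [Fintype H] {C : CSub H} {x : H} {Γ : H → Prop}

theorem YB_bot (g : H) : Cz g ⊥ := fun q hq => by simp [Subgroup.mem_bot.1 hq]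

theorem YB_P {y : H} (hy : y ∈ C.P) (ξ : T4 H) : Fx y (E1 C ξ) :=
  XC_cent fun e he => C.comm e (mem_E1.1 he).1 y hy

theorem YB_a (ξ : T4 H) : Fx ξ.1.2.1 (E1 C ξ) := XC_cent fun _ he => (mem_E1.1 he).2.1

theorem YB_g (ξ : T4 H) : Cz ξ.2 (E1 C ξ) := fun _ he => (mem_E1.1 he).2.2.2.symm

theorem YB_E (ξ : T4 H) : E1 C (((tg ⊥ (E1 C ξ) ξ.1.1, ξ.1.2), ξ.2) : T4 H) = E1 C ξ :=
  Subgroup.ext fun e => by
    rw [mem_E1, mem_E1]
    exact and_congr_right fun he => and_congr_right fun _ => and_congr_left'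
      (fxC_tg (fx_bot e) (YB_P he ξ))

theorem YB_zero (hP : IsPGroup p C.P) (a b g : H) :
    ∑ σ : Finset (Subgroup H) with (IsCh p ⊥ σ ∧ FxC a σ ∧ FxC b σ ∧ CzC g σ) ∧
      ¬ Free C.G (((σ, a, b), g) : T4 H), sg σ = 0 := by
  let R : Finset (Subgroup H) → Subgroup H := fun σ =>
    E1 C (((σ, a, b), g) : T4 H) ⊓ Subgroup.centralizer {b}
  have hm : ∀ σ e, e ∈ R σ ↔
      (e ∈ C.P ∧ e * a = a * e ∧ FxC e σ ∧ e * g = g * e) ∧ e * b = b * e := fun σ e => by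
    rw [Subgroup.mem_inf, mem_E1, Subgroup.mem_centralizer_singleton_iff]
  have hf : ∀ σ, IsCh p ⊥ σ → (Free C.G (((σ, a, b), g) : T4 H) ↔ R σ ≤ ⊥) := fun σ hσ => by
    rw [free4_iff (p := p) hσ]
    exact ⟨fun h e he => h e he.1 ((hm σ e).1 he).2, fun h e he h' =>
      h ⟨he, Subgroup.mem_centralizer_singleton_iff.2 h'⟩⟩
  refine sum_sg_zero _ ⊥ R fun σ hσ => ?_
  obtain ⟨⟨h1, h2, h3, h7⟩, h4⟩ := (mem_filter.1 hσ).2
  rw [hf σ h1] at h4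
  have h5 := tg_isCh IsPGroup.of_bot (hP.to_le fun e he => ((hm σ e).1 he).1.1) h4
    (fun r _ => fx_bot r) h1 fun r hr => ((hm σ r).1 hr).1.2.2.1
  have h6 : R (tg ⊥ (R σ) σ) = R σ := by
    ext e
    rw [hm, hm]
    refine and_congr_left' (and_congr_right fun he => and_congr_right' (and_congr_left' ?_))
    exact fxC_tg (fx_bot e) (XC_cent fun r hr => C.comm _ ((hm σ r).1 hr).1.1 _ he)
  refine ⟨mem_filter.2 ⟨mem_univ _, ⟨h5,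
    (fxC_tg (fx_bot a) (XC_cent fun r hr => ((hm σ r).1 hr).1.2.1)).2 h2,
    (fxC_tg (fx_bot b) (XC_cent fun r hr => ((hm σ r).1 hr).2)).2 h3,
    (czC_tg (YB_bot g) fun r hr => ((hm σ r).1 hr).1.2.2.2.symm).2 h7⟩, ?_⟩, h6⟩
  rwa [hf _ h5, h6]

theorem sum_wy (hP : IsPGroup p C.P) :
    ∑ y : H × H × H with Γ y.2.2 ∧ c3 y = x, mu3 p y = ∑ ξ : T4 H, wy p C x Γ ξ := by
  have e : ∑ ξ : T4 H, wy p C x Γ ξ = ∑ y : H × H × H, ∑ σ : Finset (Subgroup H),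
      wy p C x Γ ((σ, y.1, y.2.1), y.2.2) := by
    rw [← Fintype.sum_prod_type']
    exact Fintype.sum_equiv ⟨fun ξ => ((ξ.1.2.1, ξ.1.2.2, ξ.2), ξ.1.1),
      fun z => ((z.2, z.1.1, z.1.2.1), z.1.2.2), fun _ => rfl, fun _ => rfl⟩ _ _ fun _ => rfl
  rw [sum_filter, e]
  refine sum_congr rfl fun y _ => ?_
  split_ifs with h
  · have e1 : mu3 p y = ∑ σ : Finset (Subgroup H) with
        IsCh p ⊥ σ ∧ FxC y.1 σ ∧ FxC y.2.1 σ ∧ CzC y.2.2 σ, sg σ := by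
      rw [mu3, muA]
      refine sum_congr (Finset.ext fun σ => ?_) fun _ _ => rfl
      simp only [mem_filter, mem_univ, true_and]
      refine and_congr_right fun _ => ?_
      exact ⟨fun k => ⟨fun Q hQ => (k Q hQ).1, fun Q hQ => (k Q hQ).2.1, fun Q hQ => (k Q hQ).2.2⟩,
        fun k Q hQ => ⟨k.1 Q hQ, k.2.1 Q hQ, k.2.2 Q hQ⟩⟩
    have h2 : cm y.1 y.2.1 * y.2.2 = x := h.2
    rw [e1, ← sum_filter_add_sum_filter_not _ fun σ =>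
      Free C.G (((σ, y.1, y.2.1), y.2.2) : T4 H), filter_filter, filter_filter, YB_zero hP,
      add_zero, sum_filter]
    refine sum_congr rfl fun σ _ => ?_
    simp only [wy, InY, h.1, h2, and_true]
  · exact (sum_eq_zero fun σ _ => if_neg fun k => h k.1.2.2.2.2).symm

theorem ny_smul (y : C.G) (ξ : T4 H) : Ny C (y • ξ) ↔ Ny C ξ := by
  rw [Ny, Ny, E1_smul]
  refine and_congr_right fun _ => ?_
  have k := fx_cs (y := C.val y) (g := ξ.1.2.2) (Q := E1 C ξ)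
  rw [fx_iff.1 (YB_P (val_mem y) ξ)] at k
  exact k

theorem ny_t1 (ξ : T4 H) : Ny C (t1 ξ) ↔ Ny C ξ := by
  refine and_congr_right fun _ => ?_
  exact Subgroup.mul_mem_cancel_right _ (YB_a (C := C) ξ)

theorem ny_tau (hP : IsPGroup p C.P) (τ : T4 H → T4 H)
    (hτ : ∀ ξ, τ ξ = ((tg ⊥ (E1 C ξ) ξ.1.1, ξ.1.2), ξ.2)) (ξ : T4 H) (h0 : wy p C x Γ ξ ≠ 0)
    (hN : Ny C ξ) : Ny C (τ ξ) ∧ τ (τ ξ) = ξ ∧ wy p C x Γ (τ ξ) = - wy p C x Γ ξ ∧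
      τ (t1 ξ) = t1 (τ ξ) ∧ ∀ y : C.G, τ (y • ξ) = y • τ ξ := by
  obtain ⟨⟨h1, h2, h3, h4, h6, h7⟩, h5⟩ := wy_ne.1 h0
  have e1 : E1 C (τ ξ) = E1 C ξ := by rw [hτ, YB_E]
  have k1 : IsCh p ⊥ (tg ⊥ (E1 C ξ) ξ.1.1) := tg_isCh IsPGroup.of_bot
    (hP.to_le fun e he => (mem_E1.1 he).1) (fun k => hN.1 (le_bot_iff.1 k))
    (fun r _ => fx_bot r) h1 fun r hr => (mem_E1.1 hr).2.2.1
  have k2 : InY p x Γ (τ ξ) := by
    rw [hτ]
    exact ⟨k1, (fxC_tg (fx_bot _) (YB_a ξ)).2 h2, (fxC_tg (fx_bot _) hN.2).2 h3,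
      (czC_tg (YB_bot _) (YB_g ξ)).2 h4, h6, h7⟩
  have k3 : Free C.G (τ ξ) := by
    rw [free4_iff k2.1, e1, hτ]
    exact (free4_iff h1).1 h5
  refine ⟨?_, ?_, ?_, ?_, fun y => ?_⟩
  · rw [Ny, e1, hτ]
    exact hN
  · rw [hτ (τ ξ), e1, hτ, tg_tg]
  · rw [wy, wy, if_pos ⟨k2, k3⟩, if_pos ⟨⟨h1, h2, h3, h4, h6, h7⟩, h5⟩, hτ, sg_tg]
  · rw [hτ, hτ]
    rfl
  · rw [hτ, hτ, E1_smul]
    have k := tg_cc (C.val y) ⊥ (E1 C ξ) ξ.1.1
    rw [cs_bot, fx_iff.1 (YB_P (val_mem y) ξ)] at k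
    exact Prod.ext (Prod.ext k rfl) rfl

end Vale.Agent.P179
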